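import Vale.Agent.Lib.P170.Ops

/-!
Abstract operator inequalities for the mean backbone recursion: a Green bound for lazy
powers and a Pascal bound for the difference of powers.
-/

namespace Vale.Agent.Lib.P170T

open Finset Vale.Agent.Lib.P170

set_option linter.unusedSectionVars false
set_option linter.unusedVariables false

section abs

variable {X : Type} [DecidableEq X]

lemma orderPres_nonneg {T : Module.End ℝ (Fn X)} (hT : OrderPres T) {f : Fn X} (hf : 0 ≤ f) :
    0 ≤ T f := by
  have := hT 0 f hf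
  simpa using this

lemma orderPres_sub_smul_one_lazy {A : Module.End ℝ (Fn X)} (hA : OrderPres A) {a : ℝ}
    (h0 : 0 ≤ a) (h1 : a ≤ 1) : OrderPres (a • A + (1 - a) • (1 : Module.End ℝ (Fn X))) :=
  (hA.smul h0).add (OrderPres.one.smul (by linarith))

/-- Green bound: the expected time spent by a lazy chain at each level is `1/a`. -/
theorem green {A : Module.End ℝ (Fn X)} (hA : OrderPres A) {a : ℝ} (h0 : 0 < a) (h1 : a ≤ 1)
    {h : Fn X} (hh : 0 ≤ h) (N : ℕ) :
    ∑ m ∈ range N, ((a • A + (1 - a) • (1 : Module.End ℝ (Fn X))) ^ m) h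
      ≤ (1 / a) • ∑ i ∈ range N, (A ^ i) h := by
  induction N with
  | zero => simp
  | succ N ih =>
    set P := a • A + (1 - a) • (1 : Module.End ℝ (Fn X)) with hPdef
    have hP : OrderPres P := orderPres_sub_smul_one_lazy hA h0.le h1
    have e1 : ∑ m ∈ range (N + 1), (P ^ m) h
        = P (∑ m ∈ range N, (P ^ m) h) + h := by
      rw [Finset.sum_range_succ', map_sum]
      simp [pow_succ']
    have e2 : ∑ i ∈ range (N + 1), (A ^ i) h = A (∑ i ∈ range N, (A ^ i) h) + h := by
      rw [Finset.sum_range_succ', map_sum]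
      simp [pow_succ']
    have e3 : ∑ i ∈ range (N + 1), (A ^ i) h = ∑ i ∈ range N, (A ^ i) h + (A ^ N) h := by
      rw [Finset.sum_range_succ]
    rw [e1]
    have h2 := hP _ _ ih
    intro S
    have h3 := h2 S
    have h4 : (A ^ N) h S ≥ 0 := (orderPres_nonneg (hA.pow N) hh) S
    have e4 := congrFun e3 S
    have e5 := congrFun e2 S
    simp only [Pi.add_apply, Pi.smul_apply, smul_eq_mul] at e4 e5 ⊢
    have h5 : P ((1 / a) • ∑ i ∈ range N, (A ^ i) h) S
        = (A (∑ i ∈ range N, (A ^ i) h)) S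
          + ((1 - a) / a) * (∑ i ∈ range N, (A ^ i) h) S := by
      rw [hPdef, map_smul]
      simp only [LinearMap.add_apply, LinearMap.smul_apply, Pi.add_apply, Pi.smul_apply,
        smul_eq_mul, Module.End.one_apply]
      field_simp
    rw [h5] at h3
    rw [e5]
    have h6 : (1 - a) / a ≥ 0 := div_nonneg (by linarith) h0.le
    have h7 : ((1 - a) / a) * (A ^ N) h S ≥ 0 := mul_nonneg h6 h4
    have e6 : (∑ i ∈ range N, (A ^ i) h) S + (A ^ N) h S
        = (A (∑ i ∈ range N, (A ^ i) h)) S + h S := by rw [← e4, e5]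
    have e7 : (1 / a) * ((A (∑ i ∈ range N, (A ^ i) h)) S + h S)
        = (A (∑ i ∈ range N, (A ^ i) h)) S + h S
          + ((1 - a) / a) * ((A (∑ i ∈ range N, (A ^ i) h)) S + h S) := by
      field_simp
      ring
    rw [e7, ← e6]
    nlinarith

/-- The operator `P + b B` dominates `P - b (1 - B)` on nonnegative functions; powers. -/
lemma pow_le_add_pow {P B : Module.End ℝ (Fn X)} (hP : OrderPres P) (hB : OrderPres B) {b : ℝ}
    (hb : 0 ≤ b) (hR : OrderPres (P - b • (1 : Module.End ℝ (Fn X)))) {h : Fn X} (hh : 0 ≤ h)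
    (t : ℕ) :
    ((P - b • ((1 : Module.End ℝ (Fn X)) - B)) ^ t) h ≤ ((P + b • B) ^ t) h := by
  have hQ' : P - b • ((1 : Module.End ℝ (Fn X)) - B) = (P - b • 1) + b • B := by
    rw [smul_sub]; abel
  have hQ : OrderPres (P - b • ((1 : Module.End ℝ (Fn X)) - B)) := by
    rw [hQ']; exact hR.add (hB.smul hb)
  have hS : OrderPres (P + b • B) := hP.add (hB.smul hb)
  induction t with
  | zero => simp
  | succ t ih =>
    rw [pow_succ', pow_succ']
    show (P - b • ((1 : Module.End ℝ (Fn X)) - B)) (((P - b • ((1 : Module.End ℝ (Fn X)) - B)) ^ t) h)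
      ≤ (P + b • B) (((P + b • B) ^ t) h)
    have h1 := hQ _ _ ih
    refine h1.trans ?_
    have h2 : 0 ≤ ((P + b • B) ^ t) h := orderPres_nonneg (hS.pow t) hh
    intro S
    have h3 := h2 S
    simp only [LinearMap.sub_apply, LinearMap.add_apply, LinearMap.smul_apply, Pi.sub_apply,
      Pi.add_apply, Pi.smul_apply, smul_eq_mul, Module.End.one_apply]
    simp only [Pi.zero_apply] at h3
    nlinarith [mul_nonneg hb h3]

/-- Binomial expansion of `(P + b B)^t` on a function. -/
lemma add_pow_apply {P B : Module.End ℝ (Fn X)} (hc : Commute P B) (b : ℝ) (h : Fn X) (t : ℕ) :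
    ((P + b • B) ^ t) h
      = ∑ e ∈ range (t + 1), ((t.choose e : ℝ) * b ^ e) • ((P ^ (t - e) * B ^ e) h) := by
  have hc' : Commute (b • B) P := (hc.symm).smul_left b
  rw [add_comm, hc'.add_pow, LinearMap.sum_apply]
  refine Finset.sum_congr rfl (fun e _ => ?_)
  have e1 : (b • B) ^ e = b ^ e • B ^ e := smul_pow b B e
  rw [e1]
  have e2 : (B ^ e) * (P ^ (t - e)) = (P ^ (t - e)) * (B ^ e) :=
    ((hc.pow_pow (t - e) e).symm).eq
  funext S
  simp only [smul_mul_assoc, LinearMap.smul_apply, Pi.smul_apply, smul_eq_mul, e2,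
    Module.End.mul_apply]
  have : ((((t.choose e : ℕ) : Module.End ℝ (Fn X))) h) = ((t.choose e : ℝ)) • h := by
    simp [Nat.cast_smul_eq_nsmul]
  rw [this, map_smul, map_smul]
  simp only [Pi.smul_apply, smul_eq_mul]
  ring

/-- Pascal bound for the difference of powers. -/
theorem pascal_bound {P B : Module.End ℝ (Fn X)} (hc : Commute P B) (hP : OrderPres P)
    (hB : OrderPres B) {b : ℝ} (hb : 0 ≤ b) (hR : OrderPres (P - b • (1 : Module.End ℝ (Fn X))))
    {w : Fn X} (hh : 0 ≤ ((1 : Module.End ℝ (Fn X)) - B) w) (x : ℕ) :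
    (P ^ x) w - ((P - b • ((1 : Module.End ℝ (Fn X)) - B)) ^ x) w
      ≤ ∑ e ∈ range x, ((x.choose (e + 1) : ℝ) * b ^ (e + 1)) •
          ((P ^ (x - 1 - e) * B ^ e) (((1 : Module.End ℝ (Fn X)) - B) w)) := by
  set Q := P - b • ((1 : Module.End ℝ (Fn X)) - B) with hQdef
  set h := ((1 : Module.End ℝ (Fn X)) - B) w with hhdef
  have hcQ : Commute Q ((1 : Module.End ℝ (Fn X)) - B) := by
    rw [hQdef]
    apply Commute.sub_left
    · exact (Commute.one_right P).sub_right hc
    · exact (Commute.refl _).smul_left b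
  induction x with
  | zero => simp
  | succ x ih =>
    have e1 : (P ^ (x + 1)) w - (Q ^ (x + 1)) w
        = P ((P ^ x) w - (Q ^ x) w) + b • (Q ^ x) h := by
      rw [pow_succ', pow_succ']
      have e2 : (((1 : Module.End ℝ (Fn X)) - B)) ((Q ^ x) w) = (Q ^ x) h := by
        have := (hcQ.pow_left x).eq
        have h3 := congrArg (fun T : Module.End ℝ (Fn X) => T w) this
        simp only [Module.End.mul_apply] at h3
        rw [hhdef, h3]
      show P ((P ^ x) w) - Q ((Q ^ x) w) = _
      rw [map_sub, hQdef, ← hQdef, ← e2]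
      simp only [hQdef, LinearMap.sub_apply, LinearMap.smul_apply]
      abel
    rw [e1]
    have h4 := hP _ _ ih
    have h5 : (Q ^ x) h ≤ ((P + b • B) ^ x) h := pow_le_add_pow hP hB hb hR hh x
    have h6 := add_pow_apply hc b h x
    intro S
    have h7 := h4 S
    have h8 := h5 S
    rw [h6] at h8
    rw [map_sum] at h7
    simp only [Pi.add_apply, Pi.smul_apply, smul_eq_mul, Finset.sum_apply] at h7 h8 ⊢
    have h9 : ∀ e ∈ range x, (P (((x.choose (e + 1) : ℝ) * b ^ (e + 1)) •
          ((P ^ (x - 1 - e) * B ^ e) h))) S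
        = ((x.choose (e + 1) : ℝ) * b ^ (e + 1)) * ((P ^ (x - e) * B ^ e) h) S := by
      intro e he
      have he' : e < x := Finset.mem_range.mp he
      rw [map_smul]
      have e3 : P ^ (x - e) = P * P ^ (x - 1 - e) := by
        have : x - e = (x - 1 - e) + 1 := by omega
        rw [this, pow_succ']
      rw [e3]
      simp only [Pi.smul_apply, smul_eq_mul, Module.End.mul_apply]
    rw [Finset.sum_congr rfl h9] at h7
    have h10 : ∑ e ∈ range (x + 1), ((x + 1).choose (e + 1) : ℝ) * b ^ (e + 1)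
          * ((P ^ (x + 1 - 1 - e) * B ^ e) h) S
        = ∑ e ∈ range x, ((x.choose (e + 1) : ℝ) * b ^ (e + 1)) * ((P ^ (x - e) * B ^ e) h) S
          + b * ∑ e ∈ range (x + 1), ((x.choose e : ℝ) * b ^ e) * ((P ^ (x - e) * B ^ e) h) S := by
      rw [Finset.mul_sum, Finset.sum_range_succ (fun e => ((x + 1).choose (e + 1) : ℝ) * b ^ (e + 1)
          * ((P ^ (x + 1 - 1 - e) * B ^ e) h) S),
        Finset.sum_range_succ (fun e => b * (((x.choose e : ℝ) * b ^ e) * ((P ^ (x - e) * B ^ e) h) S))]
      have h11 : ∀ e ∈ range x, ((x + 1).choose (e + 1) : ℝ) * b ^ (e + 1)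
          * ((P ^ (x + 1 - 1 - e) * B ^ e) h) S
          = ((x.choose (e + 1) : ℝ) * b ^ (e + 1)) * ((P ^ (x - e) * B ^ e) h) S
            + b * (((x.choose e : ℝ) * b ^ e) * ((P ^ (x - e) * B ^ e) h) S) := by
        intro e _
        have : x + 1 - 1 - e = x - e := by omega
        rw [this, Nat.choose_succ_succ]
        push_cast
        ring
      rw [Finset.sum_congr rfl h11, Finset.sum_add_distrib]
      have : x + 1 - 1 - x = x - x := by omega
      rw [this]
      simp only [Nat.choose_self, Nat.cast_one, one_mul]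
      rw [pow_succ]
      ring
    rw [h10]
    nlinarith [mul_le_mul_of_nonneg_left h8 hb]

/-- Shifted partial sums are dominated by partial sums, for nonnegative terms. -/
lemma sum_shift_le {f : ℕ → ℝ} (hf : ∀ m, 0 ≤ f m) (e X : ℕ) :
    ∑ x ∈ range X, (if e < x then f (x - 1 - e) else 0) ≤ ∑ m ∈ range X, f m := by
  rw [← Finset.sum_filter]
  have hinj : Set.InjOn (fun x => x - 1 - e) ((range X).filter (fun x => e < x) : Finset ℕ) := by
    intro a ha b hb hab
    simp only [Finset.coe_filter, Finset.mem_range, Set.mem_ofPred_eq] at ha hb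
    simp only at hab
    omega
  rw [← Finset.sum_image (f := f) hinj]
  apply Finset.sum_le_sum_of_subset_of_nonneg
  · intro m hm
    simp only [Finset.mem_image, Finset.mem_filter, Finset.mem_range] at hm ⊢
    obtain ⟨a, ⟨ha, _⟩, rfl⟩ := hm
    omega
  · intro m _ _
    exact hf m

/-- Summed Pascal bound. -/
theorem pascal_sum {P B : Module.End ℝ (Fn X)} (hc : Commute P B) (hP : OrderPres P)
    (hB : OrderPres B) {b : ℝ} (hb : 0 ≤ b) (hR : OrderPres (P - b • (1 : Module.End ℝ (Fn X))))
    {w : Fn X} (hh : 0 ≤ ((1 : Module.End ℝ (Fn X)) - B) w) (X' : ℕ) (S : Finset X) :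
    ∑ x ∈ range X', ((P ^ x) w S - ((P - b • ((1 : Module.End ℝ (Fn X)) - B)) ^ x) w S)
      ≤ ∑ e ∈ range X', ((X'.choose (e + 1) : ℝ) * b ^ (e + 1)) *
          ∑ m ∈ range X', ((P ^ m * B ^ e) (((1 : Module.End ℝ (Fn X)) - B) w)) S := by
  set h := ((1 : Module.End ℝ (Fn X)) - B) w with hhdef
  have hv : ∀ m e, 0 ≤ ((P ^ m * B ^ e) h) S := by
    intro m e
    have : OrderPres (P ^ m * B ^ e) := (hP.pow m).mul (hB.pow e)
    exact (orderPres_nonneg this hh) S
  have hb' : ∀ e, (0 : ℝ) ≤ b ^ (e + 1) := fun e => pow_nonneg hb _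
  have step : ∀ x ∈ range X', ((P ^ x) w S - ((P - b • ((1 : Module.End ℝ (Fn X)) - B)) ^ x) w S)
      ≤ ∑ e ∈ range X', ((X'.choose (e + 1) : ℝ) * b ^ (e + 1)) *
          (if e < x then ((P ^ (x - 1 - e) * B ^ e) h) S else 0) := by
    intro x hx
    have hxX : x < X' := Finset.mem_range.mp hx
    have h1 := pascal_bound hc hP hB hb hR hh x S
    simp only [Pi.sub_apply, Finset.sum_apply, Pi.smul_apply, smul_eq_mul] at h1
    refine h1.trans ?_
    have hsub : range x ⊆ range X' := Finset.range_subset_range.mpr hxX.le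
    calc ∑ e ∈ range x, ((x.choose (e + 1) : ℝ) * b ^ (e + 1)) * ((P ^ (x - 1 - e) * B ^ e) h) S
        ≤ ∑ e ∈ range x, ((X'.choose (e + 1) : ℝ) * b ^ (e + 1)) *
            (if e < x then ((P ^ (x - 1 - e) * B ^ e) h) S else 0) := by
          apply Finset.sum_le_sum
          intro e he
          have he' : e < x := Finset.mem_range.mp he
          rw [if_pos he']
          apply mul_le_mul_of_nonneg_right _ (hv _ _)
          apply mul_le_mul_of_nonneg_right _ (hb' e)
          exact_mod_cast Nat.choose_le_choose (e + 1) hxX.le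
      _ ≤ _ := by
          apply Finset.sum_le_sum_of_subset_of_nonneg hsub
          intro e _ _
          split_ifs with hh2
          · exact mul_nonneg (mul_nonneg (by positivity) (hb' e)) (hv _ _)
          · simp
  refine (Finset.sum_le_sum step).trans ?_
  rw [Finset.sum_comm]
  apply Finset.sum_le_sum
  intro e _
  rw [← Finset.mul_sum]
  apply mul_le_mul_of_nonneg_left _ (mul_nonneg (by positivity) (hb' e))
  exact sum_shift_le (fun m => hv m e) e X'

/-- Pascal plus Green, evaluated at a point. -/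
theorem pascal_green {A B : Module.End ℝ (Fn X)} (hc : Commute A B) (hA : OrderPres A)
    (hB : OrderPres B) {a b : ℝ} (ha : 0 < a) (ha1 : a ≤ 1) (hb : 0 ≤ b) (hab : a + b ≤ 1)
    {w : Fn X} (hh : 0 ≤ ((1 : Module.End ℝ (Fn X)) - B) w) (X' : ℕ) (S : Finset X) :
    ∑ x ∈ range X', (((a • A + (1 - a) • (1 : Module.End ℝ (Fn X))) ^ x) w S
        - ((a • A + b • B + (1 - a - b) • (1 : Module.End ℝ (Fn X))) ^ x) w S)
      ≤ ∑ e ∈ range X', ((X'.choose (e + 1) : ℝ) * b ^ (e + 1) / a) *
          ∑ i ∈ range X', (A ^ i) ((B ^ e) (((1 : Module.End ℝ (Fn X)) - B) w)) S := by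
  set P := a • A + (1 - a) • (1 : Module.End ℝ (Fn X)) with hPdef
  have hP : OrderPres P := orderPres_sub_smul_one_lazy hA ha.le ha1
  have hcP : Commute P B := by
    rw [hPdef]
    exact (hc.smul_left a).add_left ((Commute.one_left B).smul_left (1 - a))
  have hR : OrderPres (P - b • (1 : Module.End ℝ (Fn X))) := by
    have : P - b • (1 : Module.End ℝ (Fn X)) = a • A + (1 - a - b) • (1 : Module.End ℝ (Fn X)) := by
      rw [hPdef]
      apply LinearMap.ext
      intro f
      funext S
      simp only [LinearMap.add_apply, LinearMap.sub_apply, LinearMap.smul_apply,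
        Module.End.one_apply, Pi.add_apply, Pi.sub_apply, Pi.smul_apply, smul_eq_mul]
      ring
    rw [this]
    exact (hA.smul ha.le).add (OrderPres.one.smul (by linarith))
  have hQ : a • A + b • B + (1 - a - b) • (1 : Module.End ℝ (Fn X))
      = P - b • ((1 : Module.End ℝ (Fn X)) - B) := by
    rw [hPdef]
    apply LinearMap.ext
    intro f
    funext S
    simp only [LinearMap.add_apply, LinearMap.sub_apply, LinearMap.smul_apply,
      Module.End.one_apply, Pi.add_apply, Pi.sub_apply, Pi.smul_apply, smul_eq_mul]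
    ring
  rw [hQ]
  refine (pascal_sum hcP hP hB hb hR hh X' S).trans ?_
  apply Finset.sum_le_sum
  intro e _
  have hge : 0 ≤ (B ^ e) (((1 : Module.End ℝ (Fn X)) - B) w) :=
    orderPres_nonneg (hB.pow e) hh
  have h1 := green hA ha ha1 hge X' S
  have e1 : ∀ m, ((P ^ m * B ^ e) (((1 : Module.End ℝ (Fn X)) - B) w)) S
      = (P ^ m) ((B ^ e) (((1 : Module.End ℝ (Fn X)) - B) w)) S := fun m => rfl
  simp only [e1]
  simp only [Finset.sum_apply, Pi.smul_apply, smul_eq_mul] at h1
  have hnn : (0 : ℝ) ≤ (X'.choose (e + 1) : ℝ) * b ^ (e + 1) :=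
    mul_nonneg (by positivity) (pow_nonneg hb _)
  calc ((X'.choose (e + 1) : ℝ) * b ^ (e + 1)) *
        ∑ m ∈ range X', (P ^ m) ((B ^ e) (((1 : Module.End ℝ (Fn X)) - B) w)) S
      ≤ ((X'.choose (e + 1) : ℝ) * b ^ (e + 1)) *
          ((1 / a) * ∑ i ∈ range X', (A ^ i) ((B ^ e) (((1 : Module.End ℝ (Fn X)) - B) w)) S) :=
        mul_le_mul_of_nonneg_left h1 hnn
    _ = _ := by field_simp

end abs

end Vale.Agent.Lib.P170T
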