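import Vale.Agent.Lib.P170T.Model

/-!
Slice and projection comparison between `n + 1` and `n` variables.
-/

namespace Vale.Agent.Lib.P170T

open Finset Vale.Agent.Lib.P170

set_option linter.unusedSectionVars false
set_option linter.unusedVariables false

noncomputable section

/-- The backbone average. -/
def bb (j n x y : ℕ) : ℝ :=
  (((TW (j + 1) n) ^ x * (TW j n) ^ y) ((gW * g0 : Fn (Fin n → Bool)))) Finset.univ

/-- Probability that a `k`-clause avoids a given variable. -/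
def pi0 (k n : ℕ) : ℝ := ((n : ℝ) / (n + 1)) ^ k

/-- Probability that a `(j+1)`-clause has exactly one literal on a given variable, with a given sign. -/
def pi1 (j n : ℕ) : ℝ := ((j : ℝ) + 1) / (2 * ((n : ℝ) + 1)) * ((n : ℝ) / (n + 1)) ^ j

/-- Rest probability. -/
def piR (j n : ℕ) : ℝ := ((2 * (n : ℝ) + 1) / (2 * (n + 1))) ^ (j + 1) - pi0 (j + 1) n - pi1 j n

/-- The operator of dropped clauses. -/
def PP (j n : ℕ) : Module.End ℝ (Fn (Fin n → Bool)) :=
  pi0 (j + 1) n • TW (j + 1) n + (1 - pi0 (j + 1) n) • 1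

/-- The operator of sliced clauses. -/
def PP2 (j n : ℕ) : Module.End ℝ (Fn (Fin n → Bool)) :=
  pi0 (j + 1) n • TW (j + 1) n + pi1 j n • TW j n + (1 - pi0 (j + 1) n - pi1 j n) • 1

/-! ### Elementary numbers -/

lemma binom_ge (u v : ℝ) (hu : 0 ≤ u) (hv : 0 ≤ v) (j : ℕ) :
    u ^ (j + 1) + ((j : ℝ) + 1) * v * u ^ j ≤ (u + v) ^ (j + 1) := by
  induction j with
  | zero => simp
  | succ j ih =>
    have h1 : (u + v) ^ (j + 1 + 1) = (u + v) * (u + v) ^ (j + 1) := by ring
    rw [h1]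
    have h2 : (u + v) * (u ^ (j + 1) + ((j : ℝ) + 1) * v * u ^ j) ≤ (u + v) * (u + v) ^ (j + 1) :=
      mul_le_mul_of_nonneg_left ih (by linarith)
    refine le_trans ?_ h2
    push_cast
    have h3 : 0 ≤ ((j : ℝ) + 1) * v ^ 2 * u ^ j := by positivity
    have h4 : (u + v) * (u ^ (j + 1) + ((j : ℝ) + 1) * v * u ^ j) =
        u ^ (j + 1 + 1) + ((j : ℝ) + 1 + 1) * v * u ^ (j + 1) + ((j : ℝ) + 1) * v ^ 2 * u ^ j := by
      ring
    rw [h4]
    linarith

lemma binom_le (u v : ℝ) (hu : 0 ≤ u) (hv : 0 ≤ v) (huv : u + v ≤ 1) (j : ℕ) :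
    (u + v) ^ (j + 1) - u ^ (j + 1) - ((j : ℝ) + 1) * v * u ^ j ≤ ((j : ℝ) + 1) ^ 2 * v ^ 2 := by
  induction j with
  | zero => simp; nlinarith [sq_nonneg v]
  | succ j ih =>
    have h1 : (u + v) ^ (j + 1 + 1) - u ^ (j + 1 + 1) - (((j + 1 : ℕ) : ℝ) + 1) * v * u ^ (j + 1) =
        (u + v) * ((u + v) ^ (j + 1) - u ^ (j + 1) - ((j : ℝ) + 1) * v * u ^ j) +
          ((j : ℝ) + 1) * v ^ 2 * u ^ j := by
      push_cast
      ring
    rw [h1]
    have h2 := binom_ge u v hu hv j
    have h3 : 0 ≤ (u + v) ^ (j + 1) - u ^ (j + 1) - ((j : ℝ) + 1) * v * u ^ j := by linarith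
    have h4 : (u + v) * ((u + v) ^ (j + 1) - u ^ (j + 1) - ((j : ℝ) + 1) * v * u ^ j) ≤
        (u + v) ^ (j + 1) - u ^ (j + 1) - ((j : ℝ) + 1) * v * u ^ j := by
      nlinarith
    have hu1 : u ≤ 1 := by linarith
    have h5 : u ^ j ≤ 1 := pow_le_one₀ hu hu1
    have h6 : ((j : ℝ) + 1) * v ^ 2 * u ^ j ≤ ((j : ℝ) + 1) * v ^ 2 :=
      mul_le_of_le_one_right (by positivity) h5
    push_cast
    have hj : (0 : ℝ) ≤ j := Nat.cast_nonneg j
    have h7 : 0 ≤ v ^ 2 := sq_nonneg v
    nlinarith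

private lemma n_div_eq (n : ℕ) : (n : ℝ) / (n + 1) = (2 * (n : ℝ)) / (2 * (n + 1)) := by
  have : (n : ℝ) + 1 ≠ 0 := by positivity
  field_simp

private lemma two_n_add (n : ℕ) :
    (2 * (n : ℝ) + 1) / (2 * (n + 1)) = (n : ℝ) / (n + 1) + 1 / (2 * ((n : ℝ) + 1)) := by
  have : (n : ℝ) + 1 ≠ 0 := by positivity
  field_simp

private lemma piR_eq (j n : ℕ) : piR j n =
    ((n : ℝ) / (n + 1) + 1 / (2 * ((n : ℝ) + 1))) ^ (j + 1) - ((n : ℝ) / (n + 1)) ^ (j + 1) -
      ((j : ℝ) + 1) * (1 / (2 * ((n : ℝ) + 1))) * ((n : ℝ) / (n + 1)) ^ j := by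
  unfold piR pi0 pi1
  rw [two_n_add]
  ring

lemma piR_nonneg (j n : ℕ) : 0 ≤ piR j n := by
  rw [piR_eq]
  have := binom_ge ((n : ℝ) / (n + 1)) (1 / (2 * ((n : ℝ) + 1))) (by positivity) (by positivity) j
  linarith

lemma piR_le (j n : ℕ) : piR j n ≤ ((j : ℝ) + 1) ^ 2 / ((n : ℝ) + 1) ^ 2 := by
  rw [piR_eq]
  have hn : (0 : ℝ) < (n : ℝ) + 1 := by positivity
  have h1 : (n : ℝ) / (n + 1) + 1 / (2 * ((n : ℝ) + 1)) ≤ 1 := by
    rw [← two_n_add, div_le_one (by positivity)]
    linarith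
  have := binom_le ((n : ℝ) / (n + 1)) (1 / (2 * ((n : ℝ) + 1))) (by positivity) (by positivity) h1 j
  refine this.trans ?_
  have h2 : ((j : ℝ) + 1) ^ 2 * (1 / (2 * ((n : ℝ) + 1))) ^ 2 =
      (((j : ℝ) + 1) ^ 2 / ((n : ℝ) + 1) ^ 2) * (1 / 4) := by
    field_simp
    norm_num
  rw [h2]
  have h3 : 0 ≤ ((j : ℝ) + 1) ^ 2 / ((n : ℝ) + 1) ^ 2 := by positivity
  linarith

lemma rho_le_one (j n : ℕ) : ((2 * (n : ℝ) + 1) / (2 * (n + 1))) ^ (j + 1) ≤ 1 := by
  apply pow_le_one₀ (by positivity)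
  rw [div_le_one (by positivity)]
  linarith

lemma pi0_add_pi1_le (j n : ℕ) : pi0 (j + 1) n + pi1 j n ≤ 1 := by
  have h1 := piR_nonneg j n
  have h2 := rho_le_one j n
  unfold piR at h1
  linarith

lemma pi0_nonneg (k n : ℕ) : 0 ≤ pi0 k n := by unfold pi0; positivity

lemma pi0_le_one (k n : ℕ) : pi0 k n ≤ 1 := by
  unfold pi0
  apply pow_le_one₀ (by positivity)
  rw [div_le_one (by positivity)]
  linarith

lemma pi1_nonneg (j n : ℕ) : 0 ≤ pi1 j n := by unfold pi1; positivity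

/-- Bernoulli for the avoiding probability. -/
lemma one_sub_pi0_le (j n : ℕ) : 1 - pi0 j n ≤ (j : ℝ) / (n + 1) := by
  unfold pi0
  have hn : (0 : ℝ) < (n : ℝ) + 1 := by positivity
  have h1 : (n : ℝ) / (n + 1) = 1 + (-(1 / ((n : ℝ) + 1))) := by
    field_simp
    ring
  have h2 : -2 ≤ -(1 / ((n : ℝ) + 1)) := by
    have : 1 / ((n : ℝ) + 1) ≤ 1 := by
      rw [div_le_one hn]
      have : (0 : ℝ) ≤ n := Nat.cast_nonneg n
      linarith
    linarith
  have h3 := one_add_mul_le_pow h2 j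
  rw [h1]
  have h4 : (j : ℝ) / ((n : ℝ) + 1) = (j : ℝ) * (1 / ((n : ℝ) + 1)) := by ring
  rw [h4]
  linarith

/-! ### Good operators -/

section good

variable {X : Type} [DecidableEq X]

/-- Linear maps with the basic properties of mixtures of averages. -/
structure Good (T : Module.End ℝ (Fn X)) : Prop where
  ord : OrderPres T
  mono : MonoPres T
  const : ∀ c : ℝ, T (fun _ => c) = fun _ => c

lemma Good.avg {Ω : Type} [Fintype Ω] [Nonempty Ω] (A : Ω → Finset X) : Good (Avg A) :=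
  ⟨Avg_orderPres A, Avg_monoPres A, Avg_const A⟩

lemma Good.one : Good (1 : Module.End ℝ (Fn X)) :=
  ⟨OrderPres.one, MonoPres.one, fun _ => rfl⟩

lemma Good.mul {T U : Module.End ℝ (Fn X)} (hT : Good T) (hU : Good U) : Good (T * U) :=
  ⟨hT.ord.mul hU.ord, hT.mono.mul hU.mono, fun c => by
    rw [Module.End.mul_apply, hU.const, hT.const]⟩

lemma Good.pow {T : Module.End ℝ (Fn X)} (hT : Good T) (m : ℕ) : Good (T ^ m) := by
  induction m with
  | zero => rw [pow_zero]; exact Good.one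
  | succ m ih => rw [pow_succ]; exact ih.mul hT

lemma Good.comb2 {T U : Module.End ℝ (Fn X)} (hT : Good T) (hU : Good U) {a b : ℝ} (ha : 0 ≤ a)
    (hb : 0 ≤ b) (hab : a + b = 1) : Good (a • T + b • U) :=
  ⟨(hT.ord.smul ha).add (hU.ord.smul hb), (hT.mono.smul ha).add (hU.mono.smul hb), fun c => by
    funext S
    simp only [LinearMap.add_apply, LinearMap.smul_apply, hT.const, hU.const, Pi.add_apply,
      Pi.smul_apply, smul_eq_mul]
    rw [← add_mul, hab, one_mul]⟩

lemma Good.add_const {T : Module.End ℝ (Fn X)} (hT : Good T) (f : Fn X) (c : ℝ) :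
    T (fun S => f S + c) = fun S => T f S + c := by
  have h : (fun S => f S + c) = f + (fun _ => c) := rfl
  rw [h, map_add, hT.const]
  rfl

lemma Good.sub_const {T : Module.End ℝ (Fn X)} (hT : Good T) (f : Fn X) (c : ℝ) :
    T (fun S => f S - c) = fun S => T f S - c := by
  have h := hT.add_const f (-c)
  simpa [sub_eq_add_neg] using h

lemma Good.unit {T : Module.End ℝ (Fn X)} (hT : Good T) {f : Fn X} (hf : UnitFn f) :
    UnitFn (T f) := by
  intro S
  have h0 : (fun _ => (0 : ℝ)) ≤ f := fun S => (hf S).1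
  have h1 : f ≤ (fun _ => (1 : ℝ)) := fun S => (hf S).2
  have h2 := hT.ord _ _ h0 S
  have h3 := hT.ord _ _ h1 S
  rw [hT.const] at h2 h3
  exact ⟨h2, h3⟩

end good

/-! ### Lifting clauses -/

section lift

variable {j n : ℕ}

/-- A literal on `Fin n` as a literal on `Fin (n+1)`, avoiding the variable `p`. -/
def liftL (p : Fin (n + 1)) (l : Fin n × Bool) : Fin (n + 1) × Bool := (p.succAbove l.1, l.2)

lemma liftL_injective (p : Fin (n + 1)) : Function.Injective (liftL (n := n) p) := by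
  rintro ⟨a, b⟩ ⟨c, d⟩ h
  simp only [liftL, Prod.mk.injEq] at h
  exact Prod.ext (p.succAbove_right_injective h.1) h.2

/-- A clause on `Fin n` as a clause on `Fin (n+1)`. -/
def liftC (p : Fin (n + 1)) (C : WClause j n) : WClause j (n + 1) := fun i => liftL p (C i)

lemma liftC_injective (p : Fin (n + 1)) : Function.Injective (liftC (j := j) (n := n) p) :=
  fun _ _ h => funext fun i => liftL_injective p (congrFun h i)

/-- The embedding of clauses. -/
def liftCE (p : Fin (n + 1)) : WClause j n ↪ WClause j (n + 1) :=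
  ⟨liftC p, liftC_injective p⟩

/-- A clause with exactly one literal on the variable `p`. -/
def oneC (p : Fin (n + 1)) (f : Bool) (q : Fin (j + 1) × WClause j n) : WClause (j + 1) (n + 1) :=
  Fin.insertNth (α := fun _ => Fin (n + 1) × Bool) q.1 (p, f) (liftC p q.2)

@[simp] lemma oneC_same (p : Fin (n + 1)) (f : Bool) (q : Fin (j + 1) × WClause j n) :
    oneC p f q q.1 = (p, f) := by
  simp [oneC]

@[simp] lemma oneC_succAbove (p : Fin (n + 1)) (f : Bool) (q : Fin (j + 1) × WClause j n)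
    (m : Fin j) : oneC p f q (q.1.succAbove m) = liftL p (q.2 m) := by
  simp [oneC, liftC]

lemma oneC_injective (p : Fin (n + 1)) (f : Bool) :
    Function.Injective (oneC (j := j) (n := n) p f) := by
  rintro ⟨i, C⟩ ⟨i', C'⟩ h
  have hi : i = i' := by
    rcases Fin.eq_self_or_eq_succAbove i' i with h1 | ⟨m, h1⟩
    · exact h1
    · exfalso
      have h2 := congrFun h i
      have h3 := oneC_same p f (i, C)
      simp only at h3
      rw [h3] at h2
      have h4 := oneC_succAbove p f (i', C') m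
      simp only at h4
      rw [h1, h4] at h2
      have h5 := congrArg Prod.fst h2
      simp only [liftL] at h5
      exact (p.succAbove_ne _) h5.symm
  subst hi
  have hC : C = C' := by
    funext m
    have h2 := congrFun h (i.succAbove m)
    have h3 := oneC_succAbove p f (i, C) m
    have h4 := oneC_succAbove p f (i, C') m
    simp only at h3 h4
    rw [h3, h4] at h2
    exact liftL_injective p h2
  rw [hC]

/-- The embedding of the clauses with exactly one literal on the variable `p`. -/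
def oneCE (p : Fin (n + 1)) (f : Bool) : Fin (j + 1) × WClause j n ↪ WClause (j + 1) (n + 1) :=
  ⟨oneC p f, oneC_injective p f⟩

open Classical in
/-- Clauses with a literal satisfied by the slice. -/
def hasT (k : ℕ) (p : Fin (n + 1)) (s : Bool) : Finset (WClause k (n + 1)) :=
  Finset.univ.filter (fun C => ∃ i, C i = (p, s))

lemma mem_hasT {k : ℕ} {p : Fin (n + 1)} {s : Bool} {C : WClause k (n + 1)} :
    C ∈ hasT k p s ↔ ∃ i, C i = (p, s) := by
  simp [hasT]

lemma card_hasT (k : ℕ) (p : Fin (n + 1)) (s : Bool) :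
    (((hasT k p s).card : ℕ) : ℝ) = (2 * ((n : ℝ) + 1)) ^ k - (2 * (n : ℝ) + 1) ^ k := by
  classical
  have h1 := Finset.card_filter_add_card_filter_not (s := (Finset.univ : Finset (WClause k (n + 1))))
    (fun C => ∃ i, C i = (p, s))
  have h2 : (Finset.univ.filter (fun C : WClause k (n + 1) => ¬ ∃ i, C i = (p, s))) =
      Fintype.piFinset (fun _ : Fin k => (Finset.univ : Finset (Fin (n + 1) × Bool)).erase (p, s)) := by
    ext C
    simp only [Finset.mem_filter, Finset.mem_univ, true_and, not_exists, Fintype.mem_piFinset,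
      Finset.mem_erase, ne_eq, and_true]
  rw [h2, Fintype.card_piFinset] at h1
  simp only [Finset.prod_const, Finset.card_univ, Fintype.card_fin,
    Finset.card_erase_of_mem (Finset.mem_univ _), Fintype.card_prod, Fintype.card_bool,
    Fintype.card_fun] at h1
  have h3 : (hasT k p s).card = (Finset.univ.filter (fun C : WClause k (n + 1) => ∃ i, C i = (p, s))).card := by
    unfold hasT
    congr
  rw [h3]
  have h4 : (n + 1) * 2 - 1 = 2 * n + 1 := by omega
  rw [h4] at h1
  have h5 : (((Finset.univ.filter (fun C : WClause k (n + 1) => ∃ i, C i = (p, s))).card : ℕ) : ℝ) +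
      ((2 * n + 1) ^ k : ℕ) = ((((n + 1) * 2) ^ k : ℕ) : ℝ) := by
    exact_mod_cast h1
  push_cast at h5
  have h6 : (2 * ((n : ℝ) + 1)) ^ k = (((n : ℝ) + 1) * 2) ^ k := by ring
  rw [h6]
  linarith

lemma sum_three {j n : ℕ} (p : Fin (n + 1)) (s f : Bool) (hsf : f ≠ s)
    (F : WClause (j + 1) (n + 1) → ℝ) (hF : ∀ C, 0 ≤ F C) :
    ∑ C : WClause (j + 1) n, F (liftC p C) + ∑ q : Fin (j + 1) × WClause j n, F (oneC p f q) +
      ∑ C ∈ hasT (j + 1) p s, F C ≤ ∑ C, F C := by
  classical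
  set A := (Finset.univ : Finset (WClause (j + 1) n)).map (liftCE p) with hA
  set B := (Finset.univ : Finset (Fin (j + 1) × WClause j n)).map (oneCE p f) with hB
  set D := hasT (j + 1) p s with hD
  have hAB : Disjoint A B := by
    rw [Finset.disjoint_left]
    intro C hC hC'
    simp only [hA, hB, Finset.mem_map, Finset.mem_univ, true_and] at hC hC'
    obtain ⟨C1, rfl⟩ := hC
    obtain ⟨q, hq⟩ := hC'
    have h1 := congrFun hq q.1
    have h2 : (oneCE p f q) q.1 = (p, f) := oneC_same p f q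
    rw [h2] at h1
    have h3 := congrArg Prod.fst h1
    exact (p.succAbove_ne _) h3.symm
  have hABD : Disjoint (A ∪ B) D := by
    rw [Finset.disjoint_left]
    intro C hC hC'
    obtain ⟨i, hi⟩ := mem_hasT.mp hC'
    rcases Finset.mem_union.mp hC with hC | hC
    · simp only [hA, Finset.mem_map, Finset.mem_univ, true_and] at hC
      obtain ⟨C1, rfl⟩ := hC
      have h3 := congrArg Prod.fst hi
      exact (p.succAbove_ne _) h3
    · simp only [hB, Finset.mem_map, Finset.mem_univ, true_and] at hC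
      obtain ⟨q, rfl⟩ := hC
      rcases Fin.eq_self_or_eq_succAbove q.1 i with h1 | ⟨m, h1⟩
      · rw [h1] at hi
        have h2 : (oneCE p f q) q.1 = (p, f) := oneC_same p f q
        rw [h2] at hi
        exact hsf (congrArg Prod.snd hi)
      · rw [h1] at hi
        have h2 : (oneCE p f q) (q.1.succAbove m) = liftL p (q.2 m) := oneC_succAbove p f q m
        rw [h2] at hi
        have h3 := congrArg Prod.fst hi
        exact (p.succAbove_ne _) h3
  have h1 : ∑ C ∈ A ∪ B ∪ D, F C ≤ ∑ C, F C :=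
    Finset.sum_le_sum_of_subset_of_nonneg (Finset.subset_univ _) (fun _ _ _ => hF _)
  rw [Finset.sum_union hABD, Finset.sum_union hAB, hA, hB, Finset.sum_map, Finset.sum_map] at h1
  exact h1

end lift

/-! ### Slices -/

section slice

variable {j n : ℕ}

/-- The assignment on `n + 1` variables obtained by inserting the value `s` at `p`. -/
abbrev ins (p : Fin (n + 1)) (s : Bool) (a : Fin n → Bool) : Fin (n + 1) → Bool :=
  Fin.insertNth (α := fun _ => Bool) p s a

/-- The slice of a set of assignments. -/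
def sl (p : Fin (n + 1)) (s : Bool) (S : Finset (Fin (n + 1) → Bool)) : Finset (Fin n → Bool) :=
  Finset.univ.filter (fun a => ins p s a ∈ S)

@[simp] lemma mem_sl {p : Fin (n + 1)} {s : Bool} {S : Finset (Fin (n + 1) → Bool)}
    {a : Fin n → Bool} : a ∈ sl p s S ↔ ins p s a ∈ S := by
  simp [sl]

lemma sl_inter (p : Fin (n + 1)) (s : Bool) (S T : Finset (Fin (n + 1) → Bool)) :
    sl p s (S ∩ T) = sl p s S ∩ sl p s T := by
  ext a
  simp

lemma sl_univ (p : Fin (n + 1)) (s : Bool) : sl p s Finset.univ = Finset.univ := by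
  ext a
  simp

lemma sl_solW_lift (p : Fin (n + 1)) (s : Bool) (C : WClause j n) :
    sl p s (solW (liftC p C)) = solW C := by
  ext a
  simp only [mem_sl, mem_solW, liftC, liftL, ins, Fin.insertNth_apply_succAbove]

lemma sl_solW_one (p : Fin (n + 1)) (s f : Bool) (hsf : f ≠ s) (q : Fin (j + 1) × WClause j n) :
    sl p s (solW (oneC p f q)) = solW q.2 := by
  ext a
  simp only [mem_sl, mem_solW]
  rw [Fin.exists_iff_succAbove q.1]
  simp only [oneC_same, oneC_succAbove, liftL, ins, Fin.insertNth_apply_same,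
    Fin.insertNth_apply_succAbove]
  constructor
  · rintro (h | h)
    · exact absurd h.symm hsf
    · exact h
  · exact Or.inr

lemma sl_solW_hasT {p : Fin (n + 1)} {s : Bool} {k : ℕ} {C : WClause k (n + 1)}
    (hC : C ∈ hasT k p s) : sl p s (solW C) = Finset.univ := by
  obtain ⟨i, hi⟩ := mem_hasT.mp hC
  ext a
  simp only [mem_sl, mem_solW, Finset.mem_univ, iff_true]
  refine ⟨i, ?_⟩
  rw [hi]
  simp [ins]

/-- The operator of a clause after slicing. -/
def TL (p : Fin (n + 1)) (s : Bool) (j : ℕ) : Module.End ℝ (Fn (Fin n → Bool)) :=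
  Avg (fun C : WClause j (n + 1) => sl p s (solW C))

lemma TL_good (p : Fin (n + 1)) (s : Bool) (j : ℕ) : Good (TL p s j) := Good.avg _

lemma TW_good (j n : ℕ) [NeZero n] : Good (TW j n) := Good.avg _

lemma TW_comp_sl (p : Fin (n + 1)) (s : Bool) (j : ℕ) (f : Fn (Fin n → Bool)) :
    TW j (n + 1) (fun S => f (sl p s S)) = fun S => TL p s j f (sl p s S) := by
  funext S
  unfold TW TL
  simp only [Avg_apply, sl_inter]

lemma TW_pow_comp_sl (p : Fin (n + 1)) (s : Bool) (j m : ℕ) (f : Fn (Fin n → Bool)) :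
    ((TW j (n + 1)) ^ m) (fun S => f (sl p s S)) = fun S => ((TL p s j) ^ m) f (sl p s S) := by
  induction m with
  | zero => simp
  | succ m ih =>
    rw [pow_succ', Module.End.mul_apply, ih, TW_comp_sl, pow_succ', Module.End.mul_apply]

private lemma pi0_mul_card (k n : ℕ) :
    pi0 k n * (2 * ((n : ℝ) + 1)) ^ k = (2 * (n : ℝ)) ^ k := by
  unfold pi0
  rw [← mul_pow]
  congr 1
  have : (n : ℝ) + 1 ≠ 0 := by positivity
  field_simp

private lemma card_succ (j n : ℕ) :
    (Fintype.card (WClause j (n + 1)) : ℝ) = (2 * ((n : ℝ) + 1)) ^ j := by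
  rw [card_WClause]
  push_cast
  rfl

/-- Lower bound for one sliced clause, keeping only clauses avoiding `p`. -/
lemma TL_lower0 (hn : 0 < n) (p : Fin (n + 1)) (s : Bool) (j : ℕ) (f : Fn (Fin n → Bool))
    (hf : ∀ S, 0 ≤ f S) (S : Finset (Fin n → Bool)) :
    pi0 j n * TW j n f S ≤ TL p s j f S := by
  classical
  have hn' : (0 : ℝ) < n := by exact_mod_cast hn
  have hc : (0 : ℝ) < (2 * ((n : ℝ) + 1)) ^ j := by positivity
  have hc' : (0 : ℝ) < (2 * (n : ℝ)) ^ j := by positivity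
  unfold TL TW
  rw [Avg_apply, Avg_apply, card_WClause, card_succ, le_div_iff₀ hc]
  have h1 : ∑ C : WClause j n, f (S ∩ sl p s (solW (liftC p C))) ≤
      ∑ C : WClause j (n + 1), f (S ∩ sl p s (solW C)) := by
    have h2 : ∑ C ∈ (Finset.univ : Finset (WClause j n)).map (liftCE p),
        f (S ∩ sl p s (solW C)) ≤ ∑ C : WClause j (n + 1), f (S ∩ sl p s (solW C)) :=
      Finset.sum_le_sum_of_subset_of_nonneg (Finset.subset_univ _) (fun _ _ _ => hf _)
    rw [Finset.sum_map] at h2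
    exact h2
  simp only [sl_solW_lift] at h1
  have h3 : pi0 j n * ((∑ C : WClause j n, f (S ∩ solW C)) / (2 * (n : ℝ)) ^ j) *
      (2 * ((n : ℝ) + 1)) ^ j = ∑ C : WClause j n, f (S ∩ solW C) := by
    have h4 := pi0_mul_card j n
    calc pi0 j n * ((∑ C : WClause j n, f (S ∩ solW C)) / (2 * (n : ℝ)) ^ j) *
          (2 * ((n : ℝ) + 1)) ^ j
        = (pi0 j n * (2 * ((n : ℝ) + 1)) ^ j) *
            ((∑ C : WClause j n, f (S ∩ solW C)) / (2 * (n : ℝ)) ^ j) := by ring
      _ = _ := by rw [h4]; field_simp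
  rw [h3]
  exact h1

/-- Lower bound for one sliced clause, with the three kinds of clauses. -/
lemma TL_lower (hn : 0 < n) (p : Fin (n + 1)) (s : Bool) (j : ℕ) (f : Fn (Fin n → Bool))
    (hf : ∀ S, 0 ≤ f S) (S : Finset (Fin n → Bool)) :
    pi0 (j + 1) n * TW (j + 1) n f S + pi1 j n * TW j n f S +
        (1 - ((2 * (n : ℝ) + 1) / (2 * (n + 1))) ^ (j + 1)) * f S ≤ TL p s (j + 1) f S := by
  classical
  have hn' : (0 : ℝ) < n := by exact_mod_cast hn
  have hN : (0 : ℝ) < (n : ℝ) + 1 := by positivity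
  have hc : (0 : ℝ) < (2 * ((n : ℝ) + 1)) ^ (j + 1) := by positivity
  have hc' : (0 : ℝ) < (2 * (n : ℝ)) ^ j := by positivity
  have hc'' : (0 : ℝ) < (2 * (n : ℝ)) ^ (j + 1) := by positivity
  have hsf : (!s) ≠ s := by cases s <;> simp
  have h1 := sum_three (j := j) p s (!s) hsf (fun C => f (S ∩ sl p s (solW C))) (fun _ => hf _)
  simp only [sl_solW_lift, sl_solW_one p s (!s) hsf] at h1
  have h2 : ∑ q : Fin (j + 1) × WClause j n, f (S ∩ solW q.2) =
      ((j : ℝ) + 1) * ∑ C : WClause j n, f (S ∩ solW C) := by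
    rw [Fintype.sum_prod_type]
    simp only [Finset.sum_const, Finset.card_univ, Fintype.card_fin, nsmul_eq_mul]
    push_cast
    ring
  have h3 : ∑ C ∈ hasT (j + 1) p s, f (S ∩ sl p s (solW C)) =
      ((2 * ((n : ℝ) + 1)) ^ (j + 1) - (2 * (n : ℝ) + 1) ^ (j + 1)) * f S := by
    rw [← card_hasT (j + 1) p s, ← nsmul_eq_mul, ← Finset.sum_const]
    apply Finset.sum_congr rfl
    intro C hC
    rw [sl_solW_hasT hC, Finset.inter_univ]
  rw [h2, h3] at h1
  unfold TL TW
  rw [Avg_apply, Avg_apply, Avg_apply, card_WClause, card_WClause, card_succ, le_div_iff₀ hc]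
  refine le_trans (le_of_eq ?_) h1
  set Sg1 := ∑ C : WClause (j + 1) n, f (S ∩ solW C) with hSg1
  set Sg2 := ∑ C : WClause j n, f (S ∩ solW C) with hSg2
  have e1 : pi0 (j + 1) n * (2 * ((n : ℝ) + 1)) ^ (j + 1) = (2 * (n : ℝ)) ^ (j + 1) :=
    pi0_mul_card (j + 1) n
  have e2 : pi1 j n * (2 * ((n : ℝ) + 1)) ^ (j + 1) = ((j : ℝ) + 1) * (2 * (n : ℝ)) ^ j := by
    unfold pi1
    rw [pow_succ, ← pi0_mul_card j n]
    unfold pi0
    field_simp
  have e3 : ((2 * (n : ℝ) + 1) / (2 * (n + 1))) ^ (j + 1) * (2 * ((n : ℝ) + 1)) ^ (j + 1) =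
      (2 * (n : ℝ) + 1) ^ (j + 1) := by
    rw [← mul_pow]
    congr 1
    field_simp
  have e4 : pi0 (j + 1) n * (Sg1 / (2 * (n : ℝ)) ^ (j + 1)) * (2 * ((n : ℝ) + 1)) ^ (j + 1) = Sg1 := by
    calc pi0 (j + 1) n * (Sg1 / (2 * (n : ℝ)) ^ (j + 1)) * (2 * ((n : ℝ) + 1)) ^ (j + 1)
        = (pi0 (j + 1) n * (2 * ((n : ℝ) + 1)) ^ (j + 1)) * (Sg1 / (2 * (n : ℝ)) ^ (j + 1)) := by
          ring
      _ = Sg1 := by rw [e1]; field_simp
  have e5 : pi1 j n * (Sg2 / (2 * (n : ℝ)) ^ j) * (2 * ((n : ℝ) + 1)) ^ (j + 1) =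
      ((j : ℝ) + 1) * Sg2 := by
    calc pi1 j n * (Sg2 / (2 * (n : ℝ)) ^ j) * (2 * ((n : ℝ) + 1)) ^ (j + 1)
        = (pi1 j n * (2 * ((n : ℝ) + 1)) ^ (j + 1)) * (Sg2 / (2 * (n : ℝ)) ^ j) := by ring
      _ = ((j : ℝ) + 1) * Sg2 := by rw [e2]; field_simp
  have e6 : (1 - ((2 * (n : ℝ) + 1) / (2 * (n + 1))) ^ (j + 1)) * f S *
      (2 * ((n : ℝ) + 1)) ^ (j + 1) =
      ((2 * ((n : ℝ) + 1)) ^ (j + 1) - (2 * (n : ℝ) + 1) ^ (j + 1)) * f S := by
    rw [← e3]
    ring
  calc _ = pi0 (j + 1) n * (Sg1 / (2 * (n : ℝ)) ^ (j + 1)) * (2 * ((n : ℝ) + 1)) ^ (j + 1) +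
        pi1 j n * (Sg2 / (2 * (n : ℝ)) ^ j) * (2 * ((n : ℝ) + 1)) ^ (j + 1) +
        (1 - ((2 * (n : ℝ) + 1) / (2 * (n + 1))) ^ (j + 1)) * f S *
          (2 * ((n : ℝ) + 1)) ^ (j + 1) := by ring
    _ = _ := by rw [e4, e5, e6]

end slice

/-! ### Projections -/

section proj

variable {j n : ℕ}

/-- Projection of a set of assignments, forgetting the variable `p`. -/
def proj (p : Fin (n + 1)) (T : Finset (Fin (n + 1) → Bool)) : Finset (Fin n → Bool) :=
  T.image (fun a i => a (p.succAbove i))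

lemma proj_mono (p : Fin (n + 1)) {S T : Finset (Fin (n + 1) → Bool)} (h : S ⊆ T) :
    proj p S ⊆ proj p T := Finset.image_subset_image h

lemma proj_inter_lift (p : Fin (n + 1)) (T : Finset (Fin (n + 1) → Bool)) (C : WClause j n) :
    proj p (T ∩ solW (liftC p C)) ⊆ proj p T ∩ solW C := by
  intro a' ha'
  simp only [proj, Finset.mem_image, Finset.mem_inter] at ha'
  obtain ⟨a, ⟨ha1, ha2⟩, rfl⟩ := ha'
  simp only [Finset.mem_inter]
  refine ⟨Finset.mem_image.mpr ⟨a, ha1, rfl⟩, ?_⟩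
  obtain ⟨i, hi⟩ := mem_solW.mp ha2
  exact mem_solW.mpr ⟨i, hi⟩

lemma proj_univ (p : Fin (n + 1)) : proj p Finset.univ = Finset.univ := by
  ext a
  simp only [proj, Finset.mem_image, Finset.mem_univ, true_and, iff_true]
  refine ⟨ins p true a, ?_⟩
  funext i
  simp [ins]

lemma proj_nonempty (p : Fin (n + 1)) {T : Finset (Fin (n + 1) → Bool)} (h : T.Nonempty) :
    (proj p T).Nonempty := h.image _

/-- The lazy operator of clauses dropped when they touch a variable. -/
def Lz (k n : ℕ) : Module.End ℝ (Fn (Fin n → Bool)) :=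
  pi0 k n • TW k n + (1 - pi0 k n) • 1

lemma Lz_good (k n : ℕ) [NeZero n] : Good (Lz k n) :=
  Good.comb2 (TW_good k n) Good.one (pi0_nonneg k n) (by linarith [pi0_le_one k n]) (by ring)

lemma PP_eq (j n : ℕ) : PP j n = Lz (j + 1) n := rfl

lemma PP2_good (j n : ℕ) [NeZero n] : Good (PP2 j n) := by
  have h1 := pi0_nonneg (j + 1) n
  have h2 := pi1_nonneg j n
  have h3 := pi0_add_pi1_le j n
  refine ⟨((((TW_good (j + 1) n).ord.smul h1).add ((TW_good j n).ord.smul h2)).add
    (OrderPres.one.smul (by linarith))), ((((TW_good (j + 1) n).mono.smul h1).add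
    ((TW_good j n).mono.smul h2)).add (MonoPres.one.smul (by linarith))), fun c => ?_⟩
  funext S
  unfold PP2
  simp only [LinearMap.add_apply, LinearMap.smul_apply, (TW_good (j + 1) n).const,
    (TW_good j n).const, Pi.add_apply, Pi.smul_apply, smul_eq_mul, Module.End.one_apply]
  ring

/-- One clause on `n + 1` variables against the lazy operator on `n` variables. -/
lemma TW_le_proj (hn : 0 < n) (p : Fin (n + 1)) {f : Fn (Fin (n + 1) → Bool)}
    {f' : Fn (Fin n → Bool)} (hff : ∀ T, f T ≤ f' (proj p T)) (hm : MonoFn f')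
    (T : Finset (Fin (n + 1) → Bool)) :
    TW j (n + 1) f T ≤ Lz j n f' (proj p T) := by
  classical
  have hn' : (0 : ℝ) < n := by exact_mod_cast hn
  have hN : (0 : ℝ) < (n : ℝ) + 1 := by positivity
  have hc : (0 : ℝ) < (2 * ((n : ℝ) + 1)) ^ j := by positivity
  have hc' : (0 : ℝ) < (2 * (n : ℝ)) ^ j := by positivity
  unfold Lz TW
  simp only [LinearMap.add_apply, LinearMap.smul_apply, Pi.add_apply, Pi.smul_apply, smul_eq_mul,
    Module.End.one_apply]
  rw [Avg_apply, Avg_apply, card_succ, card_WClause, div_le_iff₀ hc]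
  set A := (Finset.univ : Finset (WClause j n)).map (liftCE (j := j) p) with hA
  have h1 : ∑ C : WClause j (n + 1), f (T ∩ solW C) =
      ∑ C ∈ A, f (T ∩ solW C) + ∑ C ∈ Finset.univ \ A, f (T ∩ solW C) := by
    have := Finset.sum_sdiff (f := fun C : WClause j (n + 1) => f (T ∩ solW C))
      (Finset.subset_univ A)
    linarith
  have h2 : ∑ C ∈ A, f (T ∩ solW C) ≤ ∑ C : WClause j n, f' (proj p T ∩ solW C) := by
    rw [hA, Finset.sum_map]
    refine Finset.sum_le_sum (fun C _ => ?_)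
    exact (hff _).trans (hm _ _ (proj_inter_lift p T C))
  have h3 : ∑ C ∈ Finset.univ \ A, f (T ∩ solW C) ≤
      ((Finset.univ \ A).card : ℝ) * f' (proj p T) := by
    rw [← nsmul_eq_mul, ← Finset.sum_const]
    refine Finset.sum_le_sum (fun C _ => ?_)
    exact (hff _).trans (hm _ _ (proj_mono p Finset.inter_subset_left))
  have h4 : ((Finset.univ \ A).card : ℝ) = (2 * ((n : ℝ) + 1)) ^ j - (2 * (n : ℝ)) ^ j := by
    have hle : A.card ≤ (Finset.univ : Finset (WClause j (n + 1))).card :=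
      Finset.card_le_card (Finset.subset_univ _)
    rw [Finset.card_sdiff_of_subset (Finset.subset_univ _), Nat.cast_sub hle,
      Finset.card_univ, hA, Finset.card_map, Finset.card_univ, card_succ, card_WClause]
  rw [h1]
  have e1 := pi0_mul_card j n
  set Sg0 := ∑ C : WClause j n, f' (proj p T ∩ solW C) with hSg0
  have e2 : (pi0 j n * (Sg0 / (2 * (n : ℝ)) ^ j) + (1 - pi0 j n) * f' (proj p T)) *
      (2 * ((n : ℝ) + 1)) ^ j =
      Sg0 + ((2 * ((n : ℝ) + 1)) ^ j - (2 * (n : ℝ)) ^ j) * f' (proj p T) := by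
    have e3 : pi0 j n * (Sg0 / (2 * (n : ℝ)) ^ j) * (2 * ((n : ℝ) + 1)) ^ j = Sg0 := by
      calc pi0 j n * (Sg0 / (2 * (n : ℝ)) ^ j) * (2 * ((n : ℝ) + 1)) ^ j
          = (pi0 j n * (2 * ((n : ℝ) + 1)) ^ j) * (Sg0 / (2 * (n : ℝ)) ^ j) := by ring
        _ = Sg0 := by rw [e1]; field_simp
    have e4 : (1 - pi0 j n) * f' (proj p T) * (2 * ((n : ℝ) + 1)) ^ j =
        ((2 * ((n : ℝ) + 1)) ^ j - (2 * (n : ℝ)) ^ j) * f' (proj p T) := by
      rw [← e1]
      ring
    rw [add_mul, e3, e4]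
  rw [e2, ← h4]
  linarith

lemma iter_upper (hn : 0 < n) (p : Fin (n + 1)) (m : ℕ) {f : Fn (Fin (n + 1) → Bool)}
    {f' : Fn (Fin n → Bool)} (hff : ∀ T, f T ≤ f' (proj p T)) (hm : MonoFn f')
    (T : Finset (Fin (n + 1) → Bool)) :
    ((TW j (n + 1)) ^ m) f T ≤ ((Lz j n) ^ m) f' (proj p T) := by
  have : NeZero n := ⟨hn.ne'⟩
  induction m generalizing T with
  | zero => simpa using hff T
  | succ m ih =>
    rw [pow_succ', pow_succ', Module.End.mul_apply, Module.End.mul_apply]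
    exact TW_le_proj hn p (fun T => ih T) (((Lz_good j n).pow m).mono _ hm) T

lemma g0_le_proj (p : Fin (n + 1)) (T : Finset (Fin (n + 1) → Bool)) :
    (g0 : Fn (Fin (n + 1) → Bool)) T ≤ (g0 : Fn (Fin n → Bool)) (proj p T) := by
  unfold g0
  by_cases h : T.Nonempty
  · rw [if_pos h, if_pos (proj_nonempty p h)]
  · rw [if_neg h]
    split_ifs <;> norm_num

/-- Lazy iterates of `g0` against plain iterates. -/
lemma Lz_pow_le (hn : 0 < n) (j y : ℕ) (S : Finset (Fin n → Bool)) :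
    ((Lz j n) ^ y) (g0 : Fn (Fin n → Bool)) S ≤
      ((TW j n) ^ y) g0 S + y * (1 - pi0 j n) := by
  have : NeZero n := ⟨hn.ne'⟩
  have hu : ∀ m, UnitFn (((TW j n) ^ m) (g0 : Fn (Fin n → Bool))) := fun m =>
    ((TW_good j n).pow m).unit g0_unit
  induction y generalizing S with
  | zero => simp
  | succ y ih =>
    rw [pow_succ', Module.End.mul_apply]
    have h1 : ((Lz j n) ^ y) (g0 : Fn (Fin n → Bool)) ≤
        (fun S => ((TW j n) ^ y) g0 S + y * (1 - pi0 j n)) := fun S => ih S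
    have h2 := (Lz_good j n).ord _ _ h1 S
    rw [(Lz_good j n).add_const] at h2
    refine h2.trans ?_
    have h3 : Lz j n (((TW j n) ^ y) g0) S ≤ ((TW j n) ^ (y + 1)) g0 S + (1 - pi0 j n) := by
      rw [pow_succ', Module.End.mul_apply]
      unfold Lz
      simp only [LinearMap.add_apply, LinearMap.smul_apply, Pi.add_apply, Pi.smul_apply,
        smul_eq_mul, Module.End.one_apply]
      have h4 := hu y S
      have h5 := (TW_good j n).unit (hu y) S
      have h6 := pi0_le_one j n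
      have h7 := pi0_nonneg j n
      nlinarith
    push_cast
    linarith

/-- Sliced iterates of `g0` against plain iterates. -/
lemma TL_pow_ge (hn : 0 < n) (p : Fin (n + 1)) (s : Bool) (j y : ℕ)
    (S : Finset (Fin n → Bool)) :
    ((TW j n) ^ y) (g0 : Fn (Fin n → Bool)) S - y * (1 - pi0 j n) ≤
      ((TL p s j) ^ y) g0 S := by
  have : NeZero n := ⟨hn.ne'⟩
  have hu : ∀ m, UnitFn (((TW j n) ^ m) (g0 : Fn (Fin n → Bool))) := fun m =>
    ((TW_good j n).pow m).unit g0_unit
  induction y generalizing S with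
  | zero => simp
  | succ y ih =>
    have e1 : ((TL p s j) ^ (y + 1)) (g0 : Fn (Fin n → Bool)) S =
        TL p s j (((TL p s j) ^ y) g0) S := by rw [pow_succ', Module.End.mul_apply]
    have e2 : ((TW j n) ^ (y + 1)) (g0 : Fn (Fin n → Bool)) S =
        TW j n (((TW j n) ^ y) g0) S := by rw [pow_succ', Module.End.mul_apply]
    rw [e1, e2]
    have h1 : (fun S => ((TW j n) ^ y) (g0 : Fn (Fin n → Bool)) S - y * (1 - pi0 j n)) ≤
        ((TL p s j) ^ y) g0 := fun S => ih S
    have h2 := (TL_good p s j).ord _ _ h1 S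
    rw [(TL_good p s j).sub_const] at h2
    refine le_trans ?_ h2
    have h3 := TL_lower0 hn p s j (((TW j n) ^ y) g0) (fun S => (hu y S).1) S
    have h5 := (TW_good j n).unit (hu y) S
    have h6 := pi0_le_one j n
    have h7 := pi0_nonneg j n
    push_cast
    nlinarith

/-- One sliced clause against `PP2`. -/
lemma TL_ge_PP2 (hn : 0 < n) (p : Fin (n + 1)) (s : Bool) (j : ℕ) {f : Fn (Fin n → Bool)}
    (hf : UnitFn f) (S : Finset (Fin n → Bool)) :
    PP2 j n f S - piR j n ≤ TL p s (j + 1) f S := by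
  have h1 := TL_lower hn p s j f (fun S => (hf S).1) S
  refine le_trans ?_ h1
  unfold PP2
  simp only [LinearMap.add_apply, LinearMap.smul_apply, Pi.add_apply, Pi.smul_apply,
    smul_eq_mul, Module.End.one_apply]
  have h2 := piR_nonneg j n
  have h3 := hf S
  have e : piR j n = ((2 * (n : ℝ) + 1) / (2 * (n + 1))) ^ (j + 1) - pi0 (j + 1) n - pi1 j n := rfl
  have h4 : piR j n * f S ≤ piR j n := mul_le_of_le_one_right h2 h3.2
  have h5 : (1 - pi0 (j + 1) n - pi1 j n) * f S =
      (1 - ((2 * (n : ℝ) + 1) / (2 * (n + 1))) ^ (j + 1)) * f S + piR j n * f S := by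
    rw [e]
    ring
  rw [h5]
  linarith

lemma TL_pow_ge_PP2 (hn : 0 < n) (p : Fin (n + 1)) (s : Bool) (j x : ℕ) {h : Fn (Fin n → Bool)}
    (hh : UnitFn h) (S : Finset (Fin n → Bool)) :
    ((PP2 j n) ^ x) h S - x * piR j n ≤ ((TL p s (j + 1)) ^ x) h S := by
  have : NeZero n := ⟨hn.ne'⟩
  induction x generalizing S with
  | zero => simp
  | succ x ih =>
    rw [pow_succ', Module.End.mul_apply, pow_succ', Module.End.mul_apply]
    have h1 : (fun S => ((PP2 j n) ^ x) h S - x * piR j n) ≤ ((TL p s (j + 1)) ^ x) h :=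
      fun S => ih S
    have h2 := (TL_good p s (j + 1)).ord _ _ h1 S
    rw [(TL_good p s (j + 1)).sub_const] at h2
    refine le_trans ?_ h2
    have h3 := TL_ge_PP2 hn p s j (((PP2_good j n).pow x).unit hh) S
    push_cast
    linarith

end proj

/-! ### The comparison -/

/-- Unit clause identity. -/
lemma gW_mul_g0 {n : ℕ} (S : Finset (Fin (n + 1) → Bool)) :
    gW S * (g0 : Fn (Fin (n + 1) → Bool)) S =
      (1 / (2 * ((n : ℝ) + 1))) *
        ∑ l : Fin (n + 1) × Bool,
          ((g0 : Fn (Fin (n + 1) → Bool)) S - (g0 : Fn (Fin n → Bool)) (sl l.1 l.2 S)) := by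
  classical
  by_cases hS : S.Nonempty
  · have h1 : ∀ l : Fin (n + 1) × Bool,
        (g0 : Fn (Fin (n + 1) → Bool)) S - (g0 : Fn (Fin n → Bool)) (sl l.1 l.2 S) =
          if l ∈ falseLits S then 1 else 0 := by
      intro l
      have hg : (g0 : Fn (Fin (n + 1) → Bool)) S = 1 := if_pos hS
      rw [hg]
      by_cases hl : l ∈ falseLits S
      · rw [if_pos hl]
        have h2 : ¬ (sl l.1 l.2 S).Nonempty := by
          rintro ⟨a, ha⟩
          have h3 := mem_sl.mp ha
          have h4 := mem_falseLits.mp hl _ h3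
          apply h4
          simp [ins]
        have h5 : (g0 : Fn (Fin n → Bool)) (sl l.1 l.2 S) = 0 := if_neg h2
        rw [h5]
        ring
      · rw [if_neg hl]
        have h2 : (sl l.1 l.2 S).Nonempty := by
          rw [mem_falseLits] at hl
          push Not at hl
          obtain ⟨σ, hσ, hσl⟩ := hl
          refine ⟨fun i => σ (l.1.succAbove i), mem_sl.mpr ?_⟩
          have : ins l.1 l.2 (fun i => σ (l.1.succAbove i)) = σ := by
            funext i
            rcases Fin.eq_self_or_eq_succAbove l.1 i with h | ⟨m, h⟩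
            · subst h
              simp [ins, hσl]
            · subst h
              simp [ins]
          rw [this]
          exact hσ
        have h5 : (g0 : Fn (Fin n → Bool)) (sl l.1 l.2 S) = 1 := if_pos h2
        rw [h5]
        ring
    simp only [h1]
    rw [Finset.sum_boole]
    have hg : (g0 : Fn (Fin (n + 1) → Bool)) S = 1 := if_pos hS
    rw [hg, mul_one]
    unfold gW
    have h2 : (Finset.univ.filter (fun l => l ∈ falseLits S)) = falseLits S := by
      ext l
      simp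
    rw [h2]
    push_cast
    ring
  · have hg : (g0 : Fn (Fin (n + 1) → Bool)) S = 0 := if_neg hS
    have hS' : S = ∅ := Finset.not_nonempty_iff_eq_empty.mp hS
    have h3 : ∀ l : Fin (n + 1) × Bool, (g0 : Fn (Fin n → Bool)) (sl l.1 l.2 S) = 0 := by
      intro l
      apply if_neg
      rintro ⟨a, ha⟩
      have := mem_sl.mp ha
      rw [hS'] at this
      simp at this
    simp only [hg, h3]
    simp

/-- The comparison theorem. -/
theorem bb_step (j : ℕ) {n : ℕ} (hn : 0 < n) (x y : ℕ) :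
    bb j (n + 1) x y ≤
      (((PP j n) ^ x - (PP2 j n) ^ x) * (TW j n) ^ y) (g0 : Fn (Fin n → Bool)) Finset.univ +
        x * piR j n + 2 * y * ((j : ℝ) / (n + 1)) := by
  classical
  have : NeZero n := ⟨hn.ne'⟩
  set E := (TW (j + 1) (n + 1)) ^ x * (TW j (n + 1)) ^ y with hE
  set V := (((PP j n) ^ x - (PP2 j n) ^ x) * (TW j n) ^ y) (g0 : Fn (Fin n → Bool)) Finset.univ with hV
  set B := V + x * piR j n + 2 * y * ((j : ℝ) / (n + 1)) with hB
  have hδ : 1 - pi0 j n ≤ (j : ℝ) / (n + 1) := one_sub_pi0_le j n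
  have hδ0 : 0 ≤ 1 - pi0 j n := by linarith [pi0_le_one j n]
  have hy : (0 : ℝ) ≤ y := Nat.cast_nonneg y
  -- each literal
  have hterm : ∀ l : Fin (n + 1) × Bool,
      E (g0 : Fn (Fin (n + 1) → Bool)) Finset.univ -
        E (fun S => (g0 : Fn (Fin n → Bool)) (sl l.1 l.2 S)) Finset.univ ≤ B := by
    rintro ⟨p, s⟩
    simp only
    -- upper bound
    have hu1 : ∀ T, ((TW j (n + 1)) ^ y) (g0 : Fn (Fin (n + 1) → Bool)) T ≤
        ((Lz j n) ^ y) (g0 : Fn (Fin n → Bool)) (proj p T) :=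
      fun T => iter_upper hn p y (g0_le_proj p) g0_mono T
    have hu2 : ∀ T, E (g0 : Fn (Fin (n + 1) → Bool)) T ≤
        ((PP j n) ^ x) (((Lz j n) ^ y) (g0 : Fn (Fin n → Bool))) (proj p T) := by
      intro T
      rw [hE, Module.End.mul_apply]
      exact iter_upper hn p x hu1 (((Lz_good j n).pow y).mono _ g0_mono) T
    have hu3 : ((Lz j n) ^ y) (g0 : Fn (Fin n → Bool)) ≤
        (fun S => ((TW j n) ^ y) g0 S + y * (1 - pi0 j n)) := fun S => Lz_pow_le hn j y S
    have hPPg : Good ((PP j n) ^ x) := (Lz_good (j + 1) n).pow x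
    have hu4 := hPPg.ord _ _ hu3 Finset.univ
    rw [hPPg.add_const] at hu4
    have hup := hu2 Finset.univ
    rw [proj_univ] at hup
    -- lower bound
    have hl1 : E (fun S => (g0 : Fn (Fin n → Bool)) (sl p s S)) Finset.univ =
        ((TL p s (j + 1)) ^ x) (((TL p s j) ^ y) (g0 : Fn (Fin n → Bool))) Finset.univ := by
      rw [hE, Module.End.mul_apply, TW_pow_comp_sl, TW_pow_comp_sl]
      simp only [sl_univ]
    have hl2 : (fun S => ((TW j n) ^ y) (g0 : Fn (Fin n → Bool)) S - y * (1 - pi0 j n)) ≤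
        ((TL p s j) ^ y) g0 := fun S => TL_pow_ge hn p s j y S
    have hTLg : Good ((TL p s (j + 1)) ^ x) := (TL_good p s (j + 1)).pow x
    have hl3 := hTLg.ord _ _ hl2 Finset.univ
    rw [hTLg.sub_const] at hl3
    have hu5 : UnitFn (((TW j n) ^ y) (g0 : Fn (Fin n → Bool))) :=
      ((TW_good j n).pow y).unit g0_unit
    have hl4 := TL_pow_ge_PP2 hn p s j x hu5 Finset.univ
    rw [hl1]
    have hVe : V = ((PP j n) ^ x) (((TW j n) ^ y) (g0 : Fn (Fin n → Bool))) Finset.univ -
        ((PP2 j n) ^ x) (((TW j n) ^ y) (g0 : Fn (Fin n → Bool))) Finset.univ := by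
      rw [hV, Module.End.mul_apply]
      rfl
    have hy2 : (y : ℝ) * (1 - pi0 j n) ≤ y * ((j : ℝ) / (n + 1)) :=
      mul_le_mul_of_nonneg_left hδ hy
    rw [hB, hVe]
    linarith
  -- average over literals
  have hlit : (0 : ℝ) < 2 * ((n : ℝ) + 1) := by positivity
  have hfun : ((gW * g0 : Fn (Fin (n + 1) → Bool))) =
      (1 / (2 * ((n : ℝ) + 1))) • ∑ l : Fin (n + 1) × Bool,
        ((g0 : Fn (Fin (n + 1) → Bool)) -
          (fun S => (g0 : Fn (Fin n → Bool)) (sl l.1 l.2 S))) := by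
    funext S
    simp only [Pi.mul_apply, gW_mul_g0 S, Pi.smul_apply, smul_eq_mul, Finset.sum_apply,
      Pi.sub_apply]
  unfold bb
  rw [← hE, hfun, map_smul, map_sum]
  simp only [Pi.smul_apply, smul_eq_mul, Finset.sum_apply, map_sub, Pi.sub_apply]
  rw [div_mul_eq_mul_div, one_mul, div_le_iff₀ hlit]
  calc ∑ l : Fin (n + 1) × Bool, (E (g0 : Fn (Fin (n + 1) → Bool)) Finset.univ -
        E (fun S => (g0 : Fn (Fin n → Bool)) (sl l.1 l.2 S)) Finset.univ)
      ≤ ∑ _l : Fin (n + 1) × Bool, B := Finset.sum_le_sum (fun l _ => hterm l)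
    _ = B * (2 * ((n : ℝ) + 1)) := by
        rw [Finset.sum_const, Finset.card_univ, Fintype.card_prod, Fintype.card_fin,
          Fintype.card_bool, nsmul_eq_mul]
        push_cast
        ring

end

end Vale.Agent.Lib.P170T
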