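import Vale.Agent.Lib.P170.Frozen

namespace Vale.Agent.Lib.P170T

open Finset Vale.Agent.Lib.P170

set_option linter.unusedSectionVars false
set_option linter.unusedVariables false

/-! ## Markov operators on functions of finite sets -/

section markov

variable {X : Type} [DecidableEq X]

/-- Order preserving, monotonicity preserving operators fixing the constants. -/
structure Markov (T : Module.End ℝ (Fn X)) : Prop where
  ord : OrderPres T
  mono : MonoPres T
  const : ∀ c : ℝ, T (fun _ => c) = fun _ => c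

lemma Markov.one : Markov (1 : Module.End ℝ (Fn X)) :=
  ⟨OrderPres.one, MonoPres.one, fun _ => rfl⟩

lemma Markov.mul {T U : Module.End ℝ (Fn X)} (hT : Markov T) (hU : Markov U) : Markov (T * U) :=
  ⟨hT.ord.mul hU.ord, hT.mono.mul hU.mono, fun c => by
    show T (U _) = _
    rw [hU.const, hT.const]⟩

lemma Markov.pow {T : Module.End ℝ (Fn X)} (hT : Markov T) (m : ℕ) : Markov (T ^ m) := by
  induction m with
  | zero => rw [pow_zero]; exact Markov.one
  | succ m ih => rw [pow_succ]; exact ih.mul hT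

lemma Markov.avg {Ω : Type} [Fintype Ω] [Nonempty Ω] (A : Ω → Finset X) : Markov (Avg A) :=
  ⟨Avg_orderPres A, Avg_monoPres A, Avg_const A⟩

/-- Convex combination of two Markov operators. -/
lemma Markov.convex {T U : Module.End ℝ (Fn X)} (hT : Markov T) (hU : Markov U) {a b : ℝ}
    (ha : 0 ≤ a) (hb : 0 ≤ b) (hab : a + b = 1) : Markov (a • T + b • U) := by
  refine ⟨(hT.ord.smul ha).add (hU.ord.smul hb), (hT.mono.smul ha).add (hU.mono.smul hb), ?_⟩
  intro c
  funext S
  simp only [LinearMap.add_apply, LinearMap.smul_apply, Pi.add_apply, Pi.smul_apply, hT.const,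
    hU.const, smul_eq_mul]
  rw [← add_mul, hab, one_mul]

/-- Values of a Markov operator on `f + c`. -/
lemma Markov.add_const {T : Module.End ℝ (Fn X)} (hT : Markov T) (f : Fn X) (c : ℝ) :
    T (fun S => f S + c) = fun S => T f S + c := by
  have : (fun S => f S + c) = f + (fun _ => c) := rfl
  rw [this, map_add, hT.const]
  rfl

/-- Nonnegativity. -/
lemma Markov.nonneg {T : Module.End ℝ (Fn X)} (hT : Markov T) {f : Fn X} (hf : ∀ S, 0 ≤ f S)
    (S : Finset X) : 0 ≤ T f S := by
  have h := hT.ord (fun _ => 0) f (fun S => hf S) S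
  rwa [hT.const] at h

/-- Upper bound by a constant. -/
lemma Markov.le_const {T : Module.End ℝ (Fn X)} (hT : Markov T) {f : Fn X} {c : ℝ}
    (hf : ∀ S, f S ≤ c) (S : Finset X) : T f S ≤ c := by
  have h := hT.ord f (fun _ => c) (fun S => hf S) S
  rwa [hT.const] at h

/-- Functions that are monotone with values in `[0,1]`. -/
def MU (f : Fn X) : Prop := MonoFn f ∧ UnitFn f

lemma MU_g0 : MU (g0 : Fn X) := ⟨g0_mono, g0_unit⟩

lemma Markov.unit {T : Module.End ℝ (Fn X)} (hT : Markov T) {f : Fn X} (hf : UnitFn f) :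
    UnitFn (T f) := fun S => ⟨hT.nonneg (fun S => (hf S).1) S, hT.le_const (fun S => (hf S).2) S⟩

lemma Markov.MU {T : Module.End ℝ (Fn X)} (hT : Markov T) {f : Fn X} (hf : MU f) : MU (T f) :=
  ⟨hT.mono f hf.1, hT.unit hf.2⟩

/-- Iterating an intertwining inequality with additive error, upper form. -/
lemma iter_le {Y : Type} [DecidableEq Y] {T : Module.End ℝ (Fn X)} {T' : Module.End ℝ (Fn Y)}
    (hT : Markov T) (hT' : Markov T') (φ : Finset X → Finset Y) {ε : ℝ}
    (h : ∀ ψ : Fn Y, MU ψ → ∀ S, T (fun S => ψ (φ S)) S ≤ T' ψ (φ S) + ε)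
    (x : ℕ) (ψ : Fn Y) (hψ : MU ψ) (S : Finset X) :
    (T ^ x) (fun S => ψ (φ S)) S ≤ (T' ^ x) ψ (φ S) + x * ε := by
  induction x generalizing ψ S with
  | zero => simp
  | succ x ih =>
    have e1 : (T ^ (x + 1)) (fun S => ψ (φ S)) = (T ^ x) (T (fun S => ψ (φ S))) := by
      rw [pow_succ]; rfl
    have e2 : (T' ^ (x + 1)) ψ = (T' ^ x) (T' ψ) := by
      rw [pow_succ]; rfl
    rw [e1, e2]
    have h1 := (hT.pow x).ord _ (fun S => T' ψ (φ S) + ε) (fun S => h ψ hψ S) S
    rw [(hT.pow x).add_const] at h1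
    have h2 := ih (T' ψ) (hT'.MU hψ) S
    push_cast
    simp only at h1
    linarith

/-- Iterating an intertwining inequality with additive error, lower form. -/
lemma iter_ge {Y : Type} [DecidableEq Y] {T : Module.End ℝ (Fn X)} {T' : Module.End ℝ (Fn Y)}
    (hT : Markov T) (hT' : Markov T') (φ : Finset X → Finset Y) {ε : ℝ}
    (h : ∀ ψ : Fn Y, MU ψ → ∀ S, T' ψ (φ S) - ε ≤ T (fun S => ψ (φ S)) S)
    (x : ℕ) (ψ : Fn Y) (hψ : MU ψ) (S : Finset X) :
    (T' ^ x) ψ (φ S) - x * ε ≤ (T ^ x) (fun S => ψ (φ S)) S := by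
  induction x generalizing ψ S with
  | zero => simp
  | succ x ih =>
    have e1 : (T ^ (x + 1)) (fun S => ψ (φ S)) = (T ^ x) (T (fun S => ψ (φ S))) := by
      rw [pow_succ]; rfl
    have e2 : (T' ^ (x + 1)) ψ = (T' ^ x) (T' ψ) := by
      rw [pow_succ]; rfl
    rw [e1, e2]
    have h1 := (hT.pow x).ord (fun S => T' ψ (φ S) + (-ε)) _
      (fun S => by have := h ψ hψ S; simp only; linarith) S
    rw [(hT.pow x).add_const] at h1
    have h2 := ih (T' ψ) (hT'.MU hψ) S
    push_cast
    simp only at h1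
    linarith

end markov

/-! ## The literal model -/

abbrev Asg (n : ℕ) := Fin n → Bool
abbrev Lit (n : ℕ) := Fin n × Bool
abbrev WCl (j n : ℕ) := Fin j → Lit n

variable {j n : ℕ}

open Classical in
/-- The assignments satisfying a literal clause. -/
noncomputable def solW (C : WCl j n) : Finset (Asg n) :=
  Finset.univ.filter (fun σ => ∃ i, σ (C i).1 = (C i).2)

lemma mem_solW {C : WCl j n} {σ : Asg n} : σ ∈ solW C ↔ ∃ i, σ (C i).1 = (C i).2 := by
  simp [solW]

/-- The averaging operator of one random literal clause. -/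
noncomputable def TT (j n : ℕ) : Module.End ℝ (Fn (Asg n)) :=
  Avg (solW (j := j) (n := n))

instance instNonemptyWCl (j n : ℕ) [NeZero n] : Nonempty (WCl j n) :=
  ⟨fun _ => (0, true)⟩

lemma TT_markov (j n : ℕ) [NeZero n] : Markov (TT j n) := Markov.avg _

lemma TT_comm (j j' n : ℕ) : Commute (TT j n) (TT j' n) := Avg_comm _ _

lemma card_WCl (j n : ℕ) : Fintype.card (WCl j n) = (2 * n) ^ j := by
  simp [WCl, Lit, Fintype.card_prod, mul_comm]

/-- The fraction of literals false on all of `S`. -/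
noncomputable def gg (S : Finset (Asg n)) : ℝ := ((falseLits S).card : ℝ) / (2 * n)

lemma gg_nonneg (S : Finset (Asg n)) : 0 ≤ gg S := by unfold gg; positivity

lemma gg_le_one {S : Finset (Asg n)} (hS : S.Nonempty) : gg S ≤ 1 := by
  unfold gg
  rcases Nat.eq_zero_or_pos n with h | h
  · subst h; simp
  · have h1 : ((falseLits S).card : ℝ) ≤ n := by exact_mod_cast falseLits_card_le hS
    have h2 : (0 : ℝ) < 2 * n := by positivity
    rw [div_le_one h2]
    linarith [(by exact_mod_cast h : (0 : ℝ) < n)]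

lemma gg_anti {S T : Finset (Asg n)} (h : S ⊆ T) : gg T ≤ gg S := by
  unfold gg
  apply div_le_div_of_nonneg_right _ (by positivity)
  exact_mod_cast Finset.card_le_card (falseLits_anti h)

lemma inter_solW_eq_empty {S : Finset (Asg n)} {C : WCl j n} :
    S ∩ solW C = ∅ ↔ ∀ i, C i ∈ falseLits S := by
  rw [Finset.eq_empty_iff_forall_notMem]
  constructor
  · intro h i
    rw [mem_falseLits]
    intro σ hσ hl
    exact h σ (Finset.mem_inter.mpr ⟨hσ, mem_solW.mpr ⟨i, hl⟩⟩)
  · intro h σ hσ
    rw [Finset.mem_inter] at hσ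
    obtain ⟨i, hi⟩ := mem_solW.mp hσ.2
    exact (mem_falseLits.mp (h i)) σ hσ.1 hi

/-- The kill formula. -/
lemma TT_g0 (j n : ℕ) (hn : 0 < n) (S : Finset (Asg n)) :
    TT j n g0 S = g0 S * (1 - gg S ^ j) := by
  classical
  unfold TT
  rw [Avg_apply]
  by_cases hS : S.Nonempty
  · have hN : (Fintype.card (WCl j n) : ℝ) ≠ 0 := by
      rw [card_WCl]; positivity
    have h1 : ∀ C : WCl j n, (g0 : Fn (Asg n)) (S ∩ solW C)
        = 1 - (if C ∈ Fintype.piFinset (fun _ : Fin j => falseLits S) then 1 else 0) := by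
      intro C
      unfold g0
      by_cases h : C ∈ Fintype.piFinset (fun _ : Fin j => falseLits S)
      · rw [if_pos h, if_neg]
        · norm_num
        · rw [inter_solW_eq_empty.mpr (by simpa [Fintype.mem_piFinset] using h)]; simp
      · rw [if_neg h, if_pos]
        · norm_num
        · rw [Finset.nonempty_iff_ne_empty]
          intro h2
          exact h (by simpa [Fintype.mem_piFinset] using inter_solW_eq_empty.mp h2)
    simp only [h1]
    rw [Finset.sum_sub_distrib, Finset.sum_boole]
    simp only [Finset.sum_const, Finset.card_univ, nsmul_eq_mul, mul_one]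
    have h2 : ((Finset.univ.filter
        (fun C : WCl j n => C ∈ Fintype.piFinset (fun _ : Fin j => falseLits S))).card : ℝ)
        = ((falseLits S).card : ℝ) ^ j := by
      rw [Finset.filter_mem_eq_inter, Finset.univ_inter, Fintype.card_piFinset]
      simp
    rw [h2, sub_div, div_self hN, card_WCl]
    unfold gg g0
    rw [if_pos hS, one_mul, div_pow]
    push_cast
    rfl
  · have hS' : S = ∅ := Finset.not_nonempty_iff_eq_empty.mp hS
    subst hS'
    simp [g0]

end Vale.Agent.Lib.P170T
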