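import Vale.Agent.Lib.P170T.Window

namespace Vale.Agent.Lib.P170T

open Finset Vale.Agent.Lib.P170

set_option linter.unusedSectionVars false
set_option linter.unusedVariables false

/-- Binomial weight. -/
noncomputable def bw (p : ℝ) (M b : ℕ) : ℝ := (M.choose b : ℝ) * p ^ b * (1 - p) ^ (M - b)

lemma bw_nonneg {p : ℝ} (h0 : 0 ≤ p) (h1 : p ≤ 1) (M b : ℕ) : 0 ≤ bw p M b := by
  unfold bw
  have : 0 ≤ 1 - p := by linarith
  positivity

lemma bw_sum (p : ℝ) (M : ℕ) : ∑ b ∈ Finset.range (M + 1), bw p M b = 1 := by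
  have h := add_pow p (1 - p) M
  rw [add_sub_cancel, one_pow] at h
  rw [h]
  refine Finset.sum_congr rfl (fun b _ => ?_)
  unfold bw
  ring

lemma bw_var (p : ℝ) (M : ℕ) :
    ∑ b ∈ Finset.range (M + 1), bw p M b * ((b : ℝ) - M * p) ^ 2 = M * p * (1 - p) := by
  have h := bernsteinPolynomial.variance ℝ M
  have h2 := congrArg (Polynomial.eval p) h
  simp only [Polynomial.eval_finsetSum, Polynomial.eval_mul, Polynomial.eval_pow,
    Polynomial.eval_sub, Polynomial.eval_smul, Polynomial.eval_X, Polynomial.eval_natCast,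
    Polynomial.eval_one, bernsteinPolynomial, smul_eq_mul, nsmul_eq_mul] at h2
  calc ∑ b ∈ Finset.range (M + 1), bw p M b * ((b : ℝ) - M * p) ^ 2
      = ∑ x ∈ Finset.range (M + 1), ((M : ℝ) * p - x) ^ 2 * ((M.choose x : ℝ) * p ^ x * (1 - p) ^ (M - x)) := by
        refine Finset.sum_congr rfl (fun b _ => ?_)
        unfold bw
        ring
    _ = _ := h2

/-- Chebyshev for binomial weights. -/
lemma bw_tail {p : ℝ} (h0 : 0 ≤ p) (h1 : p ≤ 1) (M : ℕ) {L : ℝ} (hL : 0 < L)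
    (P : ℕ → Prop) [DecidablePred P] (hP : ∀ b, P b → L ≤ |(b : ℝ) - M * p|) :
    ∑ b ∈ Finset.range (M + 1), (if P b then bw p M b else 0) ≤ M * p * (1 - p) / L ^ 2 := by
  rw [le_div_iff₀ (by positivity), Finset.sum_mul, ← bw_var]
  apply Finset.sum_le_sum
  intro b _
  by_cases hb : P b
  · rw [if_pos hb]
    apply mul_le_mul_of_nonneg_left _ (bw_nonneg h0 h1 M b)
    rw [← sq_abs ((b : ℝ) - M * p)]
    exact pow_le_pow_left₀ hL.le (hP b hb) 2
  · rw [if_neg hb, zero_mul]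
    exact mul_nonneg (bw_nonneg h0 h1 M b) (sq_nonneg _)

/-- `p (1 - p) ≤ 1 / 4`. -/
lemma mul_one_sub_le (p : ℝ) : p * (1 - p) ≤ 1 / 4 := by
  nlinarith [sq_nonneg (p - 1 / 2)]

/-- Thinning expansion. -/
lemma thin_pow {X : Type} [DecidableEq X] (T : Module.End ℝ (Fn X)) (θ : ℝ) (x : ℕ) (f : Fn X)
    (S : Finset X) :
    ((θ • T + (1 - θ) • (1 : Module.End ℝ (Fn X))) ^ x) f S =
      ∑ b ∈ Finset.range (x + 1), bw θ x b * (T ^ b) f S := by
  have hc : Commute (θ • T) ((1 - θ) • (1 : Module.End ℝ (Fn X))) :=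
    ((Commute.one_right T).smul_left θ).smul_right (1 - θ)
  rw [hc.add_pow]
  rw [LinearMap.sum_apply, Finset.sum_apply]
  refine Finset.sum_congr rfl (fun b _ => ?_)
  have e : (θ • T) ^ b * ((1 - θ) • (1 : Module.End ℝ (Fn X))) ^ (x - b) * ((x.choose b : ℕ) : Module.End ℝ (Fn X))
      = (bw θ x b) • T ^ b := by
    rw [smul_pow, smul_pow, one_pow, smul_mul_smul_comm, mul_one, smul_mul_assoc]
    rw [← nsmul_eq_mul', ← Nat.cast_smul_eq_nsmul ℝ, smul_smul]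
    congr 1
    unfold bw
    ring
  rw [e]
  rfl

/-- Expectation of an antitone function under binomial weights, upper bound. -/
lemma bw_anti_le {p : ℝ} (h0 : 0 ≤ p) (h1 : p ≤ 1) (M T : ℕ) {L : ℝ} (hL : 0 < L)
    (hT : (T : ℝ) ≤ (M : ℝ) * p - L) (q : ℕ → ℝ) (hq : ∀ a b, a ≤ b → q b ≤ q a) (hq0 : ∀ a, 0 ≤ q a)
    (hq1 : ∀ a, q a ≤ 1) :
    ∑ b ∈ Finset.range (M + 1), bw p M b * q b ≤ q T + M * p * (1 - p) / L ^ 2 := by
  classical
  have h2 := bw_tail h0 h1 M hL (fun b => b + 1 ≤ T) (by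
    intro b hb
    have h3 : (b : ℝ) + 1 ≤ T := by exact_mod_cast hb
    rw [abs_sub_comm, le_abs]
    left
    linarith)
  have h3 : ∀ b ∈ Finset.range (M + 1), bw p M b * q b ≤
      bw p M b * q T + (if b + 1 ≤ T then bw p M b else 0) := by
    intro b _
    have hb := bw_nonneg h0 h1 M b
    by_cases hbT : b + 1 ≤ T
    · rw [if_pos hbT]
      have := hq1 b
      have := hq0 T
      nlinarith
    · rw [if_neg hbT]
      have : q b ≤ q T := hq _ _ (by omega)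
      nlinarith
  refine (Finset.sum_le_sum h3).trans ?_
  rw [Finset.sum_add_distrib, ← Finset.sum_mul, bw_sum, one_mul]
  linarith

/-- Expectation of a product of antitone functions under binomial weights, lower bound. -/
lemma bw_prod_ge {p : ℝ} (h0 : 0 ≤ p) (h1 : p ≤ 1) (M T₁ T₂ : ℕ) {L : ℝ} (hL : 0 < L)
    (hT₁ : (M : ℝ) * p + L ≤ T₁) (hT₂ : (M : ℝ) * (1 - p) + L ≤ T₂) (q₁ q₂ : ℕ → ℝ)
    (hq₁ : ∀ a b, a ≤ b → q₁ b ≤ q₁ a) (hq₂ : ∀ a b, a ≤ b → q₂ b ≤ q₂ a)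
    (h10 : ∀ a, 0 ≤ q₁ a) (h11 : ∀ a, q₁ a ≤ 1) (h20 : ∀ a, 0 ≤ q₂ a) (h21 : ∀ a, q₂ a ≤ 1) :
    q₁ T₁ * q₂ T₂ - M * p * (1 - p) / L ^ 2 ≤
      ∑ b ∈ Finset.range (M + 1), bw p M b * (q₁ b * q₂ (M - b)) := by
  classical
  have h2 := bw_tail h0 h1 M hL (fun b => ¬ (b ≤ T₁ ∧ M - b ≤ T₂)) (by
    intro b hb
    rw [not_and_or] at hb
    rcases hb with hb | hb
    · have h3 : (T₁ : ℝ) + 1 ≤ b := by
        have : T₁ + 1 ≤ b := by omega
        exact_mod_cast this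
      rw [le_abs]
      left
      linarith
    · have h3 : T₂ + 1 ≤ M - b := by omega
      have h4 : b + (T₂ + 1) ≤ M := by omega
      have h5 : (b : ℝ) + (T₂ + 1) ≤ M := by exact_mod_cast h4
      rw [abs_sub_comm, le_abs]
      left
      nlinarith)
  have h3 : ∀ b ∈ Finset.range (M + 1), bw p M b * (q₁ T₁ * q₂ T₂)
      - (if ¬ (b ≤ T₁ ∧ M - b ≤ T₂) then bw p M b else 0) ≤ bw p M b * (q₁ b * q₂ (M - b)) := by
    intro b _
    have hb := bw_nonneg h0 h1 M b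
    by_cases hg : b ≤ T₁ ∧ M - b ≤ T₂
    · rw [if_neg (not_not.mpr hg), sub_zero]
      apply mul_le_mul_of_nonneg_left _ hb
      exact mul_le_mul (hq₁ _ _ hg.1) (hq₂ _ _ hg.2) (h20 _) (h10 _)
    · rw [if_pos hg]
      have h5 : q₁ T₁ * q₂ T₂ ≤ 1 := mul_le_one₀ (h11 _) (h20 _) (h21 _)
      have h6 : 0 ≤ q₁ b * q₂ (M - b) := mul_nonneg (h10 _) (h20 _)
      nlinarith
  have h4 := Finset.sum_le_sum h3
  rw [Finset.sum_sub_distrib, ← Finset.sum_mul, bw_sum, one_mul] at h4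
  linarith

end Vale.Agent.Lib.P170T
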