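import Vale.Agent.Lib.P170T.Quant

namespace Vale.Agent.Lib.P170T

open Finset Vale.Agent.Lib.P170 Filter Topology

set_option linter.unusedSectionVars false
set_option linter.unusedVariables false

variable {j : ℕ}

/-- The two quantile comparisons. -/
lemma low_high (hj : 2 ≤ j) : ∃ N₀ : ℕ, 3 ≤ N₀ ∧ ∀ N ≥ N₀,
    (∀ T : ℕ, (T : ℝ) + 8 * (N * ww N) + 1 ≤ hat j N → 7 / 8 ≤ pn j N T) ∧
    (∀ T : ℕ, 1 / 4 ≤ pn j N T → (T : ℝ) ≤ hat j N + 8 * (N * ww N)) := by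
  have hcap : (0 : ℝ) < cap j := by exact_mod_cast cap_pos j
  obtain ⟨N₁, _, hN₁⟩ := window_count (j := j) hj hcap (by norm_num : (0 : ℝ) < 1 / 8)
    (by norm_num : (0 : ℝ) < 1 / 2)
  obtain ⟨N₂, _, hN₂⟩ := window_count (j := j) hj hcap (by norm_num : (0 : ℝ) < 1 / 2)
    (by norm_num : (0 : ℝ) < 1 / 4)
  refine ⟨max (max N₁ N₂) 3, le_max_right _ _, fun N hN => ?_⟩
  have h1 : N₁ ≤ N := le_trans (le_trans (le_max_left _ _) (le_max_left _ _)) hN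
  have h2 : N₂ ≤ N := le_trans (le_trans (le_max_right _ _) (le_max_left _ _)) hN
  have h3 : 3 ≤ N := le_trans (le_max_right _ _) hN
  have hNpos : 0 < N := by omega
  have hw0 : 0 ≤ (N : ℝ) * ww N := mul_nonneg (Nat.cast_nonneg N) (ww_nonneg N)
  constructor
  · intro T hT
    by_contra hc
    push Not at hc
    have hT0 : 0 < T := by
      rcases Nat.eq_zero_or_pos T with h | h
      · subst h
        rw [pn_zero] at hc
        norm_num at hc
      · exact h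
    obtain ⟨m, rfl⟩ : ∃ m, T = m + 1 := ⟨T - 1, by omega⟩
    have hlt : (m : ℝ) + 1 + 8 * (N * ww N) + 1 ≤ hat j N := by
      push_cast at hT
      linarith
    have hm : m < hat j N := by
      have : (m : ℝ) < hat j N := by linarith
      exact_mod_cast this
    have hcapN : (hat j N : ℝ) ≤ cap j * N := by exact_mod_cast hat_le_cap h3
    have := hN₁ N h1 m (hat j N) hm hcapN (by linarith) (hat_spec h3)
    linarith
  · intro T hT
    by_contra hc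
    push Not at hc
    have hm : hat j N < T := by
      have : (hat j N : ℝ) < T := by linarith
      exact_mod_cast this
    have hTcap : (T : ℝ) ≤ cap j * N := by
      by_contra hd
      push Not at hd
      have hd' : cap j * N ≤ T := by
        have : ((cap j * N : ℕ) : ℝ) ≤ T := by
          push_cast
          exact hd.le
        exact_mod_cast this
      have := pn_lt_of_cap (j := j) h3 hd'
      linarith
    have := hN₂ N h2 (hat j N) T hm hTcap (by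
      have := pn_hat_succ (j := j) h3
      linarith) hT
    linarith

/-- The mixing step for counts. -/
lemma split_step {N₀ : ℕ} (h3 : 3 ≤ N₀) (hN₀ : ∀ N ≥ N₀,
    (∀ T : ℕ, (T : ℝ) + 8 * (N * ww N) + 1 ≤ hat j N → 7 / 8 ≤ pn j N T))
    {n₁ n₂ : ℕ} (hn₁ : N₀ ≤ n₁) (hn₂ : N₀ ≤ n₂) {ρ L : ℝ} (hρ0 : 0 ≤ ρ)
    (hL : 0 < L) (hL2 : ρ * ((n₁ : ℝ) + n₂) ≤ L ^ 2)
    (h₁ : ρ * n₁ + L + 2 + 8 * (n₁ * ww n₁) ≤ hat j n₁)
    (h₂ : ρ * n₂ + L + 2 + 8 * (n₂ * ww n₂) ≤ hat j n₂) :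
    ⌊ρ * ((n₁ : ℝ) + n₂)⌋₊ ≤ hat j (n₁ + n₂) := by
  have hn₁pos : 0 < n₁ := by omega
  have hn₂pos : 0 < n₂ := by omega
  have : NeZero n₁ := ⟨hn₁pos.ne'⟩
  have : NeZero n₂ := ⟨hn₂pos.ne'⟩
  have hn₁' : (0 : ℝ) < n₁ := by exact_mod_cast hn₁pos
  have hn₂' : (0 : ℝ) < n₂ := by exact_mod_cast hn₂pos
  have hN' : (0 : ℝ) < (n₁ : ℝ) + n₂ := by positivity
  set N : ℝ := (n₁ : ℝ) + n₂ with hN
  set M := ⌊ρ * N⌋₊ with hM
  have hMle : (M : ℝ) ≤ ρ * N := Nat.floor_le (by positivity)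
  set T₁ := ⌈ρ * n₁ + L⌉₊ with hT₁
  set T₂ := ⌈ρ * n₂ + L⌉₊ with hT₂
  have hT₁a : ρ * n₁ + L ≤ T₁ := Nat.le_ceil _
  have hT₂a : ρ * n₂ + L ≤ T₂ := Nat.le_ceil _
  have hT₁b : (T₁ : ℝ) ≤ ρ * n₁ + L + 1 := (Nat.ceil_lt_add_one (by positivity)).le
  have hT₂b : (T₂ : ℝ) ≤ ρ * n₂ + L + 1 := (Nat.ceil_lt_add_one (by positivity)).le
  have hq₁ := hN₀ n₁ hn₁ T₁ (by linarith)
  have hq₂ := hN₀ n₂ hn₂ T₂ (by linarith)
  have hl0 := lam_nonneg n₁ n₂
  have hl1 := lam_le_one n₁ n₂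
  have hlam : lam n₁ n₂ = (n₁ : ℝ) / N := rfl
  have hlam2 : 1 - lam n₁ n₂ = (n₂ : ℝ) / N := one_sub_lam (by omega)
  have hM1 : (M : ℝ) * lam n₁ n₂ + L ≤ T₁ := by
    have : (M : ℝ) * lam n₁ n₂ ≤ ρ * N * lam n₁ n₂ := mul_le_mul_of_nonneg_right hMle hl0
    have e : ρ * N * lam n₁ n₂ = ρ * n₁ := by
      rw [hlam]
      field_simp
    linarith
  have hM2 : (M : ℝ) * (1 - lam n₁ n₂) + L ≤ T₂ := by
    have : (M : ℝ) * (1 - lam n₁ n₂) ≤ ρ * N * (1 - lam n₁ n₂) :=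
      mul_le_mul_of_nonneg_right hMle (by linarith)
    have e : ρ * N * (1 - lam n₁ n₂) = ρ * n₂ := by
      rw [hlam2]
      field_simp
    linarith
  have hmix := mixing (j := j) hn₁pos hn₂pos M
  have hprod := bw_prod_ge hl0 hl1 M T₁ T₂ hL hM1 hM2 (pn j n₁) (pn j n₂)
    (fun a b h => pn_anti hn₁pos h) (fun a b h => pn_anti hn₂pos h)
    (fun a => pn_nonneg a) (fun a => pn_le_one a) (fun a => pn_nonneg a) (fun a => pn_le_one a)
  have hvar : (M : ℝ) * lam n₁ n₂ * (1 - lam n₁ n₂) / L ^ 2 ≤ 1 / 4 := by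
    rw [div_le_iff₀ (by positivity)]
    have h5 := mul_one_sub_le (lam n₁ n₂)
    have h6 : (M : ℝ) * (lam n₁ n₂ * (1 - lam n₁ n₂)) ≤ (M : ℝ) * (1 / 4) :=
      mul_le_mul_of_nonneg_left h5 (Nat.cast_nonneg M)
    have h7 : (M : ℝ) ≤ L ^ 2 := hMle.trans hL2
    linarith
  have hq : (7 / 8 : ℝ) * (7 / 8) ≤ pn j n₁ T₁ * pn j n₂ T₂ :=
    mul_le_mul hq₁ hq₂ (by norm_num) (by linarith)
  apply le_hat (by omega)
  linarith

/-- Real form of the mixing step. -/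
lemma rr_split {N₀ : ℕ} (h3 : 3 ≤ N₀) (hN₀ : ∀ N ≥ N₀,
    (∀ T : ℕ, (T : ℝ) + 8 * (N * ww N) + 1 ≤ hat j N → 7 / 8 ≤ pn j N T))
    {n₁ n₂ : ℕ} (hn₁ : N₀ ≤ n₁) (hn₂ : N₀ ≤ n₂) {y : ℝ}
    (h₁ : y ≤ rr j n₁ - (Real.sqrt (cap j * ((n₁ : ℝ) + n₂)) + 3) / n₁ - 8 * ww n₁)
    (h₂ : y ≤ rr j n₂ - (Real.sqrt (cap j * ((n₁ : ℝ) + n₂)) + 3) / n₂ - 8 * ww n₂) :
    y - 1 / ((n₁ : ℝ) + n₂) ≤ rr j (n₁ + n₂) := by
  have hn₁pos : 0 < n₁ := by omega
  have hn₂pos : 0 < n₂ := by omega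
  have hn₁' : (0 : ℝ) < n₁ := by exact_mod_cast hn₁pos
  have hn₂' : (0 : ℝ) < n₂ := by exact_mod_cast hn₂pos
  have hN' : (0 : ℝ) < (n₁ : ℝ) + n₂ := by positivity
  by_cases hy : y ≤ 0
  · have := rr_nonneg j (n₁ + n₂)
    have h5 : 0 ≤ 1 / ((n₁ : ℝ) + n₂) := by positivity
    linarith
  push Not at hy
  set s := Real.sqrt (cap j * ((n₁ : ℝ) + n₂)) with hs
  have hs0 : 0 ≤ s := Real.sqrt_nonneg _
  have hw1 := ww_nonneg n₁
  have hrr1 : y ≤ rr j n₁ := by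
    have : 0 ≤ (s + 3) / n₁ := by positivity
    linarith
  have hycap : y ≤ cap j := hrr1.trans (rr_le_cap (by omega))
  have hsq : s ^ 2 = cap j * ((n₁ : ℝ) + n₂) := Real.sq_sqrt (by positivity)
  have hhat : ∀ n : ℕ, 0 < n → (hat j n : ℝ) = rr j n * n := by
    intro n hn
    have : (n : ℝ) ≠ 0 := by exact_mod_cast hn.ne'
    unfold rr
    field_simp
  have h6 := split_step (j := j) h3 hN₀ hn₁ hn₂ (ρ := y) (L := s + 1) hy.le (by linarith) (by
      have h7 : y * ((n₁ : ℝ) + n₂) ≤ cap j * ((n₁ : ℝ) + n₂) :=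
        mul_le_mul_of_nonneg_right hycap hN'.le
      nlinarith) (by
      rw [hhat n₁ hn₁pos]
      have h7 := mul_le_mul_of_nonneg_right h₁ hn₁'.le
      have e : (rr j n₁ - (s + 3) / n₁ - 8 * ww n₁) * n₁ = rr j n₁ * n₁ - (s + 3) - 8 * (n₁ * ww n₁) := by
        field_simp
      rw [e] at h7
      linarith) (by
      rw [hhat n₂ hn₂pos]
      have h7 := mul_le_mul_of_nonneg_right h₂ hn₂'.le
      have e : (rr j n₂ - (s + 3) / n₂ - 8 * ww n₂) * n₂ = rr j n₂ * n₂ - (s + 3) - 8 * (n₂ * ww n₂) := by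
        field_simp
      rw [e] at h7
      linarith)
  have h8 : y * ((n₁ : ℝ) + n₂) - 1 < (⌊y * ((n₁ : ℝ) + n₂)⌋₊ : ℝ) := by
    have := Nat.lt_floor_add_one (y * ((n₁ : ℝ) + n₂))
    linarith
  have h9 : (⌊y * ((n₁ : ℝ) + n₂)⌋₊ : ℝ) ≤ hat j (n₁ + n₂) := by exact_mod_cast h6
  have e2 : rr j (n₁ + n₂) = (hat j (n₁ + n₂) : ℝ) / ((n₁ : ℝ) + n₂) := by
    unfold rr
    push_cast
    rfl
  rw [e2, le_div_iff₀ hN']
  have e3 : (y - 1 / ((n₁ : ℝ) + n₂)) * ((n₁ : ℝ) + n₂) = y * ((n₁ : ℝ) + n₂) - 1 := by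
    field_simp
  rw [e3]
  linarith

lemma ww_sq {N : ℕ} (hN : 0 < N) : ww N ^ 2 = 1 / Real.sqrt N := by
  unfold ww sr
  rw [div_pow, Real.sq_sqrt (Real.sqrt_nonneg _)]
  norm_num

/-- The constant of the balanced step. -/
noncomputable def C1 (j : ℕ) : ℝ := 3 * Real.sqrt (cap j) + 26

lemma C1_pos (j : ℕ) : 0 < C1 j := by
  unfold C1
  have := Real.sqrt_nonneg (cap j : ℝ)
  positivity

/-- The balanced step. -/
lemma rr_balanced {N₀ : ℕ} (h3 : 3 ≤ N₀) (hN₀ : ∀ N ≥ N₀,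
    (∀ T : ℕ, (T : ℝ) + 8 * (N * ww N) + 1 ≤ hat j N → 7 / 8 ≤ pn j N T))
    {n₁ n₂ : ℕ} (hn₁ : N₀ ≤ n₁) (hn₂ : N₀ ≤ n₂)
    (hb₁ : (n₁ + n₂ : ℕ) ≤ 3 * n₁) (hb₂ : (n₁ + n₂ : ℕ) ≤ 3 * n₂) {y : ℝ}
    (h₁ : y ≤ rr j n₁) (h₂ : y ≤ rr j n₂) :
    y - C1 j * ww (n₁ + n₂) ≤ rr j (n₁ + n₂) := by
  have hn₁pos : 0 < n₁ := by omega
  have hn₂pos : 0 < n₂ := by omega
  have hn₁' : (0 : ℝ) < n₁ := by exact_mod_cast hn₁pos
  have hn₂' : (0 : ℝ) < n₂ := by exact_mod_cast hn₂pos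
  set N := n₁ + n₂ with hN
  have hNpos : 0 < N := by omega
  have hN' : (0 : ℝ) < N := by exact_mod_cast hNpos
  have hNr : (N : ℝ) = (n₁ : ℝ) + n₂ := by rw [hN]; push_cast; rfl
  set w := ww N with hw
  have hw0 : 0 ≤ w := ww_nonneg N
  have hw1 : w ≤ 1 := ww_le_one hNpos
  have hw4 : w ^ 4 = 1 / (N : ℝ) := ww_pow_four hNpos
  have hw2 : w ^ 2 = 1 / Real.sqrt N := ww_sq hNpos
  have hwle2 : w ^ 2 ≤ w := by nlinarith
  have hwle4 : w ^ 4 ≤ w := by nlinarith [pow_nonneg hw0 2, pow_nonneg hw0 3, sq_nonneg (w ^ 2)]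
  -- the bound on the error
  have herr : ∀ m : ℕ, N ≤ 3 * m → 0 < m →
      (Real.sqrt (cap j * (N : ℝ)) + 3) / m + 8 * ww m ≤ (3 * Real.sqrt (cap j) + 25) * w := by
    intro m hm hm0
    have hm' : (0 : ℝ) < m := by exact_mod_cast hm0
    have hmN : (N : ℝ) ≤ 3 * m := by exact_mod_cast hm
    have h1 : ww m ≤ 2 * w := ww_mul_le hm0 hmN hNpos
    have hsc : 0 ≤ Real.sqrt (cap j) := Real.sqrt_nonneg _
    have hsN : 0 < Real.sqrt N := Real.sqrt_pos.mpr hN'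
    have h2 : Real.sqrt (cap j * (N : ℝ)) = Real.sqrt (cap j) * Real.sqrt N :=
      Real.sqrt_mul (by positivity) _
    have h3 : (Real.sqrt (cap j * (N : ℝ)) + 3) / m ≤ 3 * (Real.sqrt (cap j * (N : ℝ)) + 3) / N := by
      rw [div_le_div_iff₀ hm' hN']
      have : 0 ≤ Real.sqrt (cap j * (N : ℝ)) + 3 := by positivity
      nlinarith
    have h4 : 3 * (Real.sqrt (cap j * (N : ℝ)) + 3) / N
        = 3 * Real.sqrt (cap j) * (Real.sqrt N / N) + 9 * (1 / N) := by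
      rw [h2]
      field_simp
      ring
    have h5 : Real.sqrt N / N = w ^ 2 := by
      rw [hw2]
      have : (N : ℝ) = Real.sqrt N * Real.sqrt N := (Real.mul_self_sqrt hN'.le).symm
      field_simp
      nlinarith
    rw [h4, h5, ← hw4] at h3
    have h6 : 3 * Real.sqrt (cap j) * w ^ 2 ≤ 3 * Real.sqrt (cap j) * w :=
      mul_le_mul_of_nonneg_left hwle2 (by positivity)
    nlinarith
  have h1' : y - (3 * Real.sqrt (cap j) + 25) * w ≤
      rr j n₁ - (Real.sqrt (cap j * ((n₁ : ℝ) + n₂)) + 3) / n₁ - 8 * ww n₁ := by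
    have := herr n₁ hb₁ hn₁pos
    rw [hNr] at this
    linarith
  have h2' : y - (3 * Real.sqrt (cap j) + 25) * w ≤
      rr j n₂ - (Real.sqrt (cap j * ((n₁ : ℝ) + n₂)) + 3) / n₂ - 8 * ww n₂ := by
    have := herr n₂ hb₂ hn₂pos
    rw [hNr] at this
    linarith
  have h := rr_split h3 hN₀ hn₁ hn₂ h1' h2'
  rw [← hNr, ← hw4] at h
  unfold C1
  nlinarith

/-- Multiples. -/
lemma rr_mult {N₀ : ℕ} (h3 : 3 ≤ N₀) (hN₀ : ∀ N ≥ N₀,
    (∀ T : ℕ, (T : ℝ) + 8 * (N * ww N) + 1 ≤ hat j N → 7 / 8 ≤ pn j N T))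
    {n : ℕ} (hn : N₀ ≤ n) (q : ℕ) (hq : 1 ≤ q) :
    rr j n - 10 * C1 j * (ww n - ww (q * n)) ≤ rr j (q * n) := by
  have hnpos : 0 < n := by omega
  induction q using Nat.strong_induction_on with
  | _ q ih =>
    by_cases hq1 : q = 1
    · subst hq1
      simp
    have hq2 : 2 ≤ q := by omega
    set q₁ := q / 2 with hq₁
    set q₂ := q - q / 2 with hq₂
    have hq₁1 : 1 ≤ q₁ := by omega
    have hq₂1 : 1 ≤ q₂ := by omega
    have hq₁lt : q₁ < q := by omega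
    have hq₂lt : q₂ < q := by omega
    have e : q * n = q₁ * n + q₂ * n := by
      rw [← add_mul]
      congr 1
      omega
    have i1 := ih q₁ hq₁lt hq₁1
    have i2 := ih q₂ hq₂lt hq₂1
    have hqn : 0 < q * n := by positivity
    have hq₁n : 0 < q₁ * n := by positivity
    have hq₂n : 0 < q₂ * n := by positivity
    have hc := C1_pos j
    -- the gaps
    have gap : ∀ p : ℕ, 0 < p → 3 * p ≤ 2 * q → (11 / 10) * ww (q * n) ≤ ww (p * n) := by
      intro p hp hpq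
      apply ww_gap (by positivity) hqn
      have : ((3 * p : ℕ) : ℝ) ≤ ((2 * q : ℕ) : ℝ) := by exact_mod_cast hpq
      push_cast at this ⊢
      have hn' : (0 : ℝ) ≤ n := Nat.cast_nonneg n
      nlinarith
    have g1 := gap q₁ (by omega) (by omega)
    have g2 := gap q₂ (by omega) (by omega)
    set y := rr j n - 10 * C1 j * ww n + 10 * C1 j * ((11 / 10) * ww (q * n)) with hy
    have y1 : y ≤ rr j (q₁ * n) := by
      have : 10 * C1 j * ((11 / 10) * ww (q * n)) ≤ 10 * C1 j * ww (q₁ * n) :=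
        mul_le_mul_of_nonneg_left g1 (by positivity)
      rw [hy]
      linarith
    have y2 : y ≤ rr j (q₂ * n) := by
      have : 10 * C1 j * ((11 / 10) * ww (q * n)) ≤ 10 * C1 j * ww (q₂ * n) :=
        mul_le_mul_of_nonneg_left g2 (by positivity)
      rw [hy]
      linarith
    have le1 : N₀ ≤ q₁ * n := hn.trans (Nat.le_mul_of_pos_left n (by omega))
    have le2 : N₀ ≤ q₂ * n := hn.trans (Nat.le_mul_of_pos_left n (by omega))
    have hb₁ : (q₁ * n + q₂ * n : ℕ) ≤ 3 * (q₁ * n) := by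
      rw [← e, ← mul_assoc]
      exact Nat.mul_le_mul_right n (by omega)
    have hb₂ : (q₁ * n + q₂ * n : ℕ) ≤ 3 * (q₂ * n) := by
      rw [← e, ← mul_assoc]
      exact Nat.mul_le_mul_right n (by omega)
    have h := rr_balanced h3 hN₀ le1 le2 hb₁ hb₂ y1 y2
    rw [← e] at h
    rw [hy] at h
    nlinarith

/-- Restriction in terms of densities. -/
lemma rr_restrict (hj : 2 ≤ j) {N₀ : ℕ} (h3 : 3 ≤ N₀) (hN₀ : ∀ N ≥ N₀,
    (∀ T : ℕ, 1 / 4 ≤ pn j N T → (T : ℝ) ≤ hat j N + 8 * (N * ww N)))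
    {N N' : ℕ} (hN : N₀ ≤ N) (hNN' : N ≤ N') :
    rr j N' - j * cap j * (((N' : ℝ) - N) / N') - (Real.sqrt (cap j * (N' : ℝ)) + 2) / N - 8 * ww N
      ≤ rr j N := by
  have hNpos : 0 < N := by omega
  have hN'pos : 0 < N' := by omega
  have hNr : (0 : ℝ) < N := by exact_mod_cast hNpos
  have hN'r : (0 : ℝ) < N' := by exact_mod_cast hN'pos
  have hle : (N : ℝ) ≤ N' := by exact_mod_cast hNN'
  have : NeZero N := ⟨hNpos.ne'⟩
  set x := hat j N' with hx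
  set θ := thn (j + 1) N N' with hθ
  have hθ0 : 0 ≤ θ := thn_nonneg _ _ _
  have hθ1 : θ ≤ 1 := thn_le_one _ hNN'
  set s := Real.sqrt (cap j * (N' : ℝ)) with hs
  have hs0 : 0 ≤ s := Real.sqrt_nonneg _
  have hs2 : s ^ 2 = cap j * (N' : ℝ) := Real.sq_sqrt (by positivity)
  set L := s + 1 with hL
  have hL0 : 0 < L := by linarith
  have hxcap : (x : ℝ) ≤ cap j * (N' : ℝ) := by
    exact_mod_cast hat_le_cap (j := j) (by omega : 3 ≤ N')
  have hxL : (x : ℝ) ≤ L ^ 2 := by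
    nlinarith
  set y := (x : ℝ) * θ - L with hy
  -- the count inequality
  have hcount : y - 1 - 8 * (N * ww N) ≤ hat j N := by
    by_cases hy0 : y < 0
    · have h1 : 0 ≤ (N : ℝ) * ww N := mul_nonneg hNr.le (ww_nonneg N)
      have h2 : (0 : ℝ) ≤ hat j N := Nat.cast_nonneg _
      linarith
    push Not at hy0
    set T := ⌊y⌋₊ with hT
    have hTle : (T : ℝ) ≤ y := Nat.floor_le hy0
    have hTgt : y < (T : ℝ) + 1 := Nat.lt_floor_add_one y
    have h1 := restrict_le (j := j) hNpos hNN' x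
    have h2 := bw_anti_le hθ0 hθ1 x T hL0 (by rw [hy] at hTle; linarith) (pn j N)
      (fun a b h => pn_anti hNpos h) (fun a => pn_nonneg a) (fun a => pn_le_one a)
    have h4 : (x : ℝ) * θ * (1 - θ) / L ^ 2 ≤ 1 / 4 := by
      rw [div_le_iff₀ (by positivity)]
      have h5 := mul_one_sub_le θ
      have h6 : (x : ℝ) * (θ * (1 - θ)) ≤ (x : ℝ) * (1 / 4) :=
        mul_le_mul_of_nonneg_left h5 (Nat.cast_nonneg x)
      linarith
    have h5 := hat_spec (j := j) (by omega : 3 ≤ N')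
    have h6 : 1 / 4 ≤ pn j N T := by
      linarith
    have h7 := hN₀ N hN T h6
    linarith
  -- to densities
  have hrrN' : (x : ℝ) = rr j N' * N' := by
    unfold rr
    field_simp
    rfl
  have hrrN : (hat j N : ℝ) = rr j N * N := by
    unfold rr
    field_simp
  have hfrac : (x : ℝ) * θ / N = rr j N' * ((N : ℝ) / N') ^ j := by
    rw [hrrN', hθ]
    unfold thn
    rw [pow_succ]
    field_simp
  have hbern : 1 - j * (((N' : ℝ) - N) / N') ≤ ((N : ℝ) / N') ^ j := by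
    have h1 : (-2 : ℝ) ≤ -(((N' : ℝ) - N) / N') := by
      have : ((N' : ℝ) - N) / N' ≤ 1 := by
        rw [div_le_one hN'r]
        linarith
      linarith
    have h2 := one_add_mul_le_pow h1 j
    have e : 1 + -(((N' : ℝ) - N) / N') = (N : ℝ) / N' := by
      field_simp
      ring
    rw [e] at h2
    linarith
  have hr0 := rr_nonneg j N'
  have hr1 : rr j N' ≤ cap j := rr_le_cap (by omega)
  have hfr0 : 0 ≤ ((N' : ℝ) - N) / N' := div_nonneg (by linarith) hN'r.le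
  have hj0 : (0 : ℝ) ≤ (j : ℝ) := Nat.cast_nonneg j
  have hmain : rr j N' - j * cap j * (((N' : ℝ) - N) / N') ≤ rr j N' * ((N : ℝ) / N') ^ j := by
    have h1 := mul_le_mul_of_nonneg_left hbern hr0
    have h2 : rr j N' * (j * (((N' : ℝ) - N) / N')) ≤ cap j * (j * (((N' : ℝ) - N) / N')) :=
      mul_le_mul_of_nonneg_right hr1 (by positivity)
    nlinarith
  have hdiv : y / N - 1 / N - 8 * ww N ≤ rr j N := by
    have h1 : (y - 1 - 8 * (N * ww N)) / N ≤ (hat j N : ℝ) / N :=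
      div_le_div_of_nonneg_right hcount hNr.le
    have e1 : (y - 1 - 8 * (N * ww N)) / N = y / N - 1 / N - 8 * ww N := by
      field_simp
    rw [e1] at h1
    exact h1
  have e2 : y / N = (x : ℝ) * θ / N - L / N := by
    rw [hy]
    ring
  rw [e2, hfrac] at hdiv
  have e3 : (s + 2) / (N : ℝ) = L / N + 1 / N := by
    rw [hL]
    field_simp
    ring
  rw [e3]
  linarith

end Vale.Agent.Lib.P170T
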