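import Mathlib

/-!
The numerical transfer between two sequences of probabilities.
-/

namespace Vale.Agent.Lib.P170T

open Filter Topology

/-- Abstract transfer of a limiting threshold from `p` to `q`. -/
theorem transfer_threshold {p q : ℕ → ℕ → ℝ} {π : ℕ → ℝ} {C α : ℝ} (hC : 0 ≤ C) (hα : 0 < α)
    (hπ0 : ∀ᶠ n : ℕ in atTop, 1 - C / n ≤ π n) (hπ1 : ∀ n, π n ≤ 1)
    (hq1 : ∀ᶠ n : ℕ in atTop, ∀ m, q n m ≤ 1) (hq0 : ∀ᶠ n : ℕ in atTop, ∀ m, 0 ≤ q n m)
    (hT1 : ∀ᶠ n : ℕ in atTop, ∀ m, π n ^ m * q n m ≤ p n m)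
    (hT2 : ∀ᶠ n : ℕ in atTop, ∀ x i : ℕ, (i : ℝ) < x * π n →
      p n x ≤ q n i + (x * π n) / (x * π n - i) ^ 2)
    (hlow : ∀ c : ℝ, 0 ≤ c → c < α → Tendsto (fun n : ℕ => p n ⌊c * n⌋₊) atTop (𝓝 1))
    (hup : ∀ c : ℝ, α < c → Tendsto (fun n : ℕ => p n ⌊c * n⌋₊) atTop (𝓝 0)) :
    (∀ c : ℝ, 0 ≤ c → c < α → Tendsto (fun n : ℕ => q n ⌊c * n⌋₊) atTop (𝓝 1)) ∧
    (∀ c : ℝ, α < c → Tendsto (fun n : ℕ => q n ⌊c * n⌋₊) atTop (𝓝 0)) := by
  have hN : Tendsto (fun n : ℕ => (n : ℝ)) atTop atTop := tendsto_natCast_atTop_atTop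
  constructor
  · intro c hc0 hcα
    set c' : ℝ := (c + α) / 2 with hc'
    have hcc' : c < c' := by rw [hc']; linarith
    have hc'α : c' < α := by rw [hc']; linarith
    have hc'0 : 0 ≤ c' := by linarith
    set δ : ℝ := c' - c with hδ
    have hδ0 : 0 < δ := by rw [hδ]; linarith
    have hP := hlow c' hc'0 hc'α
    -- lower bound on the gap
    have hlarge : ∀ᶠ n : ℕ in atTop, (C * c' + 1 + 1) * 4 ≤ δ * (n : ℝ) ∧ 1 ≤ (n : ℝ) ∧ C ≤ n :=
      ((tendsto_atTop.1 (hN.const_mul_atTop hδ0)) _).and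
        (((tendsto_atTop.1 hN) 1).and ((tendsto_atTop.1 hN) C))
    -- the error term tends to zero
    have herr : Tendsto (fun n : ℕ => (c' * n) / (δ * n / 2) ^ 2) atTop (𝓝 0) := by
      have e : ∀ᶠ n : ℕ in atTop, (c' * n) / (δ * n / 2) ^ 2 = (4 * c' / δ ^ 2) * (1 / (n : ℝ)) := by
        filter_upwards [(tendsto_atTop.1 hN) 1] with n hn
        have hn0 : (n : ℝ) ≠ 0 := by linarith
        field_simp
        ring
      have h2 : Tendsto (fun n : ℕ => (4 * c' / δ ^ 2) * (1 / (n : ℝ))) atTop (𝓝 ((4 * c' / δ ^ 2) * 0)) :=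
        (tendsto_one_div_atTop_nhds_zero_nat).const_mul _
      rw [mul_zero] at h2
      exact h2.congr' (e.mono (fun n h => h.symm))
    have hlo : ∀ᶠ n : ℕ in atTop,
        p n ⌊c' * n⌋₊ - (c' * n) / (δ * n / 2) ^ 2 ≤ q n ⌊c * n⌋₊ := by
      filter_upwards [hT2, hlarge, hπ0] with n h1 h2 h3
      obtain ⟨h2a, h2b, h2c⟩ := h2
      have hn0 : (0 : ℝ) < n := by linarith
      set x : ℕ := ⌊c' * n⌋₊ with hx
      set i : ℕ := ⌊c * n⌋₊ with hi
      have hxle : (x : ℝ) ≤ c' * n := Nat.floor_le (by positivity)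
      have hxge : c' * n - 1 ≤ (x : ℝ) := by
        have := Nat.lt_floor_add_one (c' * n)
        rw [← hx] at this
        linarith
      have hile : (i : ℝ) ≤ c * n := Nat.floor_le (by positivity)
      have hπle := hπ1 n
      have hC1 : C / n ≤ 1 := by
        rw [div_le_one hn0]
        exact h2c
      have hC0 : 0 ≤ C / n := by positivity
      have hπge : 0 ≤ π n := by linarith
      have hx0 : (0 : ℝ) ≤ x := Nat.cast_nonneg x
      -- x * π ≥ x - x * C / n ≥ x - c' C
      have hxπ : (x : ℝ) - c' * C ≤ x * π n := by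
        have h4 : (x : ℝ) * (1 - C / n) ≤ x * π n := mul_le_mul_of_nonneg_left h3 hx0
        have h5 : (x : ℝ) * (C / n) ≤ c' * C := by
          have h6 : (x : ℝ) * (C / n) ≤ (c' * n) * (C / n) :=
            mul_le_mul_of_nonneg_right hxle hC0
          have h7 : (c' * n) * (C / n) = c' * C := by
            field_simp
          linarith
        nlinarith
      have hgap : δ * n / 2 ≤ x * π n - i := by
        have hd : δ * n = c' * n - c * n := by rw [hδ]; ring
        nlinarith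
      have hgap0 : 0 < δ * n / 2 := by positivity
      have hi2 : (i : ℝ) < x * π n := by linarith
      have h6 := h1 x i hi2
      have h7 : (x * π n) / (x * π n - i) ^ 2 ≤ (c' * n) / (δ * n / 2) ^ 2 := by
        apply div_le_div₀ (by positivity) _ (by positivity)
        · exact pow_le_pow_left₀ hgap0.le hgap 2
        · calc (x : ℝ) * π n ≤ x * 1 := mul_le_mul_of_nonneg_left hπle hx0
            _ ≤ c' * n := by linarith
      linarith
    have hlim : Tendsto (fun n : ℕ => p n ⌊c' * n⌋₊ - (c' * n) / (δ * n / 2) ^ 2) atTop (𝓝 (1 - 0)) :=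
      hP.sub herr
    rw [sub_zero] at hlim
    refine tendsto_of_tendsto_of_tendsto_of_le_of_le' hlim tendsto_const_nhds hlo ?_
    filter_upwards [hq1] with n h
    exact h _
  · intro c hc
    have hc0 : 0 < c := by linarith
    have hP := hup c hc
    -- lower bound on powers of π
    set K : ℝ := Real.exp (-(2 * C * c)) with hK
    have hKpos : 0 < K := Real.exp_pos _
    have hpow : ∀ᶠ n : ℕ in atTop, K ≤ π n ^ ⌊c * n⌋₊ := by
      have hlarge : ∀ᶠ n : ℕ in atTop, 2 * C + 1 ≤ (n : ℝ) := (tendsto_atTop.1 hN) _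
      filter_upwards [hlarge, hπ0] with n h1 h2
      have hn0 : (0 : ℝ) < n := by linarith
      set t : ℝ := C / n with ht
      have ht0 : 0 ≤ t := by positivity
      have ht1 : t ≤ 1 / 2 := by
        rw [ht, div_le_iff₀ hn0]
        linarith
      have h3 : Real.exp (-(2 * t)) ≤ 1 - t := by
        -- convexity: exp(-2t) <= 1 - t on [0, 1/2]
        have h4 : Real.exp (-(2 * t)) ≤ 1 / (1 + 2 * t) := by
          have h5 := Real.add_one_le_exp (2 * t)
          rw [Real.exp_neg, ← one_div]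
          apply div_le_div_of_nonneg_left (by norm_num) (by linarith) (by linarith)
        have h6 : 1 / (1 + 2 * t) ≤ 1 - t := by
          rw [div_le_iff₀ (by linarith)]
          nlinarith
        linarith
      have h7 : Real.exp (-(2 * t)) ≤ π n := by linarith
      have hfloor : ((⌊c * n⌋₊ : ℕ) : ℝ) ≤ c * n := Nat.floor_le (by positivity)
      calc K = Real.exp (-(2 * t) * (c * n)) := by
            rw [hK, ht]
            congr 1
            field_simp
        _ ≤ Real.exp (-(2 * t) * (⌊c * n⌋₊ : ℝ)) := by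
            apply Real.exp_le_exp.mpr
            nlinarith
        _ = Real.exp (-(2 * t)) ^ ⌊c * n⌋₊ := by
            rw [← Real.exp_nat_mul]
            congr 1
            ring
        _ ≤ π n ^ ⌊c * n⌋₊ := pow_le_pow_left₀ (Real.exp_pos _).le h7 _
    have hup2 : ∀ᶠ n : ℕ in atTop, q n ⌊c * n⌋₊ ≤ p n ⌊c * n⌋₊ / K := by
      filter_upwards [hpow, hT1, hq0] with n h1 h2 h3
      rw [le_div_iff₀ hKpos]
      have h4 := h2 ⌊c * n⌋₊
      have h5 := h3 ⌊c * n⌋₊
      have h6 : q n ⌊c * n⌋₊ * K ≤ π n ^ ⌊c * n⌋₊ * q n ⌊c * n⌋₊ := by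
        rw [mul_comm]
        exact mul_le_mul_of_nonneg_right h1 h5
      linarith
    have hlim : Tendsto (fun n : ℕ => p n ⌊c * n⌋₊ / K) atTop (𝓝 (0 / K)) := hP.div_const K
    rw [zero_div] at hlim
    refine tendsto_of_tendsto_of_tendsto_of_le_of_le' tendsto_const_nhds hlim ?_ hup2
    filter_upwards [hq0] with n h
    exact h _

end Vale.Agent.Lib.P170T
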