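import Vale.Agent.Lib.P170T.Model
import Vale.Agent.Lib.P170.Mix

/-!
Transfer between the iid-literal model and the proper clause model.
-/

namespace Vale.Agent.Lib.P170T

open Finset Vale.Agent.Lib.P170

set_option linter.unusedSectionVars false
set_option linter.unusedVariables false

open scoped Classical

/-- A tuple of literals on pairwise distinct variables. -/
def IsProperW {k n : ℕ} (C : WClause k n) : Prop := Function.Injective (fun i => (C i).1)

lemma IsProperW.injective {k n : ℕ} {C : WClause k n} (h : IsProperW C) : Function.Injective C :=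
  fun a b hab => h (by simp only [hab])

/-- Forgetting the order of a proper tuple. -/
noncomputable def toClause {k n : ℕ} (C : {C : WClause k n // IsProperW C}) : Clause k n :=
  ⟨Finset.univ.image C.1, by
    refine ⟨?_, ?_⟩
    · rw [Finset.card_image_of_injective _ C.2.injective]
      simp
    · intro x hx y hy hxy
      simp only [Finset.coe_image, Finset.coe_univ, Set.image_univ, Set.mem_range] at hx hy
      obtain ⟨i, rfl⟩ := hx
      obtain ⟨j, rfl⟩ := hy
      rw [C.2 hxy]⟩

lemma toClause_val {k n : ℕ} (C : {C : WClause k n // IsProperW C}) :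
    (toClause C).1 = Finset.univ.image C.1 := rfl

lemma solW_eq_sol {k n : ℕ} (C : {C : WClause k n // IsProperW C}) :
    solW C.1 = sol (toClause C) := by
  ext σ
  rw [mem_solW, mem_sol]
  constructor
  · rintro ⟨i, hi⟩
    exact ⟨C.1 i, Finset.mem_image_of_mem _ (Finset.mem_univ _), hi⟩
  · rintro ⟨l, hl, hl2⟩
    obtain ⟨i, -, rfl⟩ := Finset.mem_image.mp hl
    exact ⟨i, hl2⟩

/-- Each proper clause has exactly `k!` orderings. -/
lemma card_fiber_toClause {k n : ℕ} (L : Clause k n) :
    Fintype.card {C : {C : WClause k n // IsProperW C} // toClause C = L} = k.factorial := by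
  have hL : Fintype.card {x // x ∈ L.1} = k := by
    rw [Fintype.card_coe]; exact L.2.1
  have e : {C : {C : WClause k n // IsProperW C} // toClause C = L} ≃
      (Fin k ↪ {x // x ∈ L.1}) := by
    refine
      { toFun := fun C => ⟨fun i => ⟨C.1.1 i, ?_⟩, ?_⟩
        invFun := fun e => ⟨⟨fun i => (e i).1, ?_⟩, ?_⟩
        left_inv := ?_
        right_inv := ?_ }
    · have h1 : C.1.1 i ∈ (toClause C.1).1 := Finset.mem_image_of_mem _ (Finset.mem_univ _)
      have h2 : (toClause C.1).1 = L.1 := congrArg Subtype.val C.2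
      rw [h2] at h1
      exact h1
    · intro a b hab
      apply C.1.2.injective
      simpa using hab
    · intro a b hab
      have h1 : ((e a).1).1 = ((e b).1).1 := hab
      have h2 := L.2.2 (Finset.mem_coe.mpr (e a).2) (Finset.mem_coe.mpr (e b).2) h1
      exact e.injective (Subtype.ext h2)
    · apply Subtype.ext
      rw [toClause_val]
      have hcard : (Finset.univ.image (fun i => (e i).1) : Finset (Fin n × Bool)).card = k := by
        rw [Finset.card_image_of_injective]
        · simp
        · intro a b hab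
          exact e.injective (Subtype.ext hab)
      apply Finset.eq_of_subset_of_card_le
      · intro x hx
        obtain ⟨i, -, rfl⟩ := Finset.mem_image.mp hx
        exact (e i).2
      · exact le_of_eq (L.2.1.trans hcard.symm)
    · intro C
      rfl
    · intro e
      rfl
  rw [Fintype.card_congr e, Fintype.card_embedding_eq, hL]
  simp [Nat.descFactorial_self]

/-- Summing a function of the clause over all orderings. -/
lemma sum_proper_eq {k n : ℕ} (h : Clause k n → ℝ) :
    ∑ C : {C : WClause k n // IsProperW C}, h (toClause C)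
      = (k.factorial : ℝ) * ∑ L : Clause k n, h L := by
  rw [← Finset.sum_fiberwise (Finset.univ) toClause, Finset.mul_sum]
  refine Finset.sum_congr rfl (fun L _ => ?_)
  have h1 : ∑ C ∈ Finset.univ.filter (fun C => toClause C = L), h (toClause C)
      = ∑ C ∈ Finset.univ.filter (fun C : {C : WClause k n // IsProperW C} => toClause C = L), h L :=
    Finset.sum_congr rfl (fun C hC => by rw [(Finset.mem_filter.mp hC).2])
  rw [h1, Finset.sum_const, nsmul_eq_mul]
  congr 1
  rw [← card_fiber_toClause L, Fintype.card_subtype]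

/-- The probability that `k` iid literals are on distinct variables. -/
noncomputable def piW (k n : ℕ) : ℝ := ((k.factorial : ℝ) * (NC k n : ℝ)) / (2 * (n : ℝ)) ^ k

lemma piW_eq (k n : ℕ) : piW k n = (n.descFactorial k : ℝ) / (n : ℝ) ^ k := by
  unfold piW
  rw [NC_eq, Nat.descFactorial_eq_factorial_mul_choose]
  push_cast
  rw [mul_pow]
  have : (2 : ℝ) ^ k ≠ 0 := by positivity
  by_cases hn : (n : ℝ) ^ k = 0
  · simp [hn]
  · field_simp

lemma piW_nonneg (k n : ℕ) : 0 ≤ piW k n := by
  unfold piW; positivity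

lemma piW_pos {k n : ℕ} (h : k ≤ n) (hn : 0 < n) : 0 < piW k n := by
  rw [piW_eq]
  have h1 : 0 < n.descFactorial k := Nat.descFactorial_pos.mpr h
  have h2 : (0 : ℝ) < n := by exact_mod_cast hn
  positivity

lemma piW_le_one (k n : ℕ) (hn : 0 < n) : piW k n ≤ 1 := by
  rw [piW_eq]
  have h2 : (0 : ℝ) < n := by exact_mod_cast hn
  rw [div_le_one (by positivity)]
  exact_mod_cast Nat.descFactorial_le_pow n k

/-- A lower bound: `1 - k^2/n ≤ π`. -/
lemma one_sub_le_piW {k n : ℕ} (hk : k ≤ n) (hn : 0 < n) :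
    1 - (k : ℝ) ^ 2 / n ≤ piW k n := by
  rw [piW_eq]
  have h2 : (0 : ℝ) < n := by exact_mod_cast hn
  rw [le_div_iff₀ (by positivity)]
  have h3 : (n + 1 - k) ^ k ≤ n.descFactorial k := Nat.pow_sub_le_descFactorial n k
  have h4 : ((n + 1 - k : ℕ) : ℝ) ^ k ≤ (n.descFactorial k : ℝ) := by exact_mod_cast h3
  refine le_trans ?_ h4
  have h5 : ((n + 1 - k : ℕ) : ℝ) = (n : ℝ) + 1 - k := by
    rw [Nat.cast_sub (by omega)]; push_cast; ring
  rw [h5]
  -- Bernoulli
  have hb : (1 : ℝ) + (k : ℝ) * (-((k : ℝ)) / n) ≤ (1 + (-((k : ℝ)) / n)) ^ k := by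
    apply one_add_mul_le_pow
    have hkn : (k : ℝ) / n ≤ 1 := by
      rw [div_le_one h2]; exact_mod_cast hk
    have : -(k : ℝ) / n = -((k : ℝ) / n) := by ring
    rw [this]
    linarith
  have hpow : (1 + (-((k : ℝ)) / n)) ^ k * (n : ℝ) ^ k = ((n : ℝ) - k) ^ k := by
    rw [← mul_pow]
    congr 1
    field_simp
    ring
  have hmono : ((n : ℝ) - k) ^ k ≤ ((n : ℝ) + 1 - k) ^ k := by
    apply pow_le_pow_left₀
    · have : (k : ℝ) ≤ n := by exact_mod_cast hk
      linarith
    · linarith
  refine le_trans ?_ hmono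
  rw [← hpow]
  have e : (1 - (k : ℝ) ^ 2 / n) = 1 + (k : ℝ) * (-((k : ℝ)) / n) := by
    field_simp
    ring
  rw [e]
  exact mul_le_mul_of_nonneg_right hb (by positivity)

section decomposition

variable {k n : ℕ}

/-- The sum over proper tuples in terms of proper clauses. -/
lemma sum_filter_proper (f : Fn (Fin n → Bool)) (S : Finset (Fin n → Bool)) :
    ∑ C ∈ Finset.univ.filter (fun C : WClause k n => IsProperW C), f (S ∩ solW C)
      = (k.factorial : ℝ) * ∑ L : Clause k n, f (S ∩ sol L) := by
  have h1 : ∑ C ∈ Finset.univ.filter (fun C : WClause k n => IsProperW C), f (S ∩ solW C)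
      = ∑ C : {C : WClause k n // IsProperW C}, f (S ∩ solW C.1) := by
    rw [← Finset.sum_subtype_eq_sum_filter]
    simp only [Finset.subtype_univ]
  rw [h1, ← sum_proper_eq (fun L => f (S ∩ sol L))]
  refine Finset.sum_congr rfl (fun C _ => ?_)
  rw [solW_eq_sol]

/-- The improper part of the average. -/
noncomputable def impW (k n : ℕ) (f : Fn (Fin n → Bool)) (S : Finset (Fin n → Bool)) : ℝ :=
  (∑ C ∈ Finset.univ.filter (fun C : WClause k n => ¬ IsProperW C), f (S ∩ solW C)) /
    (2 * (n : ℝ)) ^ k

/-- The split of `TW` into the proper and the improper part. -/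
lemma TW_split (hn : 0 < n) (hkn : k ≤ n) (f : Fn (Fin n → Bool)) (S : Finset (Fin n → Bool)) :
    TW k n f S = piW k n * Avg (sol : Clause k n → _) f S + impW k n f S := by
  have hnc : (NC k n : ℝ) ≠ 0 := by exact_mod_cast (NC_pos hkn).ne'
  have hn' : (2 * (n : ℝ)) ^ k ≠ 0 := by
    have : (0 : ℝ) < n := by exact_mod_cast hn
    positivity
  unfold TW TT impW
  rw [Avg_apply, Avg_apply, card_WClause]
  rw [← Finset.sum_filter_add_sum_filter_not Finset.univ (fun C : WClause k n => IsProperW C),
    add_div]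
  congr 1
  rw [sum_filter_proper]
  unfold piW
  have : (Fintype.card (Clause k n) : ℝ) = (NC k n : ℝ) := rfl
  rw [this]
  field_simp

lemma impW_nonneg {f : Fn (Fin n → Bool)} (hf : ∀ S, 0 ≤ f S) (S : Finset (Fin n → Bool)) :
    0 ≤ impW k n f S := by
  unfold impW
  exact div_nonneg (Finset.sum_nonneg (fun C _ => hf _)) (by positivity)

/-- The mass of the improper part. -/
lemma impW_const (hn : 0 < n) (hkn : k ≤ n) (c : ℝ) (S : Finset (Fin n → Bool)) :
    impW k n (fun _ => c) S = (1 - piW k n) * c := by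
  have hne : Nonempty (WClause k n) := nonempty_WClause hn
  have hne2 := nonempty_clause hkn
  have hc := Avg_const (solW : WClause k n → _) c
  have h1 := TW_split hn hkn (fun _ => c) S
  have h2 : TW k n (fun _ => c) S = c := by
    unfold TW TT
    rw [hc]
  rw [h2, Avg_const] at h1
  linarith

/-- On monotone functions the improper part does at most nothing. -/
lemma impW_le (hn : 0 < n) (hkn : k ≤ n) {f : Fn (Fin n → Bool)} (hf : MonoFn f)
    (S : Finset (Fin n → Bool)) : impW k n f S ≤ (1 - piW k n) * f S := by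
  rw [← impW_const hn hkn (f S) S]
  unfold impW
  apply div_le_div_of_nonneg_right _ (by positivity)
  exact Finset.sum_le_sum (fun C _ => hf _ _ Finset.inter_subset_left)

/-- `T_W ≥ π T_P` on nonnegative functions. -/
lemma piW_mul_Avg_le (hn : 0 < n) (hkn : k ≤ n) {f : Fn (Fin n → Bool)} (hf : ∀ S, 0 ≤ f S)
    (S : Finset (Fin n → Bool)) :
    piW k n * Avg (sol : Clause k n → _) f S ≤ TW k n f S := by
  rw [TW_split hn hkn]
  linarith [impW_nonneg (k := k) hf S]

/-- `T_W ≤ π T_P + (1 - π) I` on monotone functions. -/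
lemma TW_le_Lazy1 [Nonempty (Clause k n)] (hn : 0 < n) (hkn : k ≤ n) {f : Fn (Fin n → Bool)}
    (hf : MonoFn f)
    (S : Finset (Fin n → Bool)) :
    TW k n f S ≤ Lazy1 (sol : Clause k n → _) (piW k n) f S := by
  rw [TW_split hn hkn, Lazy1_apply]
  linarith [impW_le (k := k) hn hkn hf S]

end decomposition

section main

variable {k n : ℕ}

/-- Powers of `T_W` applied to `g0` are monotone. -/
lemma TW_pow_g0_mono (hn : 0 < n) (m : ℕ) : MonoFn (((TW k n) ^ m) (g0 : Fn (Fin n → Bool))) := by
  have := nonempty_WClause (j := k) hn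
  exact T_pow_mono _ m

/-- Lower bound on the iid model at the level of functions. -/
lemma pow_le_TW_pow (hn : 0 < n) (hkn : k ≤ n) (m : ℕ) (S : Finset (Fin n → Bool)) :
    piW k n ^ m * ((Avg (sol : Clause k n → _)) ^ m) (g0 : Fn (Fin n → Bool)) S
      ≤ ((TW k n) ^ m) (g0 : Fn (Fin n → Bool)) S := by
  have := nonempty_clause hkn
  have := nonempty_WClause (j := k) hn
  induction m generalizing S with
  | zero => simp
  | succ m ih =>
    rw [pow_succ' (Avg _), pow_succ' (TW k n)]
    show _ * Avg _ (((Avg _) ^ m) g0) S ≤ TW k n (((TW k n) ^ m) g0) S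
    have h1 : (0 : ℝ) ≤ piW k n := piW_nonneg k n
    have hnn : ∀ S, 0 ≤ ((Avg (sol : Clause k n → _)) ^ m) (g0 : Fn (Fin n → Bool)) S :=
      fun S => (T_pow_unit _ m S).1
    -- first step
    have h2 := piW_mul_Avg_le hn hkn hnn S
    -- monotonicity of `TW`
    have h3 : (piW k n ^ m • ((Avg (sol : Clause k n → _)) ^ m) (g0 : Fn (Fin n → Bool)))
        ≤ ((TW k n) ^ m) (g0 : Fn (Fin n → Bool)) := by
      intro S
      simpa using ih S
    have h4 := Avg_orderPres (solW : WClause k n → _) _ _ h3 S
    have h5 : Avg (solW : WClause k n → _) (piW k n ^ m • ((Avg (sol : Clause k n → _)) ^ m) g0) S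
        = piW k n ^ m * TW k n (((Avg (sol : Clause k n → _)) ^ m) (g0 : Fn (Fin n → Bool))) S := by
      rw [map_smul]
      rfl
    rw [h5] at h4
    have h6 := mul_le_mul_of_nonneg_left h2 (pow_nonneg h1 m)
    calc piW k n ^ (m + 1) * Avg (sol : Clause k n → _) (((Avg (sol : Clause k n → _)) ^ m) g0) S
        = piW k n ^ m * (piW k n * Avg (sol : Clause k n → _) (((Avg (sol : Clause k n → _)) ^ m) g0) S) := by
          ring
      _ ≤ _ := h6
      _ ≤ _ := h4

/-- **Transfer, first direction**: `π^m P_sat(m) ≤ p_W(m)`. -/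
theorem piW_pow_mul_satProb_le (hn : 0 < n) (hkn : k ≤ n) (m : ℕ) :
    piW k n ^ m * satProb k n m ≤ pW k n m := by
  rw [satProb_eq k n m hkn]
  exact pow_le_TW_pow hn hkn m _

/-- Upper bound of the iid model by the lazy proper model at the level of functions. -/
lemma TW_pow_le_Lazy [Nonempty (Clause k n)] (hn : 0 < n) (hkn : k ≤ n) (m : ℕ)
    (S : Finset (Fin n → Bool)) :
    ((TW k n) ^ m) (g0 : Fn (Fin n → Bool)) S
      ≤ ((Lazy1 (sol : Clause k n → _) (piW k n)) ^ m) (g0 : Fn (Fin n → Bool)) S := by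
  induction m generalizing S with
  | zero => simp
  | succ m ih =>
    rw [pow_succ' (TW k n), pow_succ' (Lazy1 _ _)]
    show TW k n (((TW k n) ^ m) g0) S ≤ Lazy1 _ _ (((Lazy1 _ _) ^ m) g0) S
    have h1 := TW_le_Lazy1 hn hkn (TW_pow_g0_mono (k := k) hn m) S
    have h2 := Lazy1_orderPres (sol : Clause k n → _) (piW_nonneg k n) (piW_le_one k n hn) _ _
      (fun S => ih S) S
    exact h1.trans h2

/-- **Transfer, second direction**: `p_W(N) ≤ P_sat(m) + Nπ/(Nπ - m)²` when `m < Nπ`. -/
theorem pW_le_satProb_add (hn : 0 < n) (hkn : k ≤ n) {m N : ℕ}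
    (hm : (m : ℝ) < N * piW k n) :
    pW k n N ≤ satProb k n m + (N * piW k n) / (N * piW k n - m) ^ 2 := by
  have := nonempty_clause hkn
  rw [satProb_eq k n m hkn]
  exact (TW_pow_le_Lazy hn hkn N _).trans
    (lazy1_le (sol : Clause k n → _) (piW_nonneg k n) (piW_le_one k n hn) hm _)

end main

end Vale.Agent.Lib.P170T
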