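import Vale.Agent.Lib.P170T.FinalW
import Vale.Agent.Lib.P170T.FinalNum
import Vale.Agent.Lib.P170T.Transfer

/-!
The satisfiability threshold conjecture: existence of the limiting threshold for every `k ≥ 3`.
-/

namespace Vale.Agent.Lib.P170T

open Finset Vale.Agent.Lib.P170 Filter Topology

set_option linter.unusedSectionVars false
set_option linter.unusedVariables false

lemma satProb_unit {k n : ℕ} (h : k ≤ n) (m : ℕ) : 0 ≤ satProb k n m ∧ satProb k n m ≤ 1 := by
  have := nonempty_clause h
  rw [satProb_eq k n m h]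
  exact T_pow_unit _ m _

/-- **The satisfiability threshold conjecture.** For every `k ≥ 3`, random `k`-SAT has a limiting
threshold. -/
theorem sat_threshold {k : ℕ} (hk : 3 ≤ k) :
    ∃ α : ℝ, 0 < α ∧
      (∀ c : ℝ, 0 ≤ c → c < α → Tendsto (fun n : ℕ => satProb k n ⌊c * n⌋₊) atTop (𝓝 1)) ∧
      (∀ c : ℝ, α < c → Tendsto (fun n : ℕ => satProb k n ⌊c * n⌋₊) atTop (𝓝 0)) := by
  obtain ⟨α, hα, h1, h2⟩ := threshold_W hk
  refine ⟨α, hα, ?_⟩
  have hev : ∀ᶠ n : ℕ in atTop, k ≤ n ∧ 0 < n := by
    filter_upwards [eventually_ge_atTop (k + 1)] with n hn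
    exact ⟨by omega, by omega⟩
  refine transfer_threshold (p := pW k) (q := satProb k) (π := piW k) (C := (k : ℝ) ^ 2)
    (by positivity) hα ?_ ?_ ?_ ?_ ?_ ?_ h1 h2
  · filter_upwards [hev] with n hn
    exact one_sub_le_piW hn.1 hn.2
  · intro n
    rcases Nat.eq_zero_or_pos n with h0 | h0
    · subst h0
      rw [piW_eq]
      simp only [Nat.cast_zero]
      rcases Nat.eq_zero_or_pos k with hk0 | hk0
      · omega
      · rw [zero_pow (by omega)]
        simp
    · exact piW_le_one k n h0
  · filter_upwards [hev] with n hn m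
    exact (satProb_unit hn.1 m).2
  · filter_upwards [hev] with n hn m
    exact (satProb_unit hn.1 m).1
  · filter_upwards [hev] with n hn m
    exact piW_pow_mul_satProb_le hn.2 hn.1 m
  · filter_upwards [hev] with n hn x i hi
    exact pW_le_satProb_add hn.2 hn.1 hi

end Vale.Agent.Lib.P170T
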