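import Vale.Agent.Lib.P170T.Model

/-!
Basic facts on `pW`: values in `[0,1]`, antitone, first moment bound.
-/

namespace Vale.Agent.Lib.P170T

open Finset Vale.Agent.Lib.P170

set_option linter.unusedSectionVars false
set_option linter.unusedVariables false

section basic

variable {k n : ℕ}

lemma pW_nonneg (hn : 0 < n) (m : ℕ) : 0 ≤ pW k n m := by
  have i₀ := nonempty_WClause (j := k) hn
  exact (T_pow_unit (solW : WClause k n → _) m Finset.univ).1

lemma pW_le_one (hn : 0 < n) (m : ℕ) : pW k n m ≤ 1 := by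
  have i₀ := nonempty_WClause (j := k) hn
  exact (T_pow_unit (solW : WClause k n → _) m Finset.univ).2

lemma pW_anti (hn : 0 < n) {a b : ℕ} (hab : a ≤ b) : pW k n b ≤ pW k n a := by
  have i₀ := nonempty_WClause (j := k) hn
  exact T_pow_anti (solW : WClause k n → _) hab Finset.univ

lemma falseLits_singleton_card' (σ : Fin n → Bool) : (falseLits {σ}).card = n :=
  falseLits_singleton_card σ

open Classical in
/-- Number of clauses satisfied by a given assignment. -/
lemma sum_mem_solW (hn : 0 < n) (σ : Fin n → Bool) :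
    (∑ C : WClause k n, (if σ ∈ solW C then (1 : ℝ) else 0))
      = (2 * (n : ℝ)) ^ k * (1 - 1 / 2 ^ k) := by
  have hn' : (0 : ℝ) < n := by exact_mod_cast hn
  have h5 : ∀ C : WClause k n, (if σ ∈ solW C then (1 : ℝ) else 0)
      = 1 - (if ({σ} : Finset (Fin n → Bool)) ∩ solW C = ∅ then 1 else 0) := by
    intro C
    by_cases hC : ({σ} : Finset (Fin n → Bool)) ∩ solW C = ∅
    · have h8 : σ ∉ solW C := by
        intro h9
        have : σ ∈ ({σ} : Finset (Fin n → Bool)) ∩ solW C :=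
          Finset.mem_inter.mpr ⟨Finset.mem_singleton_self σ, h9⟩
        rw [hC] at this
        simp at this
      rw [if_neg h8, if_pos hC]
      norm_num
    · have h8 : σ ∈ solW C := by
        by_contra h9
        apply hC
        rw [Finset.eq_empty_iff_forall_notMem]
        intro x hx
        rw [Finset.mem_inter, Finset.mem_singleton] at hx
        rw [hx.1] at hx
        exact h9 hx.2
      rw [if_pos h8, if_neg hC]
      norm_num
  simp only [h5]
  rw [Finset.sum_sub_distrib, Finset.sum_boole, card_killW, falseLits_singleton_card]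
  simp only [Finset.sum_const, Finset.card_univ, nsmul_eq_mul, mul_one]
  rw [card_WClause]
  push_cast
  rw [mul_pow]
  field_simp

/-- The first moment bound, general start. -/
lemma first_momentW_aux (hn : 0 < n) (m : ℕ) (S : Finset (Fin n → Bool)) :
    ((TW k n) ^ m) (g0 : Fn (Fin n → Bool)) S ≤ (S.card : ℝ) * (1 - 1 / 2 ^ k) ^ m := by
  classical
  have hn' : (0 : ℝ) < n := by exact_mod_cast hn
  induction m generalizing S with
  | zero =>
    simp only [pow_zero, Module.End.one_apply, mul_one]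
    unfold g0
    by_cases h : S.Nonempty
    · rw [if_pos h]
      exact_mod_cast Finset.card_pos.mpr h
    · rw [if_neg h]
      positivity
  | succ m ih =>
    have hrho0 : (0 : ℝ) ≤ 1 - 1 / 2 ^ k := by
      have : (1 : ℝ) / 2 ^ k ≤ 1 := by
        rw [div_le_one (by positivity)]
        exact one_le_pow₀ (by norm_num)
      linarith
    rw [pow_succ']
    show TW k n (((TW k n) ^ m) g0) S ≤ _
    unfold TW TT
    rw [Avg_apply, card_WClause]
    have hN : (0 : ℝ) < (2 * (n : ℝ)) ^ k := by positivity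
    rw [div_le_iff₀ hN]
    have h1 : ∀ C : WClause k n,
        ((Avg (solW : WClause k n → _)) ^ m) (g0 : Fn (Fin n → Bool)) (S ∩ solW C)
        ≤ ((S ∩ solW C).card : ℝ) * (1 - 1 / 2 ^ k) ^ m := fun C => ih _
    refine le_trans (Finset.sum_le_sum (fun C _ => h1 C)) ?_
    rw [← Finset.sum_mul]
    have h2 : (∑ C : WClause k n, ((S ∩ solW C).card : ℝ))
        = (S.card : ℝ) * ((2 * (n : ℝ)) ^ k * (1 - 1 / 2 ^ k)) := by
      have h3 : ∀ C : WClause k n, ((S ∩ solW C).card : ℝ) =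
          ∑ σ ∈ S, (if σ ∈ solW C then (1 : ℝ) else 0) := by
        intro C
        rw [Finset.sum_boole]
        congr 2
      simp only [h3]
      rw [Finset.sum_comm]
      rw [Finset.sum_congr rfl (fun σ _ => sum_mem_solW (k := k) hn σ)]
      simp only [Finset.sum_const, nsmul_eq_mul]
    rw [h2, pow_succ]
    apply le_of_eq
    ring

/-- The first moment bound. -/
theorem first_momentW (hn : 0 < n) (m : ℕ) :
    pW k n m ≤ (2 : ℝ) ^ n * (1 - 1 / 2 ^ k) ^ m := by
  have := first_momentW_aux (k := k) hn m Finset.univ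
  simpa [Finset.card_univ, pW] using this

/-- The upper bound on the threshold. -/
theorem upperW (k : ℕ) (hk : 1 ≤ k) :
    ∃ D : ℝ, 0 < D ∧ ∀ n : ℕ, 1 ≤ n → pW k n ⌈D * (n : ℝ)⌉₊ < 1 / 2 := by
  have hr0 : (0 : ℝ) ≤ 1 - 1 / 2 ^ k := by
    have : (1 : ℝ) / 2 ^ k ≤ 1 := by
      rw [div_le_one (by positivity)]
      exact one_le_pow₀ (by norm_num)
    linarith
  have hr1 : (1 : ℝ) - 1 / 2 ^ k < 1 := by
    have : (0 : ℝ) < 1 / 2 ^ k := by positivity
    linarith
  obtain ⟨j, hj⟩ := exists_pow_lt_of_lt_one (by norm_num : (0 : ℝ) < 1 / 8) hr1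
  refine ⟨(j : ℝ) + 1, by positivity, ?_⟩
  intro n hn
  have h1 := first_momentW (k := k) (n := n) (by omega) ⌈((j : ℝ) + 1) * (n : ℝ)⌉₊
  refine lt_of_le_of_lt h1 ?_
  have hle : j * n ≤ ⌈((j : ℝ) + 1) * (n : ℝ)⌉₊ := by
    have h2 : (j : ℝ) * n ≤ ((j : ℝ) + 1) * (n : ℝ) := by nlinarith [(Nat.cast_nonneg n : (0 : ℝ) ≤ n)]
    have h3 := Nat.le_ceil (((j : ℝ) + 1) * (n : ℝ))
    have h4 : ((j * n : ℕ) : ℝ) ≤ (⌈((j : ℝ) + 1) * (n : ℝ)⌉₊ : ℝ) := by
      push_cast
      linarith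
    exact_mod_cast h4
  have h5 : (1 - 1 / 2 ^ k : ℝ) ^ ⌈((j : ℝ) + 1) * (n : ℝ)⌉₊ ≤ (1 - 1 / 2 ^ k : ℝ) ^ (j * n) :=
    pow_le_pow_of_le_one hr0 hr1.le hle
  have h6 : (1 - 1 / 2 ^ k : ℝ) ^ (j * n) ≤ (1 / 8 : ℝ) ^ n := by
    rw [pow_mul]
    exact pow_le_pow_left₀ (by positivity) hj.le n
  have h7 : (2 : ℝ) ^ n * (1 / 8 : ℝ) ^ n = (1 / 4 : ℝ) ^ n := by
    rw [← mul_pow]
    norm_num
  have h8 : (1 / 4 : ℝ) ^ n ≤ 1 / 4 := by
    calc (1 / 4 : ℝ) ^ n ≤ (1 / 4 : ℝ) ^ 1 :=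
          pow_le_pow_of_le_one (by norm_num) (by norm_num) hn
      _ = 1 / 4 := by norm_num
  have h9 : (2 : ℝ) ^ n * (1 - 1 / 2 ^ k : ℝ) ^ ⌈((j : ℝ) + 1) * (n : ℝ)⌉₊ ≤ (2 : ℝ) ^ n * (1 / 8 : ℝ) ^ n :=
    mul_le_mul_of_nonneg_left (h5.trans h6) (by positivity)
  linarith

end basic

end Vale.Agent.Lib.P170T
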