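import Vale.Agent.Lib.P170T.LimitBin

namespace Vale.Agent.Lib.P170T

open Filter Topology Finset

/-- The abstract input of the limit argument: `p n m` is the satisfiability probability of `m`
clauses on `n` variables (in any clause model). -/
structure LimitHyp (k : ℕ) (p : ℕ → ℕ → ℝ) : Prop where
  one_le_k : 1 ≤ k
  nonneg : ∀ n m, 1 ≤ n → 0 ≤ p n m
  le_one : ∀ n m, 1 ≤ n → p n m ≤ 1
  zero : ∀ n, 1 ≤ n → p n 0 = 1
  anti : ∀ n m, 1 ≤ n → p n (m + 1) ≤ p n m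
  window : ∀ D : ℝ, 0 < D → ∃ K : ℝ, 0 < K ∧ ∃ n₀ : ℕ, ∀ n, n₀ ≤ n → ∀ m M R : ℕ,
    (m : ℝ) + M ≤ D * n → M ≤ R ^ 3 → 1 ≤ R →
      (1 - p n (m + 1)) * p n (m + M) * (M : ℝ) ^ 2 ≤ K * n * R
  upper : ∃ D : ℝ, 0 < D ∧ ∃ n₀ : ℕ, ∀ n, n₀ ≤ n → p n ⌈D * n⌉₊ < 1 / 2
  lower : ∃ c₀ : ℝ, 0 < c₀ ∧ ∃ n₀ : ℕ, ∀ n, n₀ ≤ n → 1 / 2 ≤ p n ⌊c₀ * n⌋₊
  mix : ∀ n₁ n₂ x J₁ J₂ : ℕ, ∀ t : ℝ, 1 ≤ n₁ → 1 ≤ n₂ → 0 < t →
    (x : ℝ) * n₁ / ((n₁ : ℝ) + n₂) + t ≤ J₁ → (x : ℝ) * n₂ / ((n₁ : ℝ) + n₂) + t ≤ J₂ →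
      (1 - (x : ℝ) / t ^ 2) * p n₁ J₁ * p n₂ J₂ ≤ p (n₁ + n₂) x
  res : ∀ N N' x i : ℕ, 1 ≤ N → N ≤ N' →
    (i : ℝ) < (x : ℝ) * ((N : ℝ) / N') ^ k →
      p N' x ≤ p N i + (x : ℝ) * ((N : ℝ) / N') ^ k / ((x : ℝ) * ((N : ℝ) / N') ^ k - i) ^ 2

section

variable {k : ℕ} {p : ℕ → ℕ → ℝ}

lemma LimitHyp.anti' (h : LimitHyp k p) {n : ℕ} (hn : 1 ≤ n) {a b : ℕ} (hab : a ≤ b) : p n b ≤ p n a :=
  antitone_nat_of_succ_le (fun m => h.anti n m hn) hab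

open Classical in
/-- The median index. -/
noncomputable def mmOf (p : ℕ → ℕ → ℝ) (D : ℝ) (n : ℕ) : ℕ :=
  Nat.findGreatest (fun m => (1 / 2 : ℝ) ≤ p n m) ⌈D * n⌉₊

/-- The median density. -/
noncomputable def rOf (p : ℕ → ℕ → ℝ) (D : ℝ) (n : ℕ) : ℝ := (mmOf p D n : ℝ) / n

lemma mm_spec (h : LimitHyp k p) (D : ℝ) {n : ℕ} (hn : 1 ≤ n) : 1 / 2 ≤ p n (mmOf p D n) := by
  classical
  unfold mmOf
  have h0 : (1 / 2 : ℝ) ≤ p n 0 := by rw [h.zero n hn]; norm_num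
  exact Nat.findGreatest_spec (P := fun m => (1 / 2 : ℝ) ≤ p n m) (Nat.zero_le _) h0

lemma mm_le_bound (D : ℝ) (n : ℕ) : mmOf p D n ≤ ⌈D * n⌉₊ := by
  classical
  unfold mmOf
  exact Nat.findGreatest_le _

lemma mm_ge (h : LimitHyp k p) {D : ℝ} {n : ℕ} (hn : 1 ≤ n) (hup : p n ⌈D * n⌉₊ < 1 / 2) {m : ℕ}
    (hm : 1 / 2 ≤ p n m) : m ≤ mmOf p D n := by
  classical
  unfold mmOf
  have hle : m ≤ ⌈D * n⌉₊ := by
    by_contra hc
    push_neg at hc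
    have := h.anti' hn hc.le
    linarith
  exact Nat.le_findGreatest (P := fun m => (1 / 2 : ℝ) ≤ p n m) hle hm

lemma mm_lt (h : LimitHyp k p) {D : ℝ} {n : ℕ} (hn : 1 ≤ n) (hup : p n ⌈D * n⌉₊ < 1 / 2) {m : ℕ}
    (hm : mmOf p D n < m) : p n m < 1 / 2 := by
  by_contra hc
  push_neg at hc
  have := mm_ge h hn hup hc
  omega

lemma mm_cast_le {D : ℝ} (hD : 0 < D) (n : ℕ) : (mmOf p D n : ℝ) ≤ D * n + 1 := by
  have h1 : (mmOf p D n : ℝ) ≤ (⌈D * n⌉₊ : ℝ) := by exact_mod_cast mm_le_bound D n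
  have h2 := Nat.ceil_lt_add_one (show 0 ≤ D * n by positivity)
  linarith

lemma r_nonneg (D : ℝ) (n : ℕ) : 0 ≤ rOf p D n := by
  unfold rOf; positivity

lemma r_le {D : ℝ} (hD : 0 < D) (n : ℕ) : rOf p D n ≤ D + 1 := by
  unfold rOf
  rcases Nat.eq_zero_or_pos n with rfl | hn
  · simp; linarith
  · have hn' : (1 : ℝ) ≤ n := by exact_mod_cast hn
    rw [div_le_iff₀ (by linarith)]
    have := mm_cast_le (p := p) hD n
    nlinarith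

lemma r_mul {D : ℝ} {n : ℕ} (hn : 1 ≤ n) : rOf p D n * n = mmOf p D n := by
  unfold rOf
  have hn' : (n : ℝ) ≠ 0 := by
    have : (1 : ℝ) ≤ n := by exact_mod_cast hn
    linarith
  field_simp

/-- The window scale. -/
noncomputable def sOf (n : ℕ) : ℕ := ⌈fr n⌉₊

lemma fr_le_s (n : ℕ) : fr n ≤ sOf n := Nat.le_ceil _

lemma s_le {n : ℕ} (hn : 1 ≤ n) : (sOf n : ℝ) ≤ 2 * fr n := by
  have h1 := Nat.ceil_lt_add_one (fr_nonneg n)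
  have h2 := one_le_fr hn
  unfold sOf
  linarith

lemma one_le_s {n : ℕ} (hn : 1 ≤ n) : 1 ≤ sOf n := by
  have h1 := fr_le_s n
  have h2 := one_le_fr hn
  have : (1 : ℝ) ≤ sOf n := by linarith
  exact_mod_cast this

lemma n_le_s4 (n : ℕ) : (n : ℝ) ≤ (sOf n : ℝ) ^ 4 := by
  rw [← fr_pow n]
  exact pow_le_pow_left₀ (fr_nonneg n) (fr_le_s n) 4

lemma s3_le {n : ℕ} (hn : 1 ≤ n) : (sOf n : ℝ) ^ 3 ≤ 8 * fr n ^ 3 := by
  have := pow_le_pow_left₀ (by positivity : (0 : ℝ) ≤ (sOf n : ℝ)) (s_le hn) 3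
  calc (sOf n : ℝ) ^ 3 ≤ (2 * fr n) ^ 3 := this
    _ = 8 * fr n ^ 3 := by ring

/-- Window bound at the scale `s ^ 3`. -/
lemma window_s (h : LimitHyp k p) {D : ℝ} (hD : 0 < D) :
    ∃ K : ℝ, 0 < K ∧ ∃ n₀ : ℕ, ∀ n, n₀ ≤ n → ∀ m : ℕ, (m : ℝ) + (sOf n : ℝ) ^ 3 ≤ D * n →
      (1 - p n (m + 1)) * p n (m + sOf n ^ 3) * (sOf n : ℝ) ≤ K := by
  obtain ⟨K, hK, n₀, hw⟩ := h.window D hD
  refine ⟨K, hK, max n₀ 1, fun n hn m hm => ?_⟩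
  have hn0 : n₀ ≤ n := le_trans (le_max_left _ _) hn
  have hn1 : 1 ≤ n := le_trans (le_max_right _ _) hn
  have hs := one_le_s hn1
  have hs' : (1 : ℝ) ≤ sOf n := by exact_mod_cast hs
  have key := hw n hn0 m (sOf n ^ 3) (sOf n) (by push_cast; exact hm) le_rfl hs
  push_cast at key
  set A := (1 - p n (m + 1)) * p n (m + sOf n ^ 3) with hA
  have hn4 := n_le_s4 n
  have hs5 : (0 : ℝ) < (sOf n : ℝ) ^ 5 := by positivity
  have h2 : A * (sOf n : ℝ) * (sOf n : ℝ) ^ 5 ≤ K * (sOf n : ℝ) ^ 5 := by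
    calc A * (sOf n : ℝ) * (sOf n : ℝ) ^ 5 = A * ((sOf n : ℝ) ^ 3) ^ 2 := by ring
      _ ≤ K * n * (sOf n : ℝ) := key
      _ ≤ K * (sOf n : ℝ) ^ 4 * (sOf n : ℝ) := by
          apply mul_le_mul_of_nonneg_right _ (by positivity)
          exact mul_le_mul_of_nonneg_left hn4 hK.le
      _ = K * (sOf n : ℝ) ^ 5 := by ring
  exact le_of_mul_le_mul_right h2 hs5

/-- Consequences of the window bound at the median. -/
lemma window_med (h : LimitHyp k p) {D : ℝ} (hD : 0 < D) (hup : ∀ᶠ n : ℕ in atTop, p n ⌈D * n⌉₊ < 1 / 2) :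
    ∀ᶠ n : ℕ in atTop, (9 / 10 ≤ p n (mmOf p D n - sOf n ^ 3)) ∧
      (∀ i, mmOf p D n + sOf n ^ 3 ≤ i → p n i ≤ 1 / 10) := by
  obtain ⟨K, hK, n₀, hw⟩ := window_s h (D := D + 3) (by linarith)
  have h1 : ∀ᶠ n : ℕ in atTop, (20 * K + 8 ≤ fr n) := fr_tendsto.eventually_ge_atTop _
  filter_upwards [hup, h1, eventually_ge_atTop n₀, eventually_ge_atTop 1] with n hup hf hn0 hn1
  have hf8 : 8 ≤ fr n := by linarith
  have hs : 20 * K ≤ (sOf n : ℝ) := by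
    have := fr_le_s n
    linarith
  have hs0 : (0 : ℝ) < sOf n := by
    have := fr_le_s n
    linarith
  have hfr3 : (sOf n : ℝ) ^ 3 ≤ n := by
    have h3 := s3_le hn1
    have h4 := fr_pow n
    have hfr0 := fr_nonneg n
    have : 8 * fr n ^ 3 ≤ fr n ^ 4 := by
      have : 0 ≤ fr n ^ 3 := by positivity
      nlinarith
    linarith
  have hn1' : (1 : ℝ) ≤ n := by exact_mod_cast hn1
  have hmm := mm_cast_le (p := p) hD n
  have hA : ∀ m : ℕ, (m : ℝ) + (sOf n : ℝ) ^ 3 ≤ (D + 3) * n →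
      (1 - p n (m + 1)) * p n (m + sOf n ^ 3) ≤ 1 / 20 := by
    intro m hm
    have := hw n hn0 m hm
    set A := (1 - p n (m + 1)) * p n (m + sOf n ^ 3)
    have hA0 : 0 ≤ A := mul_nonneg (by linarith [h.le_one n (m + 1) hn1]) (h.nonneg _ _ hn1)
    have : A * (20 * K) ≤ K := by
      calc A * (20 * K) ≤ A * (sOf n : ℝ) := mul_le_mul_of_nonneg_left hs hA0
        _ ≤ K := this
    have hK' : A * 20 ≤ 1 := by
      have : (A * 20) * K ≤ 1 * K := by linarith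
      exact le_of_mul_le_mul_right this hK
    linarith
  refine ⟨?_, ?_⟩
  · by_cases hc : sOf n ^ 3 ≤ mmOf p D n
    · obtain ⟨m, hm⟩ := Nat.exists_eq_add_of_le' hc
      have e : mmOf p D n - sOf n ^ 3 = m := by omega
      rw [e]
      have hcast : (m : ℝ) + (sOf n : ℝ) ^ 3 = mmOf p D n := by
        rw [hm]; push_cast; ring
      have hb := hA m (by rw [hcast]; nlinarith)
      have hspec := mm_spec h D hn1
      rw [hm] at hspec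
      have e2 : m + sOf n ^ 3 = m + sOf n ^ 3 := rfl
      have h5 : (1 - p n (m + 1)) * (1 / 2) ≤ 1 / 20 := by
        have h6 : 0 ≤ 1 - p n (m + 1) := by linarith [h.le_one n (m + 1) hn1]
        calc (1 - p n (m + 1)) * (1 / 2) ≤ (1 - p n (m + 1)) * p n (m + sOf n ^ 3) :=
              mul_le_mul_of_nonneg_left hspec h6
          _ ≤ 1 / 20 := hb
      have := h.anti n m hn1
      linarith
    · have e : mmOf p D n - sOf n ^ 3 = 0 := by omega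
      rw [e, h.zero n hn1]
      norm_num
  · intro i hi
    have hb := hA (mmOf p D n) (by nlinarith)
    have hlt := mm_lt h hn1 hup (Nat.lt_succ_self (mmOf p D n))
    have h6 : (1 / 2 : ℝ) ≤ 1 - p n (mmOf p D n + 1) := by
      have : p n (mmOf p D n + 1) < 1 / 2 := hlt
      linarith
    have h7 : (1 / 2) * p n (mmOf p D n + sOf n ^ 3) ≤ 1 / 20 := by
      calc (1 / 2) * p n (mmOf p D n + sOf n ^ 3)
          ≤ (1 - p n (mmOf p D n + 1)) * p n (mmOf p D n + sOf n ^ 3) :=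
            mul_le_mul_of_nonneg_right h6 (h.nonneg _ _ hn1)
        _ ≤ 1 / 20 := hb
    have := h.anti' hn1 hi
    linarith

/-! ### The mixing step -/

/-- Eventual bounds on the median density. -/
lemma r_lower (h : LimitHyp k p) {D c₀ : ℝ} (hc₀ : 0 < c₀)
    (hup : ∀ᶠ n : ℕ in atTop, p n ⌈D * n⌉₊ < 1 / 2)
    (hlow : ∀ᶠ n : ℕ in atTop, 1 / 2 ≤ p n ⌊c₀ * n⌋₊) :
    ∀ᶠ n : ℕ in atTop, c₀ / 2 ≤ rOf p D n := by
  have h1 : ∀ᶠ n : ℕ in atTop, 2 / c₀ ≤ (n : ℝ) := tendsto_natCast_atTop_atTop.eventually_ge_atTop _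
  filter_upwards [hup, hlow, h1, eventually_ge_atTop 1] with n hup hlow h1 hn1
  have hn' : (0 : ℝ) < n := by exact_mod_cast hn1
  have hm := mm_ge h hn1 hup hlow
  have hm' : ((⌊c₀ * n⌋₊ : ℕ) : ℝ) ≤ mmOf p D n := by exact_mod_cast hm
  have hfl := Nat.lt_floor_add_one (c₀ * n)
  unfold rOf
  rw [le_div_iff₀ hn']
  have h2 : 2 ≤ c₀ * n := by
    rw [div_le_iff₀ hc₀] at h1
    linarith
  nlinarith

lemma mix_arith_J {Mr n Nr ρ ε X rr wr : ℝ} (hN : 0 < Nr) (hn : 0 ≤ n) (hM : Mr ≤ (ρ - ε) * Nr)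
    (hρ : ρ ≤ rr) (h3 : Nr ≤ 3 * n) (hεN : ε * Nr = 30 * X ^ 3) (hw : wr ≤ 8 * X ^ 3) (hε : 0 < ε)
    (hX3 : 0 < X ^ 3) : Mr * n / Nr + X ^ 3 ≤ rr * n - wr := by
  have h1 : Mr * n / Nr ≤ (ρ - ε) * n := by
    rw [div_le_iff₀ hN]
    have := mul_le_mul_of_nonneg_right hM hn
    linarith
  have h2 : ρ * n ≤ rr * n := mul_le_mul_of_nonneg_right hρ hn
  have h3' : ε * Nr ≤ ε * (3 * n) := mul_le_mul_of_nonneg_left h3 hε.le
  have e1 : (ρ - ε) * n = ρ * n - ε * n := by ring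
  have e2 : ε * (3 * n) = 3 * (ε * n) := by ring
  rw [e1] at h1
  rw [e2, hεN] at h3'
  linarith

lemma mix_arith_frac {Mr D X ρ ε Nr : ℝ} (hX4 : X ^ 4 = Nr) (hM : Mr ≤ (ρ - ε) * Nr)
    (hρ : ρ ≤ D + 1) (hε : 0 ≤ ε) (hD : 0 < D) (hX : 2 * D + 4 ≤ X) : Mr / (X ^ 3) ^ 2 ≤ 1 / 4 := by
  have hX0 : 0 < X := by linarith
  have hNr : 0 ≤ Nr := by rw [← hX4]; positivity
  rw [div_le_iff₀ (by positivity)]
  have h1 : Mr ≤ (D + 1) * X ^ 4 := by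
    rw [hX4]
    have : (ρ - ε) * Nr ≤ (D + 1) * Nr := mul_le_mul_of_nonneg_right (by linarith) hNr
    linarith
  have h3 : 4 * (D + 1) ≤ X ^ 2 := by nlinarith
  have h4 : 0 ≤ X ^ 4 := by positivity
  have e : 1 / 4 * (X ^ 3) ^ 2 = (1 / 4 * X ^ 2) * X ^ 4 := by ring
  rw [e]
  have : (D + 1) * X ^ 4 ≤ (1 / 4 * X ^ 2) * X ^ 4 :=
    mul_le_mul_of_nonneg_right (by linarith) h4
  linarith

lemma mix_arith_final {ρ ε X Nr Mr mmr : ℝ} (hX4 : X ^ 4 = Nr) (hε : ε = 30 / X) (hX : 1 ≤ X)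
    (hMgt : (ρ - ε) * Nr < Mr + 1) (hle : Mr ≤ mmr) : (ρ - 31 / X) * Nr ≤ mmr := by
  have hX0 : 0 < X := by linarith
  have e : (ρ - 31 / X) * Nr = (ρ - ε) * Nr - X ^ 3 := by
    rw [hε, ← hX4]
    field_simp
    ring
  rw [e]
  have : 1 ≤ X ^ 3 := one_le_pow₀ hX
  linarith

lemma cast_sub_le' (a b : ℕ) : (a : ℝ) - b ≤ ((a - b : ℕ) : ℝ) := by
  rw [sub_le_iff_le_add]
  have h5 : a ≤ (a - b) + b := by omega
  exact_mod_cast h5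

lemma s3_le_fr {n N : ℕ} (hn : 1 ≤ n) (hnN : n ≤ N) : ((sOf n ^ 3 : ℕ) : ℝ) ≤ 8 * fr N ^ 3 := by
  push_cast
  have h1 := s3_le hn
  have h2 : fr n ≤ fr N := fr_mono hnN
  have h3 := pow_le_pow_left₀ (fr_nonneg n) h2 3
  linarith

/-- One balanced mixing step: the arithmetic core. -/
lemma mix_core (h : LimitHyp k p) {D : ℝ} (hD : 0 < D) {n₁ n₂ : ℕ} (hn₁ : 1 ≤ n₁) (hn₂ : 1 ≤ n₂)
    (h31 : n₁ + n₂ ≤ 3 * n₁) (h32 : n₁ + n₂ ≤ 3 * n₂)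
    (hw₁ : 9 / 10 ≤ p n₁ (mmOf p D n₁ - sOf n₁ ^ 3))
    (hw₂ : 9 / 10 ≤ p n₂ (mmOf p D n₂ - sOf n₂ ^ 3))
    {ρ : ℝ} (hρ₁ : ρ ≤ rOf p D n₁) (hρ₂ : ρ ≤ rOf p D n₂) (hρD : ρ ≤ D + 1)
    (hX : 2 * D + 4 ≤ fr (n₁ + n₂)) (hρ0 : 30 / fr (n₁ + n₂) ≤ ρ) :
    ∃ M : ℕ, 1 / 2 ≤ p (n₁ + n₂) M ∧ (ρ - 30 / fr (n₁ + n₂)) * ((n₁ + n₂ : ℕ) : ℝ) < (M : ℝ) + 1 := by
  have hX4 : fr (n₁ + n₂) ^ 4 = ((n₁ + n₂ : ℕ) : ℝ) := fr_pow _
  have hX0 : 0 < fr (n₁ + n₂) := by linarith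
  have hX3 : 0 < fr (n₁ + n₂) ^ 3 := by positivity
  have hNpos : (0 : ℝ) < ((n₁ + n₂ : ℕ) : ℝ) := by
    have : 1 ≤ n₁ + n₂ := by omega
    exact_mod_cast this
  have hεpos : 0 < 30 / fr (n₁ + n₂) := by positivity
  have hεN : 30 / fr (n₁ + n₂) * ((n₁ + n₂ : ℕ) : ℝ) = 30 * fr (n₁ + n₂) ^ 3 := by
    rw [← hX4]; field_simp
  have hM0 : 0 ≤ (ρ - 30 / fr (n₁ + n₂)) * ((n₁ + n₂ : ℕ) : ℝ) :=
    mul_nonneg (by linarith) hNpos.le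
  refine ⟨⌊(ρ - 30 / fr (n₁ + n₂)) * ((n₁ + n₂ : ℕ) : ℝ)⌋₊, ?_, Nat.lt_floor_add_one _⟩
  have hMle := Nat.floor_le hM0
  generalize ⌊(ρ - 30 / fr (n₁ + n₂)) * ((n₁ + n₂ : ℕ) : ℝ)⌋₊ = M at hMle ⊢
  have hn₁R : (0 : ℝ) ≤ n₁ := by positivity
  have hn₂R : (0 : ℝ) ≤ n₂ := by positivity
  have hden : ((n₁ : ℝ) + n₂) = ((n₁ + n₂ : ℕ) : ℝ) := by push_cast; ring
  have hJ₁ : (M : ℝ) * n₁ / ((n₁ : ℝ) + n₂) + fr (n₁ + n₂) ^ 3
      ≤ ((mmOf p D n₁ - sOf n₁ ^ 3 : ℕ) : ℝ) := by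
    rw [hden]
    have h1 := mix_arith_J hNpos hn₁R hMle hρ₁ (by exact_mod_cast h31) hεN
      (s3_le_fr hn₁ (by omega)) hεpos hX3
    rw [r_mul hn₁] at h1
    exact h1.trans (cast_sub_le' _ _)
  have hJ₂ : (M : ℝ) * n₂ / ((n₁ : ℝ) + n₂) + fr (n₁ + n₂) ^ 3
      ≤ ((mmOf p D n₂ - sOf n₂ ^ 3 : ℕ) : ℝ) := by
    rw [hden]
    have h1 := mix_arith_J hNpos hn₂R hMle hρ₂ (by exact_mod_cast h32) hεN
      (s3_le_fr hn₂ (by omega)) hεpos hX3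
    rw [r_mul hn₂] at h1
    exact h1.trans (cast_sub_le' _ _)
  have hmix := h.mix n₁ n₂ M _ _ (fr (n₁ + n₂) ^ 3) hn₁ hn₂ hX3 hJ₁ hJ₂
  have hfrac := mix_arith_frac hX4 hMle hρD hεpos.le hD hX
  have h1 : (3 / 4 : ℝ) ≤ 1 - (M : ℝ) / (fr (n₁ + n₂) ^ 3) ^ 2 := by linarith
  have h2 : (3 / 4 : ℝ) * (9 / 10) ≤ (1 - (M : ℝ) / (fr (n₁ + n₂) ^ 3) ^ 2) * p n₁ (mmOf p D n₁ - sOf n₁ ^ 3) :=
    mul_le_mul h1 hw₁ (by norm_num) (by linarith)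
  have h3 : (3 / 4 : ℝ) * (9 / 10) * (9 / 10) ≤ (1 - (M : ℝ) / (fr (n₁ + n₂) ^ 3) ^ 2) * p n₁ (mmOf p D n₁ - sOf n₁ ^ 3) * p n₂ (mmOf p D n₂ - sOf n₂ ^ 3) :=
    mul_le_mul h2 hw₂ (by norm_num) (by linarith [show (0:ℝ) ≤ (3 / 4 : ℝ) * (9 / 10) by norm_num])
  have : (1 / 2 : ℝ) ≤ (3 / 4 : ℝ) * (9 / 10) * (9 / 10) := by norm_num
  linarith

/-- One balanced mixing step. -/
lemma mix_step (h : LimitHyp k p) {D c₀ : ℝ} (hD : 0 < D) (hc₀ : 0 < c₀)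
    (hup : ∀ᶠ n : ℕ in atTop, p n ⌈D * n⌉₊ < 1 / 2)
    (hlow : ∀ᶠ n : ℕ in atTop, 1 / 2 ≤ p n ⌊c₀ * n⌋₊) :
    ∃ n₀ : ℕ, 1 ≤ n₀ ∧ ∀ n₁ n₂ : ℕ, n₀ ≤ n₁ → n₀ ≤ n₂ → n₁ + n₂ ≤ 3 * n₁ → n₁ + n₂ ≤ 3 * n₂ →
      min (rOf p D n₁) (rOf p D n₂) - 31 / fr (n₁ + n₂) ≤ rOf p D (n₁ + n₂) := by
  have hwm := window_med h hD hup
  have hrl := r_lower h hc₀ hup hlow
  have hfr : ∀ᶠ n : ℕ in atTop, (60 / c₀ + 2 * D + 4 ≤ fr n) := fr_tendsto.eventually_ge_atTop _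
  obtain ⟨n₀, hn₀⟩ := eventually_atTop.1 (hup.and (hwm.and (hrl.and hfr)))
  refine ⟨max n₀ 1, le_max_right _ _, fun n₁ n₂ hn₁ hn₂ h31 h32 => ?_⟩
  have hn₁0 : n₀ ≤ n₁ := le_trans (le_max_left _ _) hn₁
  have hn₂0 : n₀ ≤ n₂ := le_trans (le_max_left _ _) hn₂
  have hn₁1 : 1 ≤ n₁ := le_trans (le_max_right _ _) hn₁
  have hn₂1 : 1 ≤ n₂ := le_trans (le_max_right _ _) hn₂
  obtain ⟨-, ⟨hw₁, -⟩, hr₁, -⟩ := hn₀ n₁ hn₁0
  obtain ⟨-, ⟨hw₂, -⟩, hr₂, -⟩ := hn₀ n₂ hn₂0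
  obtain ⟨hupN, -, -, hfN⟩ := hn₀ (n₁ + n₂) (by omega)
  have hpos : 0 < 60 / c₀ := by positivity
  have hX1 : 4 ≤ fr (n₁ + n₂) := by linarith
  have hX0 : 0 < fr (n₁ + n₂) := by linarith
  have hρc : c₀ / 2 ≤ min (rOf p D n₁) (rOf p D n₂) := le_min hr₁ hr₂
  have hXc : 30 / fr (n₁ + n₂) ≤ c₀ / 2 := by
    have h1 : 60 / c₀ ≤ fr (n₁ + n₂) := by linarith
    rw [div_le_iff₀ hc₀] at h1
    rw [div_le_iff₀ hX0]
    linarith
  obtain ⟨M, hM1, hM2⟩ := mix_core h hD hn₁1 hn₂1 h31 h32 hw₁ hw₂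
    (min_le_left _ _) (min_le_right _ _) (le_trans (min_le_left _ _) (r_le hD n₁))
    (by linarith) (by linarith)
  have hMmm : (M : ℝ) ≤ mmOf p D (n₁ + n₂) := by exact_mod_cast mm_ge h (by omega) hupN hM1
  have hNpos : (0 : ℝ) < ((n₁ + n₂ : ℕ) : ℝ) := by
    have : 1 ≤ n₁ + n₂ := by omega
    exact_mod_cast this
  have e : rOf p D (n₁ + n₂) = (mmOf p D (n₁ + n₂) : ℝ) / ((n₁ + n₂ : ℕ) : ℝ) := rfl
  rw [e, le_div_iff₀ hNpos]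
  exact mix_arith_final (fr_pow _) rfl (by linarith) hM2 hMmm

/-! ### Multiples -/

lemma fr_step {b q : ℕ} (h : 4 * b ≤ 3 * q) : 16 * fr b ≤ 15 * fr q := by
  have h1 : (16 * fr b) ^ 4 ≤ (15 * fr q) ^ 4 := by
    rw [mul_pow, mul_pow, fr_pow, fr_pow]
    have : ((4 * b : ℕ) : ℝ) ≤ ((3 * q : ℕ) : ℝ) := by exact_mod_cast h
    push_cast at this
    have hq : (0 : ℝ) ≤ q := by positivity
    nlinarith
  exact le_of_pow_le_pow_left₀ (by norm_num) (mul_nonneg (by norm_num) (fr_nonneg q)) h1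

lemma mult_arith {rn ra rb rq Fq Fa Fb Fn : ℝ} (hFa : 0 < Fa) (hFn : 0 < Fn) (hFq : 0 < Fq)
    (hab : Fa ≤ Fb) (hq : 16 * Fb ≤ 15 * Fq)
    (ha : rn - (465 / Fn) * (1 - 1 / Fa) ≤ ra) (hb : rn - (465 / Fn) * (1 - 1 / Fb) ≤ rb)
    (hm : min ra rb - 31 / (Fq * Fn) ≤ rq) : rn - (465 / Fn) * (1 - 1 / Fq) ≤ rq := by
  have hFb : 0 < Fb := by linarith
  have hG : 0 < 465 / Fn := by positivity
  have h1 : 1 / Fb ≤ 1 / Fa := one_div_le_one_div_of_le hFa hab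
  have h2 : (465 / Fn) * (1 - 1 / Fa) ≤ (465 / Fn) * (1 - 1 / Fb) :=
    mul_le_mul_of_nonneg_left (by linarith) hG.le
  have h3 : rn - (465 / Fn) * (1 - 1 / Fb) ≤ min ra rb := le_min (by linarith) hb
  have h4 : 31 / (Fq * Fn) + (465 / Fn) * (1 - 1 / Fb) ≤ (465 / Fn) * (1 - 1 / Fq) := by
    have e : (465 / Fn) * (1 - 1 / Fq) - (31 / (Fq * Fn) + (465 / Fn) * (1 - 1 / Fb))
        = (31 / (Fq * Fb * Fn)) * (15 * Fq - 16 * Fb) := by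
      field_simp
      ring
    have : 0 ≤ (31 / (Fq * Fb * Fn)) * (15 * Fq - 16 * Fb) :=
      mul_nonneg (by positivity) (by linarith)
    linarith
  linarith

lemma fr_one : fr 1 = 1 := by
  unfold fr
  simp

/-- Multiples of `n`. -/
lemma mult_step {D : ℝ} {n₀ : ℕ} (hn₀ : 1 ≤ n₀)
    (hmix : ∀ n₁ n₂ : ℕ, n₀ ≤ n₁ → n₀ ≤ n₂ → n₁ + n₂ ≤ 3 * n₁ → n₁ + n₂ ≤ 3 * n₂ →
      min (rOf p D n₁) (rOf p D n₂) - 31 / fr (n₁ + n₂) ≤ rOf p D (n₁ + n₂))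
    {n : ℕ} (hn : n₀ ≤ n) (q : ℕ) (hq : 1 ≤ q) :
    rOf p D n - (465 / fr n) * (1 - 1 / fr q) ≤ rOf p D (q * n) := by
  have hn1 : 1 ≤ n := le_trans hn₀ hn
  induction q using Nat.strong_induction_on with
  | _ q ih =>
    rcases Nat.lt_or_ge q 2 with hq2 | hq2
    · have : q = 1 := by omega
      subst this
      simp [fr_one]
    · have ha1 : 1 ≤ q / 2 := by omega
      have hb1 : 1 ≤ q - q / 2 := by omega
      have ihA := ih (q / 2) (by omega) ha1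
      have ihB := ih (q - q / 2) (by omega) hb1
      have e : q / 2 * n + (q - q / 2) * n = q * n := by
        rw [← add_mul]
        congr 1
        omega
      have hle1 : n ≤ q / 2 * n := Nat.le_mul_of_pos_left n (by omega)
      have hle2 : n ≤ (q - q / 2) * n := Nat.le_mul_of_pos_left n (by omega)
      have hm := hmix (q / 2 * n) ((q - q / 2) * n) (hn.trans hle1) (hn.trans hle2)
        (by rw [e, ← Nat.mul_assoc]; exact Nat.mul_le_mul_right n (by omega))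
        (by rw [e, ← Nat.mul_assoc]; exact Nat.mul_le_mul_right n (by omega))
      rw [e, fr_mul] at hm
      exact mult_arith (fr_pos ha1) (fr_pos hn1) (fr_pos hq) (fr_mono (by omega))
        (fr_step (by omega)) ihA ihB hm

/-! ### Restriction -/

lemma res_arith {x π i X : ℝ} (hπ0 : 0 ≤ π) (hπ1 : π ≤ 1) (hx0 : 0 ≤ x)
    (hX0 : 0 < X) (hgap : i + X ^ 3 ≤ x * π) {B : ℝ} (hB : x ≤ B * X ^ 4) (hB0 : 0 ≤ B)
    (hXB : 4 * B ≤ X ^ 2) : x * π / (x * π - i) ^ 2 ≤ 1 / 4 := by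
  have hX3 : 0 < X ^ 3 := by positivity
  have h1 : X ^ 3 ≤ x * π - i := by linarith
  have h2 : (X ^ 3) ^ 2 ≤ (x * π - i) ^ 2 := pow_le_pow_left₀ hX3.le h1 2
  have hpos : 0 < (x * π - i) ^ 2 := by
    have : 0 < x * π - i := by linarith
    positivity
  rw [div_le_iff₀ hpos]
  have h3 : x * π ≤ x := by nlinarith
  have h4 : x * π ≤ B * X ^ 4 := by linarith
  have h5 : B * X ^ 4 ≤ 1 / 4 * (X ^ 3) ^ 2 := by
    have e : 1 / 4 * (X ^ 3) ^ 2 = (1 / 4 * X ^ 2) * X ^ 4 := by ring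
    rw [e]
    exact mul_le_mul_of_nonneg_right (by linarith) (by positivity)
  have h6 : 1 / 4 * (X ^ 3) ^ 2 ≤ 1 / 4 * (x * π - i) ^ 2 :=
    mul_le_mul_of_nonneg_left h2 (by norm_num)
  linarith

lemma res_final {rp rn y X Nr N'r : ℝ} {j : ℕ} (hrp0 : 0 ≤ rp) {B : ℝ} (hrpB : rp ≤ B) (hy0 : 0 ≤ y) (hy1 : y ≤ 1)
    (hNr : 0 < Nr) (hy : y = Nr / N'r) (hN' : 0 < N'r)
    (hX4 : X ^ 4 = Nr) (hX0 : 0 < X)
    (hlt : (rp * N'r) * y ^ (j + 1) < rn * Nr + 9 * X ^ 3) :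
    rp - B * j * (1 - y) - 9 / X ≤ rn := by
  have e1 : (rp * N'r) * y ^ (j + 1) = rp * y ^ j * Nr := by
    rw [pow_succ]
    rw [hy]
    field_simp
  rw [e1] at hlt
  have e2 : 9 * X ^ 3 = (9 / X) * Nr := by
    rw [← hX4]; field_simp
  rw [e2] at hlt
  have h1 : rp * y ^ j < rn + 9 / X := by
    have : rp * y ^ j * Nr < (rn + 9 / X) * Nr := by
      rw [add_mul]; exact hlt
    exact lt_of_mul_lt_mul_right this hNr.le
  have h2 : 1 + (j : ℝ) * (y - 1) ≤ (1 + (y - 1)) ^ j :=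
    one_add_mul_le_pow (by linarith) j
  have h3 : 1 + (y - 1) = y := by ring
  rw [h3] at h2
  have h4 : rp * (1 + (j : ℝ) * (y - 1)) ≤ rp * y ^ j := mul_le_mul_of_nonneg_left h2 hrp0
  have h5 : rp * ((j : ℝ) * (1 - y)) ≤ B * ((j : ℝ) * (1 - y)) := by
    apply mul_le_mul_of_nonneg_right hrpB
    exact mul_nonneg (by positivity) (by linarith)
  nlinarith

/-- Restriction to fewer variables. -/
lemma res_step (h : LimitHyp k p) {D : ℝ} (hD : 0 < D)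
    (hup : ∀ᶠ n : ℕ in atTop, p n ⌈D * n⌉₊ < 1 / 2) :
    ∃ n₀ : ℕ, ∀ N N' : ℕ, n₀ ≤ N → N ≤ N' → N' ≤ 2 * N →
      rOf p D N' - (D + 1) * ((k - 1 : ℕ) : ℝ) * (1 - (N : ℝ) / N') - 9 / fr N ≤ rOf p D N := by
  have hwm := window_med h hD hup
  have hfr : ∀ᶠ n : ℕ in atTop, (16 * D + 24 ≤ fr n) := fr_tendsto.eventually_ge_atTop _
  obtain ⟨n₀, hn₀⟩ := eventually_atTop.1 (hwm.and hfr)
  refine ⟨max n₀ 1, fun N N' hN hNN' hN2 => ?_⟩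
  have hN0 : n₀ ≤ N := le_trans (le_max_left _ _) hN
  have hN1 : 1 ≤ N := le_trans (le_max_right _ _) hN
  have hN'1 : 1 ≤ N' := le_trans hN1 hNN'
  obtain ⟨⟨-, hw⟩, hf⟩ := hn₀ N hN0
  have hNR : (0 : ℝ) < N := by exact_mod_cast hN1
  have hN'R : (0 : ℝ) < N' := by exact_mod_cast hN'1
  have hNN'R : (N : ℝ) ≤ N' := by exact_mod_cast hNN'
  have hN2R : (N' : ℝ) ≤ 2 * N := by exact_mod_cast hN2
  have hX0 : 0 < fr N := fr_pos hN1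
  have hX4 : fr N ^ 4 = (N : ℝ) := fr_pow N
  have hy0 : 0 ≤ (N : ℝ) / N' := by positivity
  have hy1 : (N : ℝ) / N' ≤ 1 := (div_le_one hN'R).2 hNN'R
  have hπ0 : 0 ≤ ((N : ℝ) / N') ^ k := by positivity
  have hπ1 : ((N : ℝ) / N') ^ k ≤ 1 := pow_le_one₀ hy0 hy1
  have hxB : (mmOf p D N' : ℝ) ≤ (2 * (D + 1)) * fr N ^ 4 := by
    rw [hX4]
    have := mm_cast_le (p := p) hD N'
    have h1 : (1 : ℝ) ≤ N' := by exact_mod_cast hN'1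
    nlinarith
  have hXB : 4 * (2 * (D + 1)) ≤ fr N ^ 2 := by nlinarith
  -- the key inequality
  have hkey : (mmOf p D N' : ℝ) * ((N : ℝ) / N') ^ k < (mmOf p D N : ℝ) + (sOf N : ℝ) ^ 3 + fr N ^ 3 := by
    by_contra hc
    push_neg at hc
    have hi : ((mmOf p D N + sOf N ^ 3 : ℕ) : ℝ) + fr N ^ 3 ≤ (mmOf p D N' : ℝ) * ((N : ℝ) / N') ^ k := by
      push_cast
      linarith
    have hX3 : 0 < fr N ^ 3 := by positivity
    have hfrac := res_arith hπ0 hπ1 (by positivity) hX0 hi hxB (by positivity) hXB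
    have hres := h.res N N' (mmOf p D N') (mmOf p D N + sOf N ^ 3) hN1 hNN' (by linarith)
    have hspec := mm_spec h D hN'1
    have hp := hw (mmOf p D N + sOf N ^ 3) le_rfl
    linarith
  have hs3 := s3_le hN1
  have hlt : (rOf p D N' * N') * ((N : ℝ) / N') ^ ((k - 1) + 1)
      < rOf p D N * N + 9 * fr N ^ 3 := by
    rw [r_mul hN'1, r_mul hN1, Nat.sub_add_cancel h.one_le_k]
    linarith
  exact res_final (r_nonneg D N') (r_le hD N') hy0 hy1 hNR rfl hN'R hX4 hX0 hlt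

/-! ### Convergence -/

lemma tendsto_of_almost_mono {u : ℕ → ℝ} {B : ℝ} (h0 : ∀ n, 0 ≤ u n) (hB : ∀ n, u n ≤ B)
    (hu : ∀ δ : ℝ, 0 < δ → ∃ n₁ : ℕ, ∀ n, n₁ ≤ n → ∃ N₀ : ℕ, ∀ N, N₀ ≤ N → u n - δ ≤ u N) :
    ∃ a : ℝ, Tendsto u atTop (𝓝 a) := by
  have hmem : ∀ n, u n ∈ Set.Icc (0 : ℝ) B := fun n => ⟨h0 n, hB n⟩
  obtain ⟨a, -, φ, hφ, hlim⟩ := tendsto_subseq_of_bounded (Metric.isBounded_Icc 0 B) hmem
  refine ⟨a, ?_⟩
  rw [Metric.tendsto_atTop]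
  intro ε hε
  obtain ⟨n₁, hn₁⟩ := hu (ε / 3) (by positivity)
  -- upper bound
  have hupper : ∀ n, n₁ ≤ n → u n ≤ a + ε / 3 := by
    intro n hn
    obtain ⟨N₀, hN₀⟩ := hn₁ n hn
    have h1 : ∀ᶠ j in atTop, u n - ε / 3 ≤ u (φ j) := by
      filter_upwards [hφ.tendsto_atTop.eventually_ge_atTop N₀] with j hj
      exact hN₀ _ hj
    have := ge_of_tendsto hlim h1
    linarith
  -- lower bound
  have h2 : ∀ᶠ j in atTop, a - ε / 3 < u (φ j) ∧ n₁ ≤ φ j := by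
    have h3 := (tendsto_order.1 hlim).1 (a - ε / 3) (by linarith)
    exact h3.and (hφ.tendsto_atTop.eventually_ge_atTop n₁)
  obtain ⟨j, hj1, hj2⟩ := h2.exists
  obtain ⟨N₀, hN₀⟩ := hn₁ (φ j) hj2
  refine ⟨max n₁ N₀, fun N hN => ?_⟩
  have hu1 := hupper N (le_trans (le_max_left _ _) hN)
  have hu2 := hN₀ N (le_trans (le_max_right _ _) hN)
  rw [Real.dist_eq, abs_lt]
  constructor <;> linarith

/-! ### Assembly -/

lemma r_almost_mono (h : LimitHyp k p) {D c₀ : ℝ} (hD : 0 < D) (hc₀ : 0 < c₀)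
    (hup : ∀ᶠ n : ℕ in atTop, p n ⌈D * n⌉₊ < 1 / 2)
    (hlow : ∀ᶠ n : ℕ in atTop, 1 / 2 ≤ p n ⌊c₀ * n⌋₊) (δ : ℝ) (hδ : 0 < δ) :
    ∃ n₁ : ℕ, ∀ n, n₁ ≤ n → ∃ N₀ : ℕ, ∀ N, N₀ ≤ N → rOf p D n - δ ≤ rOf p D N := by
  obtain ⟨n_m, hn_m1, hmix⟩ := mix_step h hD hc₀ hup hlow
  obtain ⟨n_r, hres⟩ := res_step h hD hup
  have hfr : ∀ᶠ n : ℕ in atTop, (1395 / δ ≤ fr n) := fr_tendsto.eventually_ge_atTop _
  obtain ⟨n_f, hn_f⟩ := eventually_atTop.1 hfr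
  refine ⟨max n_m n_f, fun n hn => ?_⟩
  have hn_m : n_m ≤ n := le_trans (le_max_left _ _) hn
  have hnf : n_f ≤ n := le_trans (le_max_right _ _) hn
  have hn1 : 1 ≤ n := le_trans hn_m1 hn_m
  have hX0 : 0 < fr n := fr_pos hn1
  have h465 : 465 / fr n ≤ δ / 3 := by
    have h1 := hn_f n hnf
    rw [div_le_iff₀ hδ] at h1
    rw [div_le_iff₀ hX0]
    linarith
  have hfr2 : ∀ᶠ N : ℕ in atTop, (27 / δ ≤ fr N) := fr_tendsto.eventually_ge_atTop _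
  have hC : Tendsto (fun N : ℕ => ((D + 1) * ((k - 1 : ℕ) : ℝ) * n) / (N : ℝ)) atTop (𝓝 0) :=
    tendsto_const_div_atTop_nhds_zero_nat _
  have hC2 : ∀ᶠ N : ℕ in atTop, ((D + 1) * ((k - 1 : ℕ) : ℝ) * n) / (N : ℝ) ≤ δ / 3 :=
    (tendsto_order.1 hC).2 _ (by positivity) |>.mono (fun _ hx => hx.le)
  obtain ⟨N₀, hN₀⟩ := eventually_atTop.1 (hfr2.and hC2)
  refine ⟨max (max N₀ n_r) (max n 1), fun N hN => ?_⟩
  have hNN₀ : N₀ ≤ N := le_trans (le_trans (le_max_left _ _) (le_max_left _ _)) hN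
  have hNr : n_r ≤ N := le_trans (le_trans (le_max_right _ _) (le_max_left _ _)) hN
  have hNn : n ≤ N := le_trans (le_trans (le_max_left _ _) (le_max_right _ _)) hN
  have hN1 : 1 ≤ N := le_trans hn1 hNn
  obtain ⟨hf2, hC3⟩ := hN₀ N hNN₀
  -- the next multiple
  have hdm := Nat.div_add_mod N n
  have hml := Nat.mod_lt N hn1
  have hq : (N / n + 1) * n = n * (N / n) + n := by ring
  have hN'1 : N ≤ (N / n + 1) * n := by omega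
  have hN'2 : (N / n + 1) * n ≤ 2 * N := by omega
  have hN'3 : (N / n + 1) * n ≤ N + n := by omega
  have hr := hres N _ hNr hN'1 hN'2
  have hq1 : 1 ≤ N / n + 1 := Nat.le_add_left 1 _
  have hm := mult_step hn_m1 hmix hn_m (N / n + 1) hq1
  -- error terms
  have hfq : 0 < fr (N / n + 1) := fr_pos hq1
  have h1 : (465 / fr n) * (1 - 1 / fr (N / n + 1)) ≤ 465 / fr n := by
    have : 0 < 1 / fr (N / n + 1) := by positivity
    have h2 : 0 ≤ 465 / fr n := by positivity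
    nlinarith
  have hNR : (0 : ℝ) < N := by exact_mod_cast hN1
  have hN'R : (0 : ℝ) < ((N / n + 1) * n : ℕ) := by
    have : 1 ≤ (N / n + 1) * n := le_trans hN1 hN'1
    exact_mod_cast this
  have hN'3R : (((N / n + 1) * n : ℕ) : ℝ) ≤ N + n := by exact_mod_cast hN'3
  have hN'1R : (N : ℝ) ≤ ((N / n + 1) * n : ℕ) := by exact_mod_cast hN'1
  have hgap : 1 - (N : ℝ) / ((N / n + 1) * n : ℕ) ≤ (n : ℝ) / N := by
    rw [sub_le_iff_le_add, div_add_div _ _ hNR.ne' hN'R.ne', le_div_iff₀ (by positivity)]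
    have hn0 : (0 : ℝ) ≤ n := by positivity
    nlinarith
  have hcoef : 0 ≤ (D + 1) * ((k - 1 : ℕ) : ℝ) := by positivity
  have h3 : (D + 1) * ((k - 1 : ℕ) : ℝ) * (1 - (N : ℝ) / ((N / n + 1) * n : ℕ)) ≤ δ / 3 := by
    calc (D + 1) * ((k - 1 : ℕ) : ℝ) * (1 - (N : ℝ) / ((N / n + 1) * n : ℕ))
        ≤ (D + 1) * ((k - 1 : ℕ) : ℝ) * ((n : ℝ) / N) := mul_le_mul_of_nonneg_left hgap hcoef
      _ = ((D + 1) * ((k - 1 : ℕ) : ℝ) * n) / (N : ℝ) := by ring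
      _ ≤ δ / 3 := hC3
  have hXN : 0 < fr N := fr_pos hN1
  have h4 : 9 / fr N ≤ δ / 3 := by
    rw [div_le_iff₀ hδ] at hf2
    rw [div_le_iff₀ hXN]
    linarith
  linarith

/-- A window inequality with a macroscopic gap. -/
lemma window_gap (h : LimitHyp k p) {D : ℝ} (hD : 0 < D) {δ : ℝ} (hδ : 0 < δ) :
    ∃ K : ℝ, 0 < K ∧ ∃ n₀ : ℕ, ∀ n, n₀ ≤ n → ∀ m m' : ℕ, (m : ℝ) + δ * n ≤ m' → (m' : ℝ) ≤ D * n →
      (1 - p n (m + 1)) * p n m' ≤ K / (fr n) ^ 2 := by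
  obtain ⟨K, hK, n₀, hw⟩ := h.window D hD
  have hfr : ∀ᶠ n : ℕ in atTop, (D + 1 ≤ fr n) := fr_tendsto.eventually_ge_atTop _
  obtain ⟨n_f, hn_f⟩ := eventually_atTop.1 hfr
  refine ⟨4 * K / δ ^ 2, by positivity, max (max n₀ n_f) 1, fun n hn m m' hm hm' => ?_⟩
  have hn0 : n₀ ≤ n := le_trans (le_trans (le_max_left _ _) (le_max_left _ _)) hn
  have hnf : n_f ≤ n := le_trans (le_trans (le_max_right _ _) (le_max_left _ _)) hn
  have hn1 : 1 ≤ n := le_trans (le_max_right _ _) hn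
  have hnR : (0 : ℝ) < n := by exact_mod_cast hn1
  have hf := hn_f n hnf
  have hX0 : 0 < fr n := fr_pos hn1
  have hX4 := fr_pow n
  have hmm' : m ≤ m' := by
    have : (m : ℝ) ≤ m' := by
      have : 0 ≤ δ * n := by positivity
      linarith
    exact_mod_cast this
  obtain ⟨M, rfl⟩ := Nat.exists_eq_add_of_le hmm'
  have hs1 := one_le_s hn1
  have hsR := fr_le_s n
  have hs2 := s_le hn1
  have hs0 : (0 : ℝ) < sOf n := by linarith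
  have hR : 1 ≤ sOf n ^ 2 := Nat.one_le_pow _ _ hs1
  push_cast at hm hm'
  have hMR : (M : ℝ) ≤ D * n := by
    have : (0 : ℝ) ≤ m := by positivity
    linarith
  have hMδ : δ * n ≤ M := by linarith
  have hM3 : M ≤ (sOf n ^ 2) ^ 3 := by
    have : (M : ℝ) ≤ ((sOf n : ℝ) ^ 2) ^ 3 := by
      have h1 : (n : ℝ) ≤ (sOf n : ℝ) ^ 4 := n_le_s4 n
      have h2 : D ≤ (sOf n : ℝ) ^ 2 := by nlinarith
      have h3 : D * n ≤ (sOf n : ℝ) ^ 2 * (sOf n : ℝ) ^ 4 :=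
        mul_le_mul h2 h1 hnR.le (by positivity)
      calc (M : ℝ) ≤ D * n := hMR
        _ ≤ (sOf n : ℝ) ^ 2 * (sOf n : ℝ) ^ 4 := h3
        _ = ((sOf n : ℝ) ^ 2) ^ 3 := by ring
    exact_mod_cast this
  have key := hw n hn0 m M (sOf n ^ 2) (by linarith) hM3 hR
  push_cast at key
  set A := (1 - p n (m + 1)) * p n (m + M) with hA
  have hA0 : 0 ≤ A := mul_nonneg (by linarith [h.le_one n (m + 1) hn1]) (h.nonneg _ _ hn1)
  have hM2 : (δ * n) ^ 2 ≤ (M : ℝ) ^ 2 := pow_le_pow_left₀ (by positivity) hMδ 2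
  have h5 : A * (δ * n) ^ 2 ≤ K * n * (sOf n : ℝ) ^ 2 :=
    (mul_le_mul_of_nonneg_left hM2 hA0).trans key
  have h6 : (sOf n : ℝ) ^ 2 ≤ 4 * fr n ^ 2 := by
    have := pow_le_pow_left₀ hs0.le hs2 2
    nlinarith
  have h7 : A * δ ^ 2 * n ≤ K * (4 * fr n ^ 2) := by
    have h8 : A * δ ^ 2 * n * n ≤ K * (4 * fr n ^ 2) * n := by
      calc A * δ ^ 2 * n * n = A * (δ * n) ^ 2 := by ring
        _ ≤ K * n * (sOf n : ℝ) ^ 2 := h5
        _ ≤ K * n * (4 * fr n ^ 2) := mul_le_mul_of_nonneg_left h6 (by positivity)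
        _ = K * (4 * fr n ^ 2) * n := by ring
    exact le_of_mul_le_mul_right h8 hnR
  rw [le_div_iff₀ (by positivity)]
  rw [← hX4] at h7
  have hX2 : 0 < fr n ^ 2 := by positivity
  have h9 : A * fr n ^ 2 * (δ ^ 2 * fr n ^ 2) ≤ (4 * K) * fr n ^ 2 := by
    calc A * fr n ^ 2 * (δ ^ 2 * fr n ^ 2) = A * δ ^ 2 * fr n ^ 4 := by ring
      _ ≤ K * (4 * fr n ^ 2) := h7
      _ = (4 * K) * fr n ^ 2 := by ring
  have h10 : A * fr n ^ 2 * δ ^ 2 ≤ 4 * K := by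
    have : A * fr n ^ 2 * δ ^ 2 * fr n ^ 2 ≤ (4 * K) * fr n ^ 2 := by
      calc A * fr n ^ 2 * δ ^ 2 * fr n ^ 2 = A * fr n ^ 2 * (δ ^ 2 * fr n ^ 2) := by ring
        _ ≤ _ := h9
    exact le_of_mul_le_mul_right this hX2
  rw [le_div_iff₀ (by positivity)]
  linarith

lemma tendsto_K_div (K : ℝ) : Tendsto (fun n : ℕ => K / (fr n) ^ 2) atTop (𝓝 0) :=
  Tendsto.const_div_atTop ((tendsto_pow_atTop (two_ne_zero)).comp fr_tendsto) K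

/-- **Existence of the limiting threshold** from the abstract input. -/
theorem limit_exists (h : LimitHyp k p) :
    ∃ α : ℝ, 0 < α ∧
      (∀ c : ℝ, 0 ≤ c → c < α → Tendsto (fun n : ℕ => p n ⌊c * n⌋₊) atTop (𝓝 1)) ∧
      (∀ c : ℝ, α < c → Tendsto (fun n : ℕ => p n ⌊c * n⌋₊) atTop (𝓝 0)) := by
  obtain ⟨D, hD, n_u, hup'⟩ := h.upper
  obtain ⟨c₀, hc₀, n_l, hlow'⟩ := h.lower
  have hup : ∀ᶠ n : ℕ in atTop, p n ⌈D * n⌉₊ < 1 / 2 := eventually_atTop.2 ⟨n_u, hup'⟩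
  have hlow : ∀ᶠ n : ℕ in atTop, 1 / 2 ≤ p n ⌊c₀ * n⌋₊ := eventually_atTop.2 ⟨n_l, hlow'⟩
  obtain ⟨a, ha⟩ := tendsto_of_almost_mono (r_nonneg D) (r_le hD)
    (fun δ hδ => r_almost_mono h hD hc₀ hup hlow δ hδ)
  have ha0 : c₀ / 2 ≤ a := ge_of_tendsto ha (r_lower h hc₀ hup hlow)
  have hapos : 0 < a := by linarith
  refine ⟨a, hapos, ?_, ?_⟩
  · intro c hc hca
    have hc' : c < (c + a) / 2 := by linarith
    have hca' : (c + a) / 2 < a := by linarith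
    have hδ : 0 < ((c + a) / 2 - c) / 2 := by linarith
    have hD' : 0 < (c + a) / 2 + 1 := by linarith
    obtain ⟨K, hK, n₀, hgap⟩ := window_gap h hD' hδ
    have hr : ∀ᶠ n : ℕ in atTop, (c + a) / 2 < rOf p D n := (tendsto_order.1 ha).1 _ hca'
    have hn : ∀ᶠ n : ℕ in atTop, 1 / (((c + a) / 2 - c) / 2) ≤ (n : ℝ) :=
      tendsto_natCast_atTop_atTop.eventually_ge_atTop _
    have hlow2 : Tendsto (fun n : ℕ => 1 - 2 * (K / (fr n) ^ 2)) atTop (𝓝 1) := by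
      have := (tendsto_K_div K).const_mul 2
      have h2 := (tendsto_const_nhds (x := (1 : ℝ))).sub this
      simpa using h2
    refine tendsto_of_tendsto_of_tendsto_of_le_of_le' hlow2 tendsto_const_nhds ?_
      ((eventually_ge_atTop 1).mono (fun n hn1 => h.le_one _ _ hn1))
    filter_upwards [hr, hn, eventually_ge_atTop n₀, eventually_ge_atTop 1] with n hr hn hn0 hn1
    have hnR : (0 : ℝ) < n := by exact_mod_cast hn1
    have hmm : ((c + a) / 2) * n < mmOf p D n := by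
      have : rOf p D n * n = mmOf p D n := r_mul hn1
      rw [← this]
      exact mul_lt_mul_of_pos_right hr hnR
    have hfl1 : (⌊((c + a) / 2) * n⌋₊ : ℝ) ≤ ((c + a) / 2) * n :=
      Nat.floor_le (by positivity)
    have hfl2 := Nat.lt_floor_add_one (((c + a) / 2) * n)
    have hfl3 : (⌊c * n⌋₊ : ℝ) ≤ c * n := Nat.floor_le (by positivity)
    have hle : ⌊((c + a) / 2) * n⌋₊ ≤ mmOf p D n := by
      have : (⌊((c + a) / 2) * n⌋₊ : ℝ) ≤ mmOf p D n := by linarith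
      exact_mod_cast this
    have hhalf : 1 / 2 ≤ p n ⌊((c + a) / 2) * n⌋₊ :=
      (mm_spec h D hn1).trans (h.anti' hn1 hle)
    have hδn : 1 ≤ ((c + a) / 2 - c) / 2 * n := by
      rw [div_le_iff₀ hδ] at hn
      linarith
    have hg := hgap n hn0 ⌊c * n⌋₊ ⌊((c + a) / 2) * n⌋₊ (by nlinarith) (by nlinarith)
    have hb : 0 ≤ 1 - p n (⌊c * n⌋₊ + 1) := by linarith [h.le_one n (⌊c * n⌋₊ + 1) hn1]
    have h1 : (1 - p n (⌊c * n⌋₊ + 1)) * (1 / 2) ≤ K / (fr n) ^ 2 :=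
      (mul_le_mul_of_nonneg_left hhalf hb).trans hg
    have h2 := h.anti n ⌊c * n⌋₊ hn1
    linarith
  · intro c hac
    have hc0 : 0 < c := by linarith
    have hc1 : (a + c) / 2 < c := by linarith
    have hc2 : a < (a + (a + c) / 2) / 2 := by linarith
    have hδ : 0 < (c - (a + c) / 2) / 2 := by linarith
    have hD' : 0 < c + 1 := by linarith
    obtain ⟨K, hK, n₀, hgap⟩ := window_gap h hD' hδ
    have hr : ∀ᶠ n : ℕ in atTop, rOf p D n < (a + (a + c) / 2) / 2 := (tendsto_order.1 ha).2 _ hc2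
    have hn : ∀ᶠ n : ℕ in atTop, 1 / ((c - (a + c) / 2) / 2) ≤ (n : ℝ) :=
      tendsto_natCast_atTop_atTop.eventually_ge_atTop _
    have hup2 : Tendsto (fun n : ℕ => 2 * (K / (fr n) ^ 2)) atTop (𝓝 0) := by
      simpa using (tendsto_K_div K).const_mul 2
    refine tendsto_of_tendsto_of_tendsto_of_le_of_le' tendsto_const_nhds hup2
      ((eventually_ge_atTop 1).mono (fun n hn1 => h.nonneg _ _ hn1)) ?_
    filter_upwards [hr, hn, hup, eventually_ge_atTop n₀, eventually_ge_atTop 1] with n hr hn hup hn0 hn1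
    have hnR : (0 : ℝ) < n := by exact_mod_cast hn1
    have hδn : 1 ≤ (c - (a + c) / 2) / 2 * n := by
      rw [div_le_iff₀ hδ] at hn
      linarith
    have hmm : (mmOf p D n : ℝ) < (a + (a + c) / 2) / 2 * n := by
      have : rOf p D n * n = mmOf p D n := r_mul hn1
      rw [← this]
      exact mul_lt_mul_of_pos_right hr hnR
    have hac' : 0 ≤ (a + c) / 2 := by linarith
    have hfl1 : (⌊((a + c) / 2) * n⌋₊ : ℝ) ≤ ((a + c) / 2) * n :=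
      Nat.floor_le (by positivity)
    have hfl2 := Nat.lt_floor_add_one (((a + c) / 2) * n)
    have hfl3 : (⌊c * n⌋₊ : ℝ) ≤ c * n := Nat.floor_le (by positivity)
    have hfl4 := Nat.lt_floor_add_one (c * n)
    -- the index just beyond the median
    have hgt : mmOf p D n < ⌊((a + c) / 2) * n⌋₊ := by
      have : (mmOf p D n : ℝ) < (⌊((a + c) / 2) * n⌋₊ : ℝ) := by nlinarith
      exact_mod_cast this
    obtain ⟨m, hm⟩ : ∃ m, ⌊((a + c) / 2) * n⌋₊ = m + 1 := ⟨⌊((a + c) / 2) * n⌋₊ - 1, by omega⟩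
    have hlt : p n (m + 1) < 1 / 2 := by
      rw [← hm]
      exact mm_lt h hn1 hup hgt
    have hmR : (m : ℝ) + 1 = (⌊((a + c) / 2) * n⌋₊ : ℝ) := by
      rw [hm]; push_cast; ring
    have hg := hgap n hn0 m ⌊c * n⌋₊ (by nlinarith) (by nlinarith)
    have hb : (1 / 2 : ℝ) ≤ 1 - p n (m + 1) := by linarith
    have h1 : (1 / 2) * p n ⌊c * n⌋₊ ≤ K / (fr n) ^ 2 :=
      (mul_le_mul_of_nonneg_right hb (h.nonneg _ _ hn1)).trans hg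
    linarith

end

end Vale.Agent.Lib.P170T
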