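import Vale.Agent.Lib.P170T.Model

/-!
Restriction in the iid-literal model: dropping the clauses touching the last variable compares
`n + 1` variables with a lazy version of `n` variables.
-/

namespace Vale.Agent.Lib.P170T

open Finset Vale.Agent.Lib.P170

set_option linter.unusedSectionVars false
set_option linter.unusedVariables false

section restr

variable {k n : ℕ}

/-- Forgetting the last variable. -/
def prLast (σ : Fin (n + 1) → Bool) : Fin n → Bool := fun i => σ (Fin.castSucc i)

/-- A clause on `n` variables seen on `n + 1` variables. -/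
def liftC (C : WClause k n) : WClause k (n + 1) := fun i => (Fin.castSucc (C i).1, (C i).2)

lemma liftC_injective : Function.Injective (liftC : WClause k n → WClause k (n + 1)) := by
  intro C D h
  funext i
  have h1 := congrFun h i
  simp only [liftC, Prod.mk.injEq] at h1
  exact Prod.ext (Fin.castSucc_injective _ h1.1) h1.2

lemma mem_solW_liftC {C : WClause k n} {σ : Fin (n + 1) → Bool} :
    σ ∈ solW (liftC C) ↔ prLast σ ∈ solW C := by
  rw [mem_solW, mem_solW]
  rfl

lemma image_inter_liftC (S : Finset (Fin (n + 1) → Bool)) (C : WClause k n) :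
    (S ∩ solW (liftC C)).image prLast = S.image prLast ∩ solW C := by
  ext τ
  simp only [Finset.mem_image, Finset.mem_inter]
  constructor
  · rintro ⟨σ, ⟨hσ, h2⟩, rfl⟩
    exact ⟨⟨σ, hσ, rfl⟩, mem_solW_liftC.mp h2⟩
  · rintro ⟨⟨σ, hσ, rfl⟩, h2⟩
    exact ⟨σ, ⟨hσ, mem_solW_liftC.mpr h2⟩, rfl⟩

lemma prLast_surjective : Function.Surjective (prLast : (Fin (n + 1) → Bool) → (Fin n → Bool)) := by
  intro τ
  refine ⟨Fin.snoc τ true, ?_⟩
  funext i
  simp [prLast]

lemma image_univ_prLast : (Finset.univ : Finset (Fin (n + 1) → Bool)).image prLast = Finset.univ := by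
  ext τ
  simp only [Finset.mem_image, Finset.mem_univ, true_and, iff_true]
  exact prLast_surjective τ

lemma g0_image_prLast (S : Finset (Fin (n + 1) → Bool)) :
    (g0 : Fn (Fin n → Bool)) (S.image prLast) = (g0 : Fn (Fin (n + 1) → Bool)) S := by
  rw [g0_eq_ite, g0_eq_ite]
  simp only [Finset.image_nonempty]

/-- The keep probability of one clause. -/
noncomputable def keepP (k n : ℕ) : ℝ := ((n : ℝ) / ((n : ℝ) + 1)) ^ k

lemma keepP_nonneg (k n : ℕ) : 0 ≤ keepP k n := by
  unfold keepP; positivity

lemma keepP_le_one (k n : ℕ) : keepP k n ≤ 1 := by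
  unfold keepP
  apply pow_le_one₀ (by positivity)
  rw [div_le_one (by positivity)]
  linarith

/-- One step of the comparison. -/
lemma one_step_restr (hn : 0 < n) {w : Fn (Fin n → Bool)} (hw : MonoFn w)
    (S : Finset (Fin (n + 1) → Bool)) :
    TW k (n + 1) (fun U => w (U.image prLast)) S ≤
      Lazy1 (solW : WClause k n → _) (keepP k n) w (S.image prLast) := by
  classical
  have i₀ := nonempty_WClause (j := k) hn
  have hn0 : (0 : ℝ) < n := by exact_mod_cast hn
  have hN : (0 : ℝ) < (2 * ((n : ℝ) + 1)) ^ k := by positivity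
  have hM : (0 : ℝ) < (2 * (n : ℝ)) ^ k := by positivity
  rw [Lazy1_apply, Avg_apply]
  unfold TW TT
  rw [Avg_apply, card_WClause, card_WClause]
  push_cast
  -- split the clauses
  set R : Finset (WClause k (n + 1)) := (Finset.univ : Finset (WClause k n)).image liftC with hR
  have hsplit := Finset.sum_add_sum_compl R (fun C => w ((S ∩ solW C).image prLast))
  have hfirst : ∑ C ∈ R, w ((S ∩ solW C).image prLast)
      = ∑ C : WClause k n, w (S.image prLast ∩ solW C) := by
    rw [hR, Finset.sum_image (fun a _ b _ h => liftC_injective h)]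
    exact Finset.sum_congr rfl (fun C _ => by rw [image_inter_liftC])
  have hsecond : ∑ C ∈ Rᶜ, w ((S ∩ solW C).image prLast) ≤ (Rᶜ.card : ℝ) * w (S.image prLast) := by
    rw [← nsmul_eq_mul]
    apply Finset.sum_le_card_nsmul
    intro C _
    apply hw
    exact Finset.image_subset_image Finset.inter_subset_left
  have hcardR : (R.card : ℝ) = (2 * (n : ℝ)) ^ k := by
    rw [hR, Finset.card_image_of_injective _ liftC_injective, Finset.card_univ, card_WClause]
  have hcard : (Rᶜ.card : ℝ) = (2 * ((n : ℝ) + 1)) ^ k - (2 * (n : ℝ)) ^ k := by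
    have h1 : Rᶜ.card + R.card = Fintype.card (WClause k (n + 1)) := Finset.card_compl_add_card R
    have h2 : (Rᶜ.card : ℝ) + (R.card : ℝ) = (Fintype.card (WClause k (n + 1)) : ℝ) := by
      exact_mod_cast h1
    rw [card_WClause, hcardR] at h2
    push_cast at h2
    linarith
  have hsum : ∑ C : WClause k (n + 1), w ((S ∩ solW C).image prLast)
      ≤ ∑ C : WClause k n, w (S.image prLast ∩ solW C)
        + ((2 * ((n : ℝ) + 1)) ^ k - (2 * (n : ℝ)) ^ k) * w (S.image prLast) := by
    rw [← hsplit, hfirst, ← hcard]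
    linarith
  have hkeep : keepP k n = (2 * (n : ℝ)) ^ k / (2 * ((n : ℝ) + 1)) ^ k := by
    unfold keepP
    rw [← div_pow]
    congr 1
    field_simp
  rw [hkeep, div_le_iff₀ hN]
  refine le_trans hsum (le_of_eq ?_)
  field_simp
  ring

/-- The lazy operator at level `n` preserves monotone functions. -/
lemma Lazy1_mono (hn : 0 < n) {a : ℝ} (h0 : 0 ≤ a) (h1 : a ≤ 1) {w : Fn (Fin n → Bool)}
    (hw : MonoFn w) : MonoFn (Lazy1 (solW : WClause k n → _) a w) := by
  have i₀ := nonempty_WClause (j := k) hn
  intro S T hST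
  rw [Lazy1_apply, Lazy1_apply]
  have h2 := Avg_monoPres (solW : WClause k n → _) w hw S T hST
  have h3 := hw S T hST
  have h4 := mul_le_mul_of_nonneg_left h3 (by linarith : 0 ≤ 1 - a)
  have h5 := mul_le_mul_of_nonneg_left h2 h0
  linarith

lemma Lazy1_pow_mono (hn : 0 < n) {a : ℝ} (h0 : 0 ≤ a) (h1 : a ≤ 1) {w : Fn (Fin n → Bool)}
    (hw : MonoFn w) (x : ℕ) : MonoFn (((Lazy1 (solW : WClause k n → _) a) ^ x) w) := by
  induction x with
  | zero => simpa using hw
  | succ x ih =>
    rw [pow_succ']
    exact Lazy1_mono hn h0 h1 ih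

/-- Iterating the comparison. -/
lemma iter_restr (hn : 0 < n) {w : Fn (Fin n → Bool)} (hw : MonoFn w) (x : ℕ)
    (S : Finset (Fin (n + 1) → Bool)) :
    ((TW k (n + 1)) ^ x) (fun U => w (U.image prLast)) S ≤
      ((Lazy1 (solW : WClause k n → _) (keepP k n)) ^ x) w (S.image prLast) := by
  have i₀ := nonempty_WClause (j := k) hn
  induction x generalizing S with
  | zero => simp
  | succ x ih =>
    rw [pow_succ', pow_succ']
    show TW k (n + 1) (((TW k (n + 1)) ^ x) (fun U => w (U.image prLast))) S ≤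
      Lazy1 (solW : WClause k n → _) (keepP k n)
        (((Lazy1 (solW : WClause k n → _) (keepP k n)) ^ x) w) (S.image prLast)
    have h1 : TW k (n + 1) (((TW k (n + 1)) ^ x) (fun U => w (U.image prLast))) S
        ≤ TW k (n + 1) (fun U => ((Lazy1 (solW : WClause k n → _) (keepP k n)) ^ x) w
            (U.image prLast)) S := Avg_orderPres _ _ _ (fun U => ih U) S
    refine h1.trans ?_
    exact one_step_restr hn
      (Lazy1_pow_mono hn (keepP_nonneg k n) (keepP_le_one k n) hw x) S

/-- The lazy form of the restriction inequality. -/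
theorem pW_succ_le_lazy (hn : 0 < n) (x : ℕ) :
    pW k (n + 1) x ≤
      ((Lazy1 (solW : WClause k n → _) (keepP k n)) ^ x) (g0 : Fn (Fin n → Bool)) Finset.univ := by
  have h := iter_restr (k := k) hn (g0_mono : MonoFn (g0 : Fn (Fin n → Bool))) x Finset.univ
  rw [image_univ_prLast] at h
  have e : (fun U : Finset (Fin (n + 1) → Bool) => (g0 : Fn (Fin n → Bool)) (U.image prLast))
      = g0 := by
    funext U
    exact g0_image_prLast U
  rw [e] at h
  exact h

/-- Restriction inequality, Chebyshev form. -/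
theorem restr_W (hn : 0 < n) {x i : ℕ} (hi : (i : ℝ) < (x : ℝ) * keepP k n) :
    pW k (n + 1) x ≤ pW k n i
      + ((x : ℝ) * keepP k n) / ((x : ℝ) * keepP k n - (i : ℝ)) ^ 2 := by
  have i₀ := nonempty_WClause (j := k) hn
  have h1 := pW_succ_le_lazy (k := k) hn x
  have h2 := lazy1_le (solW : WClause k n → _) (keepP_nonneg k n) (keepP_le_one k n) (m := i)
    (N := x) hi (Finset.univ : Finset (Fin n → Bool))
  exact h1.trans h2

end restr

section restrGen

variable {k N t : ℕ}

/-- A clause on `N` variables seen on `N + t` variables. -/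
def liftG (C : WClause k N) : WClause k (N + t) := fun i => (Fin.castAdd t (C i).1, (C i).2)

lemma liftG_injective : Function.Injective (liftG : WClause k N → WClause k (N + t)) := by
  intro C D h
  funext i
  have h1 := congrFun h i
  simp only [liftG, Prod.mk.injEq] at h1
  exact Prod.ext (Fin.castAdd_injective _ _ h1.1) h1.2

lemma mem_solW_liftG {C : WClause k N} {σ : Fin (N + t) → Bool} :
    σ ∈ solW (liftG C : WClause k (N + t)) ↔ resL σ ∈ solW C := by
  rw [mem_solW, mem_solW]
  rfl

lemma image_inter_liftG (S : Finset (Fin (N + t) → Bool)) (C : WClause k N) :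
    (S ∩ solW (liftG C : WClause k (N + t))).image resL = S.image resL ∩ solW C := by
  ext τ
  simp only [Finset.mem_image, Finset.mem_inter]
  constructor
  · rintro ⟨σ, ⟨hσ, h2⟩, rfl⟩
    exact ⟨⟨σ, hσ, rfl⟩, mem_solW_liftG.mp h2⟩
  · rintro ⟨⟨σ, hσ, rfl⟩, h2⟩
    exact ⟨σ, ⟨hσ, mem_solW_liftG.mpr h2⟩, rfl⟩

lemma resL_surjective : Function.Surjective (resL : (Fin (N + t) → Bool) → (Fin N → Bool)) := by
  intro τ
  refine ⟨Fin.append τ (fun _ => true), ?_⟩
  funext i
  simp [resL]

lemma image_univ_resL : (Finset.univ : Finset (Fin (N + t) → Bool)).image resL = Finset.univ := by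
  ext τ
  simp only [Finset.mem_image, Finset.mem_univ, true_and, iff_true]
  exact resL_surjective τ

lemma g0_image_resL (S : Finset (Fin (N + t) → Bool)) :
    (g0 : Fn (Fin N → Bool)) (S.image resL) = (g0 : Fn (Fin (N + t) → Bool)) S := by
  rw [g0_eq_ite, g0_eq_ite]
  simp only [Finset.image_nonempty]

/-- The keep probability of one clause for a block. -/
noncomputable def keepG (k N N' : ℕ) : ℝ := ((N : ℝ) / (N' : ℝ)) ^ k

lemma keepG_nonneg (k N N' : ℕ) : 0 ≤ keepG k N N' := by
  unfold keepG; positivity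

lemma keepG_le_one {N N' : ℕ} (k : ℕ) (h : N ≤ N') : keepG k N N' ≤ 1 := by
  unfold keepG
  apply pow_le_one₀ (by positivity)
  apply div_le_one_of_le₀ _ (by positivity)
  exact_mod_cast h

/-- One step of the comparison. -/
lemma one_step_restrG (hN : 0 < N) {w : Fn (Fin N → Bool)} (hw : MonoFn w)
    (S : Finset (Fin (N + t) → Bool)) :
    TW k (N + t) (fun U => w (U.image resL)) S ≤
      Lazy1 (solW : WClause k N → _) (keepG k N (N + t)) w (S.image resL) := by
  classical
  have i₀ := nonempty_WClause (j := k) hN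
  have hn0 : (0 : ℝ) < N := by exact_mod_cast hN
  have hN' : (0 : ℝ) < ((N + t : ℕ) : ℝ) := by push_cast; positivity
  have hNN : (0 : ℝ) < (2 * ((N + t : ℕ) : ℝ)) ^ k := by positivity
  have hM : (0 : ℝ) < (2 * (N : ℝ)) ^ k := by positivity
  rw [Lazy1_apply, Avg_apply]
  unfold TW TT
  rw [Avg_apply, card_WClause, card_WClause]
  -- split the clauses
  set R : Finset (WClause k (N + t)) := (Finset.univ : Finset (WClause k N)).image liftG with hR
  have hsplit := Finset.sum_add_sum_compl R (fun C => w ((S ∩ solW C).image resL))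
  have hfirst : ∑ C ∈ R, w ((S ∩ solW C).image resL)
      = ∑ C : WClause k N, w (S.image resL ∩ solW C) := by
    rw [hR, Finset.sum_image (fun a _ b _ h => liftG_injective h)]
    exact Finset.sum_congr rfl (fun C _ => by rw [image_inter_liftG])
  have hsecond : ∑ C ∈ Rᶜ, w ((S ∩ solW C).image resL) ≤ (Rᶜ.card : ℝ) * w (S.image resL) := by
    rw [← nsmul_eq_mul]
    apply Finset.sum_le_card_nsmul
    intro C _
    apply hw
    exact Finset.image_subset_image Finset.inter_subset_left
  have hcardR : (R.card : ℝ) = (2 * (N : ℝ)) ^ k := by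
    rw [hR, Finset.card_image_of_injective _ liftG_injective, Finset.card_univ, card_WClause]
  have hcard : (Rᶜ.card : ℝ) = (2 * ((N + t : ℕ) : ℝ)) ^ k - (2 * (N : ℝ)) ^ k := by
    have h1 : Rᶜ.card + R.card = Fintype.card (WClause k (N + t)) := Finset.card_compl_add_card R
    have h2 : (Rᶜ.card : ℝ) + (R.card : ℝ) = (Fintype.card (WClause k (N + t)) : ℝ) := by
      exact_mod_cast h1
    rw [card_WClause, hcardR] at h2
    linarith
  have hsum : ∑ C : WClause k (N + t), w ((S ∩ solW C).image resL)
      ≤ ∑ C : WClause k N, w (S.image resL ∩ solW C)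
        + ((2 * ((N + t : ℕ) : ℝ)) ^ k - (2 * (N : ℝ)) ^ k) * w (S.image resL) := by
    rw [← hsplit, hfirst, ← hcard]
    linarith
  have hkeep : keepG k N (N + t) = (2 * (N : ℝ)) ^ k / (2 * ((N + t : ℕ) : ℝ)) ^ k := by
    unfold keepG
    rw [← div_pow]
    congr 1
    field_simp
  rw [hkeep, div_le_iff₀ hNN]
  refine le_trans hsum (le_of_eq ?_)
  field_simp
  ring

/-- Iterating the comparison. -/
lemma iter_restrG (hN : 0 < N) {w : Fn (Fin N → Bool)} (hw : MonoFn w) (x : ℕ)
    (S : Finset (Fin (N + t) → Bool)) :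
    ((TW k (N + t)) ^ x) (fun U => w (U.image resL)) S ≤
      ((Lazy1 (solW : WClause k N → _) (keepG k N (N + t))) ^ x) w (S.image resL) := by
  have i₀ := nonempty_WClause (j := k) hN
  induction x generalizing S with
  | zero => simp
  | succ x ih =>
    rw [pow_succ', pow_succ']
    show TW k (N + t) (((TW k (N + t)) ^ x) (fun U => w (U.image resL))) S ≤
      Lazy1 (solW : WClause k N → _) (keepG k N (N + t))
        (((Lazy1 (solW : WClause k N → _) (keepG k N (N + t))) ^ x) w) (S.image resL)
    have h1 : TW k (N + t) (((TW k (N + t)) ^ x) (fun U => w (U.image resL))) S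
        ≤ TW k (N + t) (fun U => ((Lazy1 (solW : WClause k N → _) (keepG k N (N + t))) ^ x) w
            (U.image resL)) S := Avg_orderPres _ _ _ (fun U => ih U) S
    refine h1.trans ?_
    exact one_step_restrG hN
      (Lazy1_pow_mono hN (keepG_nonneg k N _) (keepG_le_one k (by omega)) hw x) S

/-- The lazy form of the block restriction inequality. -/
theorem pW_add_le_lazy (hN : 0 < N) (x : ℕ) :
    pW k (N + t) x ≤
      ((Lazy1 (solW : WClause k N → _) (keepG k N (N + t))) ^ x)
        (g0 : Fn (Fin N → Bool)) Finset.univ := by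
  have h := iter_restrG (k := k) (t := t) hN (g0_mono : MonoFn (g0 : Fn (Fin N → Bool))) x
    Finset.univ
  rw [image_univ_resL] at h
  have e : (fun U : Finset (Fin (N + t) → Bool) => (g0 : Fn (Fin N → Bool)) (U.image resL))
      = g0 := by
    funext U
    exact g0_image_resL U
  rw [e] at h
  exact h

/-- Block restriction inequality, Chebyshev form. -/
theorem restr_G {k N N' x i : ℕ} (hN : 0 < N) (hNN : N ≤ N')
    (hi : (i : ℝ) < (x : ℝ) * ((N : ℝ) / (N' : ℝ)) ^ k) :
    pW k N' x ≤ pW k N i
      + ((x : ℝ) * ((N : ℝ) / (N' : ℝ)) ^ k) / ((x : ℝ) * ((N : ℝ) / (N' : ℝ)) ^ k - (i : ℝ)) ^ 2 := by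
  obtain ⟨t, rfl⟩ := Nat.exists_eq_add_of_le hNN
  have i₀ := nonempty_WClause (j := k) hN
  have h1 := pW_add_le_lazy (k := k) (t := t) hN x
  have h2 := lazy1_le (solW : WClause k N → _) (keepG_nonneg k N (N + t))
    (keepG_le_one k (by omega)) (m := i) (N := x) hi (Finset.univ : Finset (Fin N → Bool))
  exact h1.trans h2

end restrGen

end Vale.Agent.Lib.P170T
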