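import Vale.Agent.Lib.P170T.Var

namespace Vale.Agent.Lib.P170T

open Finset Vale.Agent.Lib.P170

set_option linter.unusedSectionVars false
set_option linter.unusedVariables false

variable {j n : ℕ}

/-- The probability of satisfiability in the literal model. -/
noncomputable def pn (j n m : ℕ) : ℝ := ut j n m Finset.univ

lemma pn_nonneg [NeZero n] (m : ℕ) : 0 ≤ pn j n m := ut_nonneg _ _

lemma pn_le_one [NeZero n] (m : ℕ) : pn j n m ≤ 1 := ut_le_one _ _

lemma pn_zero : pn j n 0 = 1 := by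
  unfold pn
  rw [ut_zero]
  have : (Finset.univ : Finset (Asg n)).Nonempty := Finset.univ_nonempty
  simp [g0, this]

lemma pn_eq_QQ (m : ℕ) : pn j n m = QQ j n m 0 := rfl

lemma pn_succ_le (hn : 0 < n) (m : ℕ) : pn j n (m + 1) ≤ pn j n m :=
  QQ_anti_x (j := j) hn m 0

lemma pn_anti (hn : 0 < n) {a b : ℕ} (hab : a ≤ b) : pn j n b ≤ pn j n a := by
  induction hab with
  | refl => exact le_rfl
  | step _ ih => exact (pn_succ_le hn _).trans ih

/-! ### Numeric variance bound -/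

lemma abel_sq (q : ℕ → ℝ) (hq : ∀ t, q (t + 1) ≤ q t) (s : ℝ) (m : ℕ) :
    ((m : ℝ) + 1 - s) ^ 2 * q m - s ^ 2 * q 0 ≤
      ∑ t ∈ Finset.range (m + 1), (2 * (t : ℝ) + 1 - 2 * s) * q t := by
  induction m with
  | zero =>
    simp only [Nat.cast_zero, zero_add, Finset.sum_range_one]
    nlinarith
  | succ m ih =>
    rw [Finset.sum_range_succ]
    have h1 := mul_le_mul_of_nonneg_left (hq m) (sq_nonneg ((m : ℝ) + 1 - s))
    push_cast at ih ⊢
    nlinarith

lemma var_lower (q : ℕ → ℝ) (hq : ∀ t, q (t + 1) ≤ q t) (h0 : q 0 ≤ 1) (m : ℕ) (hm : 0 ≤ q m) :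
    (1 - q 0) * q m * ((m : ℝ) + 1) ^ 2 ≤
      ∑ t ∈ Finset.range (m + 1), (2 * (t : ℝ) + 1) * q t - (∑ t ∈ Finset.range (m + 1), q t) ^ 2 := by
  set s := ∑ t ∈ Finset.range (m + 1), q t with hs
  have h1 := abel_sq q hq s m
  have e : ∑ t ∈ Finset.range (m + 1), (2 * (t : ℝ) + 1 - 2 * s) * q t
      = ∑ t ∈ Finset.range (m + 1), (2 * (t : ℝ) + 1) * q t - 2 * s * s := by
    have e0 : ∀ t ∈ Finset.range (m + 1), (2 * (t : ℝ) + 1 - 2 * s) * q t
        = (2 * (t : ℝ) + 1) * q t - 2 * s * q t := fun t _ => by ring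
    rw [Finset.sum_congr rfl e0, Finset.sum_sub_distrib, ← Finset.mul_sum, ← hs]
  rw [e] at h1
  have hmq : q m ≤ q 0 := by
    clear h1 e
    induction m with
    | zero => exact le_rfl
    | succ m ih => exact (hq m).trans (ih (le_trans hm (hq m)) rfl)
  set a := 1 - q 0 with ha
  set b := q m with hb
  have ha0 : 0 ≤ a := by rw [ha]; linarith
  have hab : a + b ≤ 1 := by rw [ha]; linarith
  set w := (m : ℝ) + 1 - s with hw
  have h2 : a * b * ((m : ℝ) + 1) ^ 2 ≤ a * s ^ 2 + b * w ^ 2 := by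
    have e2 : (m : ℝ) + 1 = s + w := by rw [hw]; ring
    rw [e2]
    have h3 : 0 ≤ (a * s - b * w) ^ 2 := sq_nonneg _
    have h4 : 0 ≤ (1 - a - b) * (a * s ^ 2) := by
      apply mul_nonneg (by linarith)
      positivity
    have h5 : 0 ≤ (1 - a - b) * (b * w ^ 2) := by
      apply mul_nonneg (by linarith)
      positivity
    nlinarith
  have e3 : q 0 = 1 - a := by rw [ha]; ring
  rw [e3] at h1
  nlinarith

/-! ### The total variance bound -/

/-- Total of the integrand. -/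
noncomputable def Bnd (j n M m₂ : ℕ) : ℝ :=
  ∑ v ∈ Finset.range m₂, ((TT (j + 1) n) ^ v) (zz j n M) Finset.univ

lemma sum_shift_le (F : ℕ → ℝ) (hF : ∀ v, 0 ≤ F v) {c L m : ℕ} (h : c + L ≤ m) :
    ∑ s ∈ Finset.range L, F (c + s) ≤ ∑ v ∈ Finset.range m, F v := by
  have e : ∑ s ∈ Finset.range L, F (c + s) = ∑ v ∈ Finset.Ico c (c + L), F v := by
    rw [Finset.sum_Ico_eq_sum_range]
    simp
  rw [e]
  apply Finset.sum_le_sum_of_subset_of_nonneg
  · intro v hv
    simp only [Finset.mem_Ico, Finset.mem_range] at hv ⊢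
    omega
  · intro v _ _
    exact hF v

lemma CV_pow_le (hn : 0 < n) (e a : ℕ) {L M m₂ : ℕ} (hLM : L ≤ M) (h : e + a + L ≤ m₂) :
    ((TT (j + 1) n) ^ e) (CV j n (∑ t ∈ Finset.range L, ut j n (a + t))) Finset.univ
      ≤ Bnd j n M m₂ := by
  have : NeZero n := ⟨hn.ne'⟩
  have h1 := ((TT_markov (j + 1) n).pow e).ord
    (CV j n (∑ t ∈ Finset.range L, ut j n (a + t)))
    (∑ s ∈ Finset.range L, ((TT (j + 1) n) ^ (a + s)) (zz j n M))
    (fun S => by
      rw [Finset.sum_apply]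
      exact CV_le hn a hLM S) Finset.univ
  refine h1.trans ?_
  rw [map_sum, Finset.sum_apply]
  have e1 : ∀ s ∈ Finset.range L,
      ((TT (j + 1) n) ^ e) (((TT (j + 1) n) ^ (a + s)) (zz j n M)) Finset.univ
      = (fun v => ((TT (j + 1) n) ^ v) (zz j n M) Finset.univ) ((e + a) + s) := by
    intro s _
    have : e + a + s = e + (a + s) := by omega
    simp only [this]
    have h00 : (TT (j + 1) n) ^ (e + (a + s)) = (TT (j + 1) n) ^ e * (TT (j + 1) n) ^ (a + s) :=
      pow_add _ _ _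
    rw [h00]
    rfl
  rw [Finset.sum_congr rfl e1]
  unfold Bnd
  exact sum_shift_le _ (fun v => ((TT_markov (j + 1) n).pow v).nonneg (zz_nonneg hn M) _) h

lemma pow_succ_apply_add (A : Module.End ℝ (Fn (Asg n))) (e : ℕ) (f g : Fn (Asg n))
    (S : Finset (Asg n)) :
    (A ^ e) (fun S => A f S + g S) S = (A ^ (e + 1)) f S + (A ^ e) g S := by
  have : (fun S => A f S + g S) = A f + g := rfl
  rw [this, map_add]
  simp only [Pi.add_apply]
  rw [pow_succ]
  rfl

lemma V_zero_bound (hn : 0 < n) {M m₂ : ℕ} (L e : ℕ) (hL : L ≤ M) (h : e + L ≤ m₂) :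
    ((TT (j + 1) n) ^ e) (Vf j n 0 L) Finset.univ ≤ L * Bnd j n M m₂ := by
  have : NeZero n := ⟨hn.ne'⟩
  induction L generalizing e with
  | zero =>
    have : Vf j n 0 0 = (fun _ => 0) := by
      funext S
      exact Vf_zero_zero S
    rw [this, ((TT_markov (j + 1) n).pow e).const]
    simp
  | succ L ih =>
    have e1 : Vf j n 0 (L + 1) = fun S => TT (j + 1) n (Vf j n 0 L) S + CV j n (Pf j n L) S := by
      funext S
      exact Vf_zero_succ L S
    rw [e1, pow_succ_apply_add]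
    have h1 := ih (e + 1) (by omega) (by omega)
    have hP : Pf j n L = ∑ t ∈ Finset.range (L + 1), ut j n (0 + t) := by
      unfold Pf
      simp
    have h2 := CV_pow_le (j := j) hn e 0 (L := L + 1) (M := M) (m₂ := m₂) hL (by omega)
    rw [← hP] at h2
    push_cast
    linarith

lemma V_bound (hn : 0 < n) {M m₁ : ℕ} (d e : ℕ) (h : e + d = m₁) :
    ((TT (j + 1) n) ^ e) (Vf j n d M) Finset.univ ≤ (d + M) * Bnd j n M (m₁ + M) := by
  have : NeZero n := ⟨hn.ne'⟩
  induction d generalizing e with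
  | zero =>
    have h1 := V_zero_bound (j := j) hn (M := M) (m₂ := m₁ + M) M e le_rfl (by omega)
    simpa using h1
  | succ d ih =>
    have e1 : Vf j n (d + 1) M = fun S => TT (j + 1) n (Vf j n d M) S + CV j n (Rf j n d M) S := by
      funext S
      exact Vf_succ_d d M S
    rw [e1, pow_succ_apply_add]
    have h1 := ih (e + 1) (by omega)
    have hP : Rf j n d M = ∑ t ∈ Finset.range M, ut j n ((d + 1) + t) := by
      unfold Rf
      refine Finset.sum_congr rfl (fun t _ => ?_)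
      congr 1
      omega
    have h2 := CV_pow_le (j := j) hn e (d + 1) (L := M) (M := M) (m₂ := m₁ + M) le_rfl (by omega)
    rw [← hP] at h2
    push_cast
    linarith

/-- The variance at the top. -/
lemma Vf_univ (m₁ M : ℕ) :
    Vf j n m₁ M Finset.univ = ∑ t ∈ Finset.range M, (2 * (t : ℝ) + 1) * pn j n (m₁ + t + 1)
      - (∑ t ∈ Finset.range M, pn j n (m₁ + t + 1)) ^ 2 := by
  unfold Vf Wf Rf pn
  simp only [Finset.sum_apply, Pi.smul_apply, smul_eq_mul]

/-- The window inequality with the total integrand. -/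
theorem window_Bnd (hn : 0 < n) (m₁ m : ℕ) :
    (1 - pn j n (m₁ + 1)) * pn j n (m₁ + m + 1) * ((m : ℝ) + 1) ^ 2 ≤
      ((m₁ : ℝ) + (m + 1)) * Bnd j n (m + 1) (m₁ + (m + 1)) := by
  have : NeZero n := ⟨hn.ne'⟩
  have h1 := var_lower (fun t => pn j n (m₁ + t + 1)) (fun t => by
    have := pn_succ_le (j := j) hn (m₁ + t + 1)
    have e : m₁ + (t + 1) + 1 = m₁ + t + 1 + 1 := by omega
    simp only [e]
    exact this) (pn_le_one _) m (pn_nonneg _)
  simp only [add_zero] at h1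
  have h2 := V_bound (j := j) hn (M := m + 1) (m₁ := m₁) m₁ 0 (by omega)
  rw [pow_zero] at h2
  have h3 : (1 : Module.End ℝ (Fn (Asg n))) (Vf j n m₁ (m + 1)) Finset.univ
      = Vf j n m₁ (m + 1) Finset.univ := rfl
  rw [h3, Vf_univ] at h2
  push_cast at h2
  linarith

/-! ### Pointwise bound for the integrand -/

lemma ut_le_pow (hn : 0 < n) (t : ℕ) (S : Finset (Asg n)) :
    ut j n t S ≤ (1 - gg S ^ (j + 1)) ^ t * g0 S := by
  have : NeZero n := ⟨hn.ne'⟩
  induction t generalizing S with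
  | zero =>
    rw [ut_zero]; simp
  | succ t ih =>
    by_cases hS : S.Nonempty
    · have hK1 : gg S ^ (j + 1) ≤ 1 := pow_le_one₀ (gg_nonneg S) (gg_le_one hS)
      rw [ut_succ]
      have h1 : ∀ C : WCl (j + 1) n, ut j n t (S ∩ solW C)
          ≤ (1 - gg S ^ (j + 1)) ^ t * g0 (S ∩ solW C) := by
        intro C
        refine (ih _).trans ?_
        by_cases hC : (S ∩ solW C).Nonempty
        · apply mul_le_mul_of_nonneg_right _ (g0_nonneg _)
          apply pow_le_pow_left₀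
          · have := pow_le_one₀ (n := j + 1) (gg_nonneg (S ∩ solW C)) (gg_le_one hC)
            linarith
          · have : gg S ^ (j + 1) ≤ gg (S ∩ solW C) ^ (j + 1) :=
              pow_le_pow_left₀ (gg_nonneg S) (gg_anti Finset.inter_subset_left) _
            linarith
        · have hC' : S ∩ solW C = ∅ := Finset.not_nonempty_iff_eq_empty.mp hC
          rw [hC', g0_empty, mul_zero, mul_zero]
      have h2 := TT_g0 (j + 1) n hn S
      have hN : (0 : ℝ) < (Fintype.card (WCl (j + 1) n) : ℝ) := by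
        rw [card_WCl]; positivity
      have h3 : TT (j + 1) n (ut j n t) S ≤ (1 - gg S ^ (j + 1)) ^ t * TT (j + 1) n g0 S := by
        unfold TT
        rw [Avg_apply, Avg_apply, ← mul_div_assoc, Finset.mul_sum]
        exact div_le_div_of_nonneg_right (Finset.sum_le_sum (fun C _ => h1 C)) hN.le
      rw [h2] at h3
      refine h3.trans (le_of_eq ?_)
      ring
    · have hS' : S = ∅ := Finset.not_nonempty_iff_eq_empty.mp hS
      subst hS'
      rw [ut_empty, g0_empty]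
      simp

lemma geom_mul_le {K : ℝ} (h0 : 0 ≤ K) (h1 : K ≤ 1) (M : ℕ) :
    K * ∑ r ∈ Finset.range M, (1 - K) ^ (r + 1) ≤ 1 := by
  have key : K * ∑ r ∈ Finset.range M, (1 - K) ^ (r + 1) + (1 - K) ^ (M + 1) = 1 - K := by
    induction M with
    | zero => simp
    | succ M ih =>
      rw [Finset.sum_range_succ, mul_add, pow_succ (1 - K) (M + 1)]
      linear_combination ih
  have : 0 ≤ (1 - K) ^ (M + 1) := pow_nonneg (by linarith) _
  linarith

lemma geom_mul_le' {K : ℝ} (h0 : 0 ≤ K) (h1 : K ≤ 1) (M : ℕ) :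
    K * ∑ r ∈ Finset.range M, (1 - K) ^ (r + 1) ≤ M * K := by
  have h2 : ∑ r ∈ Finset.range M, (1 - K) ^ (r + 1) ≤ ∑ r ∈ Finset.range M, (1 : ℝ) :=
    Finset.sum_le_sum (fun r _ => pow_le_one₀ (by linarith) (by linarith))
  simp only [Finset.sum_const, Finset.card_range, nsmul_eq_mul, mul_one] at h2
  nlinarith

/-- The pointwise bound with an integer cube root. -/
lemma zz_le (hn : 0 < n) (hj : 2 ≤ j) {M R : ℕ} (hMR : M ≤ R ^ 3) (S : Finset (Asg n)) :
    zz j n M S ≤ kap j n S + 2 * (R * (gg S * g0 S)) := by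
  have : NeZero n := ⟨hn.ne'⟩
  unfold zz
  rw [kap_eq hn]
  by_cases hS : S.Nonempty
  · have hu : (g0 : Fn (Asg n)) S = 1 := by simp [g0, hS]
    rw [hu]
    simp only [mul_one]
    set g := gg S with hg
    have hg0 : 0 ≤ g := gg_nonneg S
    have hg1 : g ≤ 1 := gg_le_one hS
    set K := g ^ (j + 1) with hK
    have hK0 : 0 ≤ K := by positivity
    have hK1 : K ≤ 1 := pow_le_one₀ hg0 hg1
    have hY : Yf j n M S ≤ ∑ r ∈ Finset.range M, (1 - K) ^ (r + 1) := by
      unfold Yf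
      rw [Finset.sum_apply]
      apply Finset.sum_le_sum
      intro r _
      have := ut_le_pow (j := j) hn (r + 1) S
      rw [hu, mul_one] at this
      exact this
    have hKY : K * Yf j n M S ≤ R * g := by
      have h1 := mul_le_mul_of_nonneg_left hY hK0
      have hR0 : (0 : ℝ) ≤ (R : ℝ) := Nat.cast_nonneg R
      by_cases hRg : 1 ≤ (R : ℝ) * g
      · exact (h1.trans (geom_mul_le hK0 hK1 M)).trans hRg
      · push Not at hRg
        have h2 := h1.trans (geom_mul_le' hK0 hK1 M)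
        have hK3 : K ≤ g ^ 3 := pow_le_pow_of_le_one hg0 hg1 (by omega)
        have hM : (M : ℝ) ≤ (R : ℝ) ^ 3 := by exact_mod_cast hMR
        have h3 : (M : ℝ) * K ≤ (R : ℝ) ^ 3 * g ^ 3 :=
          mul_le_mul hM hK3 hK0 (by positivity)
        have h4 : (R : ℝ) ^ 3 * g ^ 3 = ((R : ℝ) * g) ^ 3 := by ring
        have h5 : ((R : ℝ) * g) ^ 3 ≤ (R : ℝ) * g := by
          have h6 : 0 ≤ (R : ℝ) * g := by positivity
          calc ((R : ℝ) * g) ^ 3 ≤ ((R : ℝ) * g) ^ 1 := pow_le_pow_of_le_one h6 hRg.le (by norm_num)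
            _ = _ := pow_one _
        linarith
    nlinarith
  · have hS' : S = ∅ := Finset.not_nonempty_iff_eq_empty.mp hS
    subst hS'
    simp [g0_empty]

lemma sum_kap_le (hn : 0 < n) (m : ℕ) :
    ∑ v ∈ Finset.range m, ((TT (j + 1) n) ^ v) (kap j n) Finset.univ ≤ 1 := by
  have : NeZero n := ⟨hn.ne'⟩
  have h1 : ∀ v ∈ Finset.range m, ((TT (j + 1) n) ^ v) (kap j n) Finset.univ
      = pn j n v - pn j n (v + 1) := by
    intro v _
    have e : kap j n = g0 - TT (j + 1) n g0 := rfl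
    rw [e, map_sub]
    have h2 : pn j n (v + 1) = ((TT (j + 1) n) ^ v) (TT (j + 1) n g0) Finset.univ := by
      unfold pn ut
      rw [pow_succ]
      rfl
    rw [h2]
    rfl
  rw [Finset.sum_congr rfl h1, Finset.sum_range_sub']
  have := pn_nonneg (j := j) (n := n) m
  have := pn_le_one (j := j) (n := n) 0
  linarith

lemma Bnd_le (hn : 0 < n) (hj : 2 ≤ j) {M R : ℕ} (hMR : M ≤ R ^ 3) (m : ℕ) :
    Bnd j n M (m + 1) ≤ 1 + 2 * (R * GG j n m 0) := by
  have : NeZero n := ⟨hn.ne'⟩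
  unfold Bnd GG
  have h1 : ∀ v ∈ Finset.range (m + 1), ((TT (j + 1) n) ^ v) (zz j n M) Finset.univ
      ≤ ((TT (j + 1) n) ^ v) (kap j n) Finset.univ + 2 * (R * bb j n v 0) := by
    intro v _
    have h2 := ((TT_markov (j + 1) n).pow v).ord _ _ (fun S => zz_le (j := j) hn hj hMR S) Finset.univ
    refine h2.trans (le_of_eq ?_)
    have e : (fun S : Finset (Asg n) => kap j n S + 2 * (R * (gg S * g0 S)))
        = kap j n + (2 * (R : ℝ)) • (fun S : Finset (Asg n) => gg S * g0 S) := by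
      funext S
      simp only [Pi.add_apply, Pi.smul_apply, smul_eq_mul]
      ring
    rw [e, map_add, map_smul]
    simp only [Pi.add_apply, Pi.smul_apply, smul_eq_mul]
    unfold bb opE
    simp only [pow_zero, mul_one]
    ring
  refine (Finset.sum_le_sum h1).trans ?_
  rw [Finset.sum_add_distrib, ← Finset.mul_sum, ← Finset.mul_sum]
  have := sum_kap_le (j := j) hn (m + 1)
  linarith

/-- The window inequality, combinatorial form. -/
theorem window_ineq (hn : 0 < n) (hj : 2 ≤ j) (m₁ m : ℕ) {R : ℕ} (hMR : m + 1 ≤ R ^ 3) :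
    (1 - pn j n (m₁ + 1)) * pn j n (m₁ + m + 1) * ((m : ℝ) + 1) ^ 2 ≤
      ((m₁ : ℝ) + (m + 1)) * (1 + 2 * (R * GG j n (m₁ + m) 0)) := by
  have h1 := window_Bnd (j := j) hn m₁ m
  have h2 := Bnd_le (j := j) hn hj hMR (m₁ + m)
  have e : m₁ + (m + 1) = m₁ + m + 1 := by omega
  rw [e] at h1
  refine h1.trans ?_
  exact mul_le_mul_of_nonneg_left h2 (by positivity)

/-- The window inequality with Theorem A. -/
theorem window_final (hj : 2 ≤ j) {c₃ : ℝ} (hc₃ : 0 < c₃) :
    ∃ U : ℝ, 0 ≤ U ∧ ∃ N₀ : ℕ, 0 < N₀ ∧ ∀ N ≥ N₀, ∀ m₁ m R : ℕ, m + 1 ≤ R ^ 3 →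
      ((m₁ + m + 1 : ℕ) : ℝ) ≤ c₃ * N →
      (1 - pn j N (m₁ + 1)) * pn j N (m₁ + m + 1) * ((m : ℝ) + 1) ^ 2 ≤
        c₃ * N * (1 + 2 * (R * U)) := by
  obtain ⟨U, hU0, N₁, hN₁⟩ := thmA hj hc₃
  refine ⟨U, hU0, N₁ + 1, Nat.succ_pos _, fun N hN m₁ m R hR hm => ?_⟩
  have hNpos : 0 < N := by omega
  have h1 := window_ineq (j := j) hNpos hj m₁ m hR
  have h2 : GG j N (m₁ + m) 0 ≤ U := hN₁ N (by omega) _ (by
    have : ((m₁ + m : ℕ) : ℝ) ≤ ((m₁ + m + 1 : ℕ) : ℝ) := by push_cast; linarith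
    linarith)
  have h3 : 1 + 2 * ((R : ℝ) * GG j N (m₁ + m) 0) ≤ 1 + 2 * (R * U) := by
    have := mul_le_mul_of_nonneg_left h2 (Nat.cast_nonneg R : (0 : ℝ) ≤ R)
    linarith
  have h4 : (0 : ℝ) ≤ 1 + 2 * ((R : ℝ) * GG j N (m₁ + m) 0) := by
    have : NeZero N := ⟨hNpos.ne'⟩
    have := GG_nonneg (j := j) (n := N) (m₁ + m) 0
    positivity
  push_cast at hm
  calc _ ≤ _ := h1
    _ ≤ ((m₁ : ℝ) + (m + 1)) * (1 + 2 * (R * U)) := mul_le_mul_of_nonneg_left h3 (by positivity)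
    _ ≤ _ := by
      apply mul_le_mul_of_nonneg_right _ (by positivity)
      linarith

end Vale.Agent.Lib.P170T
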