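import Vale.Agent.Lib.P170T.MixW
import Vale.Agent.Lib.P170T.RestrW
import Vale.Agent.Lib.P170T.FirstW
import Vale.Agent.Lib.P170T.Window
import Vale.Agent.Lib.P170T.Limit

/-!
The limiting threshold in the iid-literal model.
-/

namespace Vale.Agent.Lib.P170T

open Finset Vale.Agent.Lib.P170 Filter Topology

set_option linter.unusedSectionVars false
set_option linter.unusedVariables false

lemma pW_eq_pn (j n m : ℕ) : pW (j + 1) n m = pn j n m := rfl

/-- One clause kills with probability at most the mean frozen fraction. -/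
lemma QQ_step_le {j n : ℕ} (hn : 0 < n) (x : ℕ) :
    QQ j n x 0 - QQ j n (x + 1) 0 ≤ bb j n x 0 := by
  have : NeZero n := ⟨hn.ne'⟩
  rw [QQ_sub_x hn]
  unfold bb
  apply (opE_markov j n x 0).ord
  intro S
  by_cases hS : S.Nonempty
  · have h1 : (g0 : Fn (Asg n)) S = 1 := by
      unfold g0
      rw [if_pos hS]
    simp only [h1, mul_one]
    exact pow_le_of_le_one (gg_nonneg S) (gg_le_one hS) (by omega)
  · have h1 : (g0 : Fn (Asg n)) S = 0 := by
      unfold g0
      rw [if_neg hS]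
    simp only [h1, mul_zero]
    exact le_rfl

/-- Survival from the mean frozen fraction. -/
lemma one_sub_GG_le {j n : ℕ} (hn : 0 < n) (X : ℕ) : 1 - GG j n X 0 ≤ pn j n X := by
  have : NeZero n := ⟨hn.ne'⟩
  have hsum : ∀ Y : ℕ, 1 - ∑ x ∈ Finset.range Y, bb j n x 0 ≤ pn j n Y := by
    intro Y
    induction Y with
    | zero =>
      rw [Finset.sum_range_zero, pn_zero]
      norm_num
    | succ Y ih =>
      rw [Finset.sum_range_succ]
      have h := QQ_step_le (j := j) hn Y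
      rw [← pn_eq_QQ, ← pn_eq_QQ] at h
      linarith
  have h := hsum X
  have h2 : ∑ x ∈ Finset.range X, bb j n x 0 ≤ GG j n X 0 := by
    unfold GG
    rw [Finset.sum_range_succ]
    linarith [bb_nonneg (j := j) (n := n) X 0]
  linarith

/-- All the hypotheses of the limit theorem. -/
theorem limitHyp_W {j : ℕ} (hj : 2 ≤ j) : LimitHyp (j + 1) (pW (j + 1)) where
  one_le_k := by omega
  nonneg := fun n m hn => pW_nonneg (by omega) m
  le_one := fun n m hn => pW_le_one (by omega) m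
  zero := fun n hn => pW_zero _ n
  anti := fun n m hn => pW_anti (by omega) (Nat.le_succ m)
  window := by
    intro D hD
    obtain ⟨U, hU, N₀, hN₀, h⟩ := window_final (j := j) hj (c₃ := D + 1) (by linarith)
    refine ⟨(D + 1) * (1 + 2 * U), by positivity, N₀, ?_⟩
    intro n hn m M R hmM hMR hR
    rcases Nat.eq_zero_or_pos M with hM0 | hMpos
    · subst hM0
      simp only [Nat.cast_zero, ne_eq, OfNat.ofNat_ne_zero, not_false_eq_true, zero_pow, mul_zero]
      positivity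
    obtain ⟨M', rfl⟩ : ∃ M', M = M' + 1 := ⟨M - 1, by omega⟩
    have hnpos : (0 : ℝ) ≤ n := Nat.cast_nonneg n
    have hRr : (1 : ℝ) ≤ R := by exact_mod_cast hR
    have h1 := h n hn m M' R hMR (by
      push_cast at hmM ⊢
      nlinarith)
    have e1 : m + (M' + 1) = m + M' + 1 := by omega
    rw [pW_eq_pn, pW_eq_pn, e1]
    push_cast
    refine h1.trans ?_
    have h2 : (1 : ℝ) + 2 * ((R : ℝ) * U) ≤ (1 + 2 * U) * R := by nlinarith
    calc (D + 1) * (n : ℝ) * (1 + 2 * ((R : ℝ) * U))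
        ≤ (D + 1) * (n : ℝ) * ((1 + 2 * U) * R) :=
          mul_le_mul_of_nonneg_left h2 (by positivity)
      _ = (D + 1) * (1 + 2 * U) * n * R := by ring
  upper := by
    obtain ⟨D, hD, h⟩ := upperW (j + 1) (by omega)
    exact ⟨D, hD, 1, fun n hn => h n hn⟩
  lower := by
    obtain ⟨c₀, hc₀, N₀, h⟩ := thmA_small (j := j) (by omega)
    refine ⟨c₀, hc₀, N₀ + 1, ?_⟩
    intro n hn
    have hn0 : 0 < n := by omega
    have hX : ((⌊c₀ * (n : ℝ)⌋₊ : ℕ) : ℝ) ≤ c₀ * n := Nat.floor_le (by positivity)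
    have h1 := h n (by omega) _ hX
    have h2 := one_sub_GG_le (j := j) hn0 ⌊c₀ * (n : ℝ)⌋₊
    rw [pW_eq_pn]
    linarith
  mix := by
    intro n₁ n₂ x J₁ J₂ t hn₁ hn₂ ht h₁ h₂
    have e : ∀ a : ℕ, (x : ℝ) * ((a : ℝ) / ((n₁ + n₂ : ℕ) : ℝ)) = (x : ℝ) * a / ((n₁ : ℝ) + n₂) := by
      intro a
      push_cast
      rw [mul_div_assoc]
    have := mix_W (k := j + 1) (by omega) (n₁ := n₁) (n₂ := n₂) (by omega) (by omega)
      (x := x) (J₁ := J₁) (J₂ := J₂) ht (by rw [e]; exact h₁) (by rw [e]; exact h₂)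
    rw [mul_assoc]
    exact this
  res := by
    intro N N' x i hN hNN hi
    exact restr_G (by omega) hNN hi

/-- The limiting threshold in the iid-literal model. -/
theorem threshold_W {k : ℕ} (hk : 3 ≤ k) :
    ∃ α : ℝ, 0 < α ∧
      (∀ c : ℝ, 0 ≤ c → c < α → Tendsto (fun n : ℕ => pW k n ⌊c * n⌋₊) atTop (𝓝 1)) ∧
      (∀ c : ℝ, α < c → Tendsto (fun n : ℕ => pW k n ⌊c * n⌋₊) atTop (𝓝 0)) := by
  obtain ⟨j, rfl⟩ : ∃ j, k = j + 1 := ⟨k - 1, by omega⟩
  exact limit_exists (limitHyp_W (by omega))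

end Vale.Agent.Lib.P170T
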