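import Vale.Agent.Lib.P170T.Chain

namespace Vale.Agent.Lib.P170T

open Finset Vale.Agent.Lib.P170 Filter Topology

set_option linter.unusedSectionVars false
set_option linter.unusedVariables false

variable {j : ℕ}

/-- Comparison of any large size with a fixed size. -/
lemma rr_liminf (hj : 2 ≤ j) : ∃ N₀ : ℕ, 3 ≤ N₀ ∧ ∀ n ≥ N₀, ∀ ε : ℝ, 0 < ε →
    ∃ N₁ : ℕ, ∀ N ≥ N₁, rr j n - 10 * C1 j * ww n - ε ≤ rr j N := by
  obtain ⟨N₀, h3, hN₀⟩ := low_high hj
  refine ⟨N₀, h3, fun n hn ε hε => ?_⟩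
  have hnpos : 0 < n := by omega
  -- the error function tends to zero
  set c : ℝ := (j : ℝ) * cap j * n with hc
  set d : ℝ := Real.sqrt (2 * cap j) with hd
  have hT : Tendsto (fun N : ℕ => c * ww N ^ 4 + (d * ww N ^ 2 + 2 * ww N ^ 4) + 8 * ww N) atTop (𝓝 0) := by
    have h := tendsto_ww
    have h1 := ((h.pow 4).const_mul c).add (((h.pow 2).const_mul d).add ((h.pow 4).const_mul 2))
    have h2 := h1.add (h.const_mul 8)
    simpa using h2
  obtain ⟨N₂, hN₂⟩ := ((tendsto_order.1 hT).2 ε hε).exists_forall_of_atTop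
  refine ⟨max N₂ (max n 1), fun N hN => ?_⟩
  have h1 : N₂ ≤ N := le_trans (le_max_left _ _) hN
  have h2 : n ≤ N := le_trans (le_trans (le_max_left _ _) (le_max_right _ _)) hN
  have hNpos : 0 < N := by omega
  have hNr : (0 : ℝ) < N := by exact_mod_cast hNpos
  have hnr : (0 : ℝ) < n := by exact_mod_cast hnpos
  -- the next multiple
  set q := N / n + 1 with hq
  have hqle : q * n ≤ N + n := by
    have h0 : N / n * n ≤ N := Nat.div_mul_le_self _ _
    have e : q * n = N / n * n + n := by rw [hq]; ring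
    omega
  have hNq : N ≤ q * n := by
    have h0 := Nat.lt_mul_div_succ N hnpos
    rw [mul_comm] at h0
    exact h0.le
  have hq1 : 1 ≤ q := Nat.le_add_left 1 _
  set N' := q * n with hN'
  have hN'le : N' ≤ N + n := hqle
  have hN'pos : 0 < N' := by omega
  have hN'r : (0 : ℝ) < N' := by exact_mod_cast hN'pos
  have hm := rr_mult h3 (fun N hN => (hN₀ N hN).1) hn q hq1
  have hN₀N : N₀ ≤ N := hn.trans h2
  have hres := rr_restrict hj h3 (fun N hN => (hN₀ N hN).2) hN₀N hNq
  have hw' : 0 ≤ ww N' := ww_nonneg _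
  have hC := C1_pos j
  -- bounds on the error terms
  have hle1 : (N : ℝ) ≤ N' := by exact_mod_cast hNq
  have hle2 : (N' : ℝ) ≤ N + n := by
    have : N' ≤ N + n := by omega
    exact_mod_cast this
  have hle3 : (N' : ℝ) ≤ 2 * N := by
    have : (n : ℝ) ≤ N := by exact_mod_cast h2
    linarith
  have hw4 : ww N ^ 4 = 1 / (N : ℝ) := ww_pow_four hNpos
  have hw2 : ww N ^ 2 = 1 / Real.sqrt N := ww_sq hNpos
  have hj0 : (0 : ℝ) ≤ (j : ℝ) := Nat.cast_nonneg j
  have hcap0 : (0 : ℝ) ≤ (cap j : ℝ) := Nat.cast_nonneg _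
  have e1 : (j : ℝ) * cap j * (((N' : ℝ) - N) / N') ≤ c * ww N ^ 4 := by
    rw [hw4, hc]
    have h3 : ((N' : ℝ) - N) / N' ≤ n * (1 / N) := by
      rw [div_le_iff₀ hN'r]
      have : (n : ℝ) * (1 / N) * N' ≥ n := by
        have : (1 : ℝ) ≤ (N' : ℝ) / N := by
          rw [le_div_iff₀ hNr]
          linarith
        calc (n : ℝ) = n * 1 := by ring
          _ ≤ n * ((N' : ℝ) / N) := mul_le_mul_of_nonneg_left this hnr.le
          _ = _ := by ring
      linarith
    have h4 := mul_le_mul_of_nonneg_left h3 (by positivity : (0 : ℝ) ≤ (j : ℝ) * cap j)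
    refine h4.trans (le_of_eq ?_)
    ring
  have e2 : (Real.sqrt (cap j * (N' : ℝ)) + 2) / N ≤ d * ww N ^ 2 + 2 * ww N ^ 4 := by
    rw [hw4, hw2]
    have h3 : Real.sqrt (cap j * (N' : ℝ)) ≤ d * Real.sqrt N := by
      rw [hd, ← Real.sqrt_mul (by positivity)]
      apply Real.sqrt_le_sqrt
      nlinarith
    have hsN : 0 < Real.sqrt N := Real.sqrt_pos.mpr hNr
    have h4 : Real.sqrt N / N = 1 / Real.sqrt N := by
      have : (N : ℝ) = Real.sqrt N * Real.sqrt N := (Real.mul_self_sqrt hNr.le).symm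
      field_simp
      nlinarith
    calc (Real.sqrt (cap j * (N' : ℝ)) + 2) / N ≤ (d * Real.sqrt N + 2) / N :=
          div_le_div_of_nonneg_right (by linarith) hNr.le
      _ = d * (Real.sqrt N / N) + 2 * (1 / N) := by ring
      _ = _ := by rw [h4]
  have hlt := hN₂ N h1
  have hmm : rr j n - 10 * C1 j * ww n ≤ rr j N' := by
    have : 0 ≤ 10 * C1 j * ww N' := by positivity
    nlinarith
  linarith

/-- The median density converges. -/
theorem rr_tendsto (hj : 2 ≤ j) : ∃ α : ℝ, Tendsto (rr j) atTop (𝓝 α) := by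
  obtain ⟨N₀, h3, hN₀⟩ := rr_liminf hj
  have hbddA : IsBoundedUnder (· ≤ ·) atTop (rr j) :=
    isBoundedUnder_of_eventually_le (a := (cap j : ℝ))
      (eventually_atTop.2 ⟨3, fun n hn => rr_le_cap hn⟩)
  have hbddB : IsBoundedUnder (· ≥ ·) atTop (rr j) :=
    isBoundedUnder_of_eventually_ge (a := (0 : ℝ)) (Eventually.of_forall (fun n => rr_nonneg j n))
  refine ⟨limsup (rr j) atTop, ?_⟩
  rw [tendsto_order]
  constructor
  · intro y hy
    set y' := (y + limsup (rr j) atTop) / 2 with hy'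
    have h1 : y < y' := by rw [hy']; linarith
    have h2 : y' < limsup (rr j) atTop := by rw [hy']; linarith
    have hfreq := frequently_lt_of_lt_limsup hbddB.isCoboundedUnder_flip h2
    -- the error
    set δ := (y' - y) / 2 with hδ
    have hδ0 : 0 < δ := by rw [hδ]; linarith
    have hC : Tendsto (fun n => 10 * C1 j * ww n) atTop (𝓝 0) := by
      have := tendsto_ww.const_mul (10 * C1 j)
      simpa using this
    have hev := (tendsto_order.1 hC).2 δ hδ0
    obtain ⟨n, hn1, hn2, hn3⟩ := (hfreq.and_eventually (hev.and (eventually_ge_atTop N₀))).exists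
    obtain ⟨N₁, hN₁⟩ := hN₀ n hn3 δ hδ0
    refine eventually_atTop.2 ⟨N₁, fun N hN => ?_⟩
    have := hN₁ N hN
    have e : y' - δ - δ = y := by rw [hδ]; ring
    linarith
  · intro y hy
    exact eventually_lt_of_limsup_lt hy hbddA

end Vale.Agent.Lib.P170T
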