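import Vale.Agent.Lib.P170T.Sharp

namespace Vale.Agent.Lib.P170T

open Finset Vale.Agent.Lib.P170 Filter Topology

set_option linter.unusedSectionVars false
set_option linter.unusedVariables false

variable {k n : ℕ}

/-- A literal tuple on distinct variables. -/
def isP (C : WCl k n) : Prop := Function.Injective (fun i => (C i).1)

open Classical in
/-- The proper tuples. -/
noncomputable def PT (k n : ℕ) : Finset (WCl k n) := Finset.univ.filter isP

lemma mem_PT {C : WCl k n} : C ∈ PT k n ↔ isP C := by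
  simp [PT]

open Classical in
/-- The underlying literal set. -/
noncomputable def valC (C : WCl k n) : Finset (Lit n) := Finset.univ.image C

lemma mem_valC {C : WCl k n} {l : Lit n} : l ∈ valC C ↔ ∃ i, C i = l := by
  classical
  simp [valC]

open Classical in
/-- The assignments satisfying a literal set. -/
noncomputable def solF (L : Finset (Lit n)) : Finset (Asg n) :=
  Finset.univ.filter (fun σ => ∃ l ∈ L, σ l.1 = l.2)

lemma mem_solF {L : Finset (Lit n)} {σ : Asg n} : σ ∈ solF L ↔ ∃ l ∈ L, σ l.1 = l.2 := by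
  simp [solF]

lemma solW_eq (C : WCl k n) : solW C = solF (valC C) := by
  ext σ
  simp only [mem_solW, mem_solF, mem_valC]
  constructor
  · rintro ⟨i, hi⟩
    exact ⟨C i, ⟨i, rfl⟩, hi⟩
  · rintro ⟨l, ⟨i, rfl⟩, hl⟩
    exact ⟨i, hl⟩

lemma sol_eq (D : Clause k n) : sol D = solF D.1 := by
  ext σ
  simp only [mem_sol, mem_solF]
  rfl

open Classical in
/-- The sets of literals underlying proper clauses. -/
noncomputable def CLs (k n : ℕ) : Finset (Finset (Lit n)) :=
  Finset.univ.filter (fun L => L.card = k ∧ Set.InjOn Prod.fst (L : Set (Lit n)))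

lemma mem_CLs {L : Finset (Lit n)} :
    L ∈ CLs k n ↔ L.card = k ∧ Set.InjOn Prod.fst (L : Set (Lit n)) := by
  simp [CLs]

lemma sum_Clause (G : Finset (Lit n) → ℝ) :
    ∑ D : Clause k n, G D.1 = ∑ L ∈ CLs k n, G L := by
  apply Finset.sum_bij (fun D _ => D.1)
  · intro D _
    exact mem_CLs.mpr D.2
  · intro D _ E _ h
    exact Subtype.ext h
  · intro L hL
    exact ⟨⟨L, mem_CLs.mp hL⟩, Finset.mem_univ _, rfl⟩
  · intro _ _
    rfl

lemma valC_mem_CLs {C : WCl k n} (hC : isP C) : valC C ∈ CLs k n := by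
  classical
  have hinj : Function.Injective C := fun a b h => hC (by simp only [h])
  rw [mem_CLs]
  constructor
  · unfold valC
    rw [Finset.card_image_of_injective _ hinj]
    simp
  · intro x hx y hy hxy
    obtain ⟨i, rfl⟩ := mem_valC.mp (Finset.mem_coe.mp hx)
    obtain ⟨i', rfl⟩ := mem_valC.mp (Finset.mem_coe.mp hy)
    rw [hC hxy]

lemma isP_injective {C : WCl k n} (hC : isP C) : Function.Injective C := by
  intro a b h
  apply hC
  simp only [h]

open Classical in
/-- Each proper clause has `k!` orderings. -/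
lemma card_fiber {L : Finset (Lit n)} (hL : L ∈ CLs k n) :
    ((PT k n).filter (fun C => valC C = L)).card = k.factorial := by
  obtain ⟨hcard, hinj⟩ := mem_CLs.mp hL
  set φ : (Fin k ↪ L) → WCl k n := fun e i => (e i : Lit n) with hφ
  have hφinj : Function.Injective φ := by
    intro e e' h
    apply Function.Embedding.ext
    intro i
    exact Subtype.ext (congrFun h i)
  have himg : (PT k n).filter (fun C => valC C = L) = Finset.univ.image φ := by
    ext C
    simp only [Finset.mem_filter, mem_PT, Finset.mem_image, Finset.mem_univ, true_and]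
    constructor
    · rintro ⟨hC, hval⟩
      have hmem : ∀ i, C i ∈ L := fun i => hval ▸ mem_valC.mpr ⟨i, rfl⟩
      refine ⟨⟨fun i => ⟨C i, hmem i⟩, ?_⟩, ?_⟩
      · intro a b h
        exact isP_injective hC (congrArg Subtype.val h)
      · funext i
        rfl
    · rintro ⟨e, rfl⟩
      have hP : isP (φ e) := by
        intro a b h
        have h1 := hinj (e a).2 (e b).2 h
        exact e.injective (Subtype.ext h1)
      refine ⟨hP, ?_⟩
      apply Finset.eq_of_subset_of_card_le
      · intro l hl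
        obtain ⟨i, rfl⟩ := mem_valC.mp hl
        exact (e i).2
      · unfold valC
        rw [Finset.card_image_of_injective _ (isP_injective hP), hcard]
        simp
  rw [himg, Finset.card_image_of_injective _ hφinj, Finset.card_univ, Fintype.card_embedding_eq]
  simp [hcard, Nat.descFactorial_self]

/-- Summing over proper tuples. -/
lemma sum_PT (G : Finset (Lit n) → ℝ) :
    ∑ C ∈ PT k n, G (valC C) = (k.factorial : ℝ) * ∑ D : Clause k n, G D.1 := by
  classical
  rw [sum_Clause, ← Finset.sum_fiberwise_of_maps_to (s := PT k n) (t := CLs k n) (g := valC)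
    (fun C hC => valC_mem_CLs (mem_PT.mp hC)), Finset.mul_sum]
  refine Finset.sum_congr rfl (fun L hL => ?_)
  have h1 : ∀ C ∈ (PT k n).filter (fun C => valC C = L), G (valC C) = G L := by
    intro C hC
    rw [(Finset.mem_filter.mp hC).2]
  rw [Finset.sum_congr rfl h1, Finset.sum_const, card_fiber hL, nsmul_eq_mul]

/-- The proper probability. -/
noncomputable def ppi (k n : ℕ) : ℝ := (k.factorial : ℝ) * (Fintype.card (Clause k n) : ℝ) / (2 * (n : ℝ)) ^ k

lemma card_PT : ((PT k n).card : ℝ) = (k.factorial : ℝ) * (Fintype.card (Clause k n) : ℝ) := by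
  have h := sum_PT (k := k) (n := n) (fun _ => 1)
  simp only [Finset.sum_const, nsmul_eq_mul, mul_one, Finset.card_univ] at h
  exact h

lemma ppi_nonneg (k n : ℕ) : 0 ≤ ppi k n := by unfold ppi; positivity

lemma ppi_le_one (hn : 0 < n) : ppi k n ≤ 1 := by
  classical
  have hn' : (0 : ℝ) < n := by exact_mod_cast hn
  unfold ppi
  rw [div_le_one (by positivity), ← card_PT]
  have h1 : (PT k n).card ≤ Fintype.card (WCl k n) := Finset.card_le_univ _
  rw [card_WCl] at h1
  have h2 : (((PT k n).card : ℕ) : ℝ) ≤ (((2 * n) ^ k : ℕ) : ℝ) := by exact_mod_cast h1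
  push_cast at h2
  exact h2

/-- The clause operators compared, lower bound. -/
lemma TT_ge_proper (hn : 0 < n) (hk : k ≤ n) {f : Fn (Asg n)} (hf : ∀ S, 0 ≤ f S) (S : Finset (Asg n)) :
    ppi k n * Avg (sol : Clause k n → _) f S ≤ TT k n f S := by
  classical
  have hn' : (0 : ℝ) < n := by exact_mod_cast hn
  have := nonempty_clause hk
  have hc : (0 : ℝ) < (Fintype.card (Clause k n) : ℝ) := by exact_mod_cast Fintype.card_pos
  unfold TT
  rw [Avg_apply, Avg_apply, card_WCl]
  have h1 : ∑ C ∈ PT k n, f (S ∩ solW C) ≤ ∑ C : WCl k n, f (S ∩ solW C) :=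
    Finset.sum_le_sum_of_subset_of_nonneg (Finset.subset_univ _) (fun C _ _ => hf _)
  have h2 := sum_PT (k := k) (n := n) (fun L => f (S ∩ solF L))
  simp only [← solW_eq, ← sol_eq] at h2
  rw [h2] at h1
  push_cast
  rw [le_div_iff₀ (by positivity)]
  unfold ppi
  refine le_trans (le_of_eq ?_) h1
  field_simp

/-- The clause operators compared, upper bound. -/
lemma TT_le_proper (hn : 0 < n) (hk : k ≤ n) {f : Fn (Asg n)} (hf : MonoFn f) (S : Finset (Asg n)) :
    TT k n f S ≤ ppi k n * Avg (sol : Clause k n → _) f S + (1 - ppi k n) * f S := by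
  classical
  have hn' : (0 : ℝ) < n := by exact_mod_cast hn
  have := nonempty_clause hk
  have hc : (0 : ℝ) < (Fintype.card (Clause k n) : ℝ) := by exact_mod_cast Fintype.card_pos
  unfold TT
  rw [Avg_apply, Avg_apply, card_WCl]
  have h1 : ∑ C : WCl k n, f (S ∩ solW C) = ∑ C ∈ PT k n, f (S ∩ solW C)
      + ∑ C ∈ (PT k n)ᶜ, f (S ∩ solW C) := (Finset.sum_add_sum_compl _ _).symm
  have h2 := sum_PT (k := k) (n := n) (fun L => f (S ∩ solF L))
  simp only [← solW_eq, ← sol_eq] at h2
  have h3 : ∑ C ∈ (PT k n)ᶜ, f (S ∩ solW C) ≤ ((PT k n)ᶜ).card * f S := by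
    have : ∑ C ∈ (PT k n)ᶜ, f (S ∩ solW C) ≤ ∑ C ∈ (PT k n)ᶜ, f S :=
      Finset.sum_le_sum (fun C _ => hf _ _ Finset.inter_subset_left)
    rwa [Finset.sum_const, nsmul_eq_mul] at this
  have h4 : (((PT k n)ᶜ).card : ℝ) = (2 * (n : ℝ)) ^ k - (k.factorial : ℝ) * (Fintype.card (Clause k n) : ℝ) := by
    have h5 : ((PT k n)ᶜ).card + (PT k n).card = (2 * n) ^ k := by
      rw [← card_WCl]
      exact Finset.card_compl_add_card _
    have h6 : ((((PT k n)ᶜ).card + (PT k n).card : ℕ) : ℝ) = (((2 * n) ^ k : ℕ) : ℝ) := by rw [h5]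
    push_cast at h6
    rw [← card_PT]
    linarith
  rw [h1, h2]
  push_cast
  rw [div_le_iff₀ (by positivity)]
  rw [h4] at h3
  unfold ppi
  have hpos : (2 * (n : ℝ)) ^ k ≠ 0 := by positivity
  have e : ((k.factorial : ℝ) * (Fintype.card (Clause k n) : ℝ) / (2 * (n : ℝ)) ^ k *
        ((∑ D : Clause k n, f (S ∩ sol D)) / (Fintype.card (Clause k n) : ℝ))
        + (1 - (k.factorial : ℝ) * (Fintype.card (Clause k n) : ℝ) / (2 * (n : ℝ)) ^ k) * f S)
        * (2 * (n : ℝ)) ^ k
      = (k.factorial : ℝ) * ∑ D : Clause k n, f (S ∩ sol D)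
        + ((2 * (n : ℝ)) ^ k - (k.factorial : ℝ) * (Fintype.card (Clause k n) : ℝ)) * f S := by
    field_simp
  rw [e]
  linarith

/-- Lower bound for the proper probability. -/
lemma ppi_ge (hk : 1 ≤ k) (hkn : k ≤ n) : 1 - (k : ℝ) ^ 2 / n ≤ ppi k n := by
  have hn : 0 < n := by omega
  have hn' : (0 : ℝ) < n := by exact_mod_cast hn
  have h1 : (k.factorial : ℝ) * (Fintype.card (Clause k n) : ℝ) = (n.descFactorial k : ℝ) * 2 ^ k := by
    have h2 : Fintype.card (Clause k n) = n.choose k * 2 ^ k := NC_eq k n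
    rw [h2, Nat.descFactorial_eq_factorial_mul_choose]
    push_cast
    ring
  unfold ppi
  rw [h1]
  have h3 : (((n + 1 - k : ℕ) : ℝ)) ^ k ≤ (n.descFactorial k : ℝ) := by
    exact_mod_cast Nat.pow_sub_le_descFactorial n k
  have h4 : ((n + 1 - k : ℕ) : ℝ) = (n : ℝ) + 1 - k := by
    rw [Nat.cast_sub (by omega)]
    push_cast
    ring
  rw [h4] at h3
  have h5 : (n.descFactorial k : ℝ) * 2 ^ k / (2 * (n : ℝ)) ^ k = (n.descFactorial k : ℝ) / (n : ℝ) ^ k := by
    rw [mul_pow]
    field_simp
  rw [h5, le_div_iff₀ (by positivity)]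
  refine le_trans ?_ h3
  have h6 : (1 - (k : ℝ) ^ 2 / n) * (n : ℝ) ^ k ≤ (((n : ℝ) + 1 - k) / n) ^ k * (n : ℝ) ^ k := by
    apply mul_le_mul_of_nonneg_right _ (by positivity)
    have hkr : (k : ℝ) ≤ n := by exact_mod_cast hkn
    have hk1 : (1 : ℝ) ≤ k := by exact_mod_cast hk
    have h7 : (-2 : ℝ) ≤ -(((k : ℝ) - 1) / n) := by
      have : ((k : ℝ) - 1) / n ≤ 1 := by
        rw [div_le_one hn']
        linarith
      linarith
    have h8 := one_add_mul_le_pow h7 k
    have e : 1 + -(((k : ℝ) - 1) / n) = ((n : ℝ) + 1 - k) / n := by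
      field_simp
      ring
    rw [e] at h8
    refine le_trans ?_ h8
    have h9 : (k : ℝ) * -(((k : ℝ) - 1) / n) = -((k : ℝ) * ((k : ℝ) - 1) / n) := by ring
    rw [h9]
    have h10 : (k : ℝ) * ((k : ℝ) - 1) / n ≤ (k : ℝ) ^ 2 / n := by
      apply div_le_div_of_nonneg_right _ hn'.le
      nlinarith
    linarith
  refine h6.trans (le_of_eq ?_)
  rw [div_pow]
  field_simp

end Vale.Agent.Lib.P170T
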