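import Vale.Agent.Lib.P170T.Pascal

namespace Vale.Agent.Lib.P170T

open Finset Vale.Agent.Lib.P170

set_option linter.unusedSectionVars false
set_option linter.unusedVariables false

variable {j n : ℕ}

/-- The two parameter family of operators. -/
noncomputable def opE (j n x y : ℕ) : Module.End ℝ (Fn (Asg n)) := (TT (j + 1) n) ^ x * (TT j n) ^ y

lemma opE_apply (j n x y : ℕ) (f : Fn (Asg n)) :
    opE j n x y f = ((TT (j + 1) n) ^ x) (((TT j n) ^ y) f) := rfl

lemma opE_markov (j n x y : ℕ) [NeZero n] : Markov (opE j n x y) :=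
  ((TT_markov _ _).pow _).mul ((TT_markov _ _).pow _)

lemma opE_succ_x (x y : ℕ) (f : Fn (Asg n)) :
    opE j n (x + 1) y f = opE j n x y (TT (j + 1) n f) := by
  have hc : Commute (TT (j + 1) n) ((TT j n) ^ y) := (TT_comm _ _ _).pow_right _
  unfold opE
  rw [pow_succ, mul_assoc, hc.eq]
  rfl

lemma opE_succ_y (x y : ℕ) (f : Fn (Asg n)) :
    opE j n x (y + 1) f = opE j n x y (TT j n f) := by
  unfold opE
  rw [pow_succ]
  rfl

/-- The probability of satisfiability with `x` clauses of length `j + 1` and `y` of length `j`. -/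
noncomputable def QQ (j n x y : ℕ) : ℝ := opE j n x y g0 Finset.univ

/-- Expected frozen fraction on satisfiability. -/
noncomputable def bb (j n x y : ℕ) : ℝ := opE j n x y (fun S => gg S * g0 S) Finset.univ

lemma g0_nonneg {X : Type} [DecidableEq X] (S : Finset X) : 0 ≤ (g0 : Fn X) S := (g0_unit S).1

lemma gg_mul_g0_nonneg (S : Finset (Asg n)) : 0 ≤ gg S * g0 S :=
  mul_nonneg (gg_nonneg S) (g0_nonneg S)

lemma gg_mul_g0_le_one (S : Finset (Asg n)) : gg S * g0 S ≤ 1 := by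
  unfold g0
  by_cases h : S.Nonempty
  · rw [if_pos h, mul_one]; exact gg_le_one h
  · rw [if_neg h, mul_zero]; norm_num

lemma bb_nonneg [NeZero n] (x y : ℕ) : 0 ≤ bb j n x y :=
  (opE_markov _ _ _ _).nonneg gg_mul_g0_nonneg _

lemma bb_le_one [NeZero n] (x y : ℕ) : bb j n x y ≤ 1 :=
  (opE_markov _ _ _ _).le_const gg_mul_g0_le_one _

lemma QQ_nonneg [NeZero n] (x y : ℕ) : 0 ≤ QQ j n x y :=
  (opE_markov _ _ _ _).nonneg g0_nonneg _

lemma QQ_le_one [NeZero n] (x y : ℕ) : QQ j n x y ≤ 1 :=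
  (opE_markov _ _ _ _).le_const (fun S => (g0_unit S).2) _

lemma TT_g0' (j n : ℕ) (hn : 0 < n) :
    TT j n g0 = g0 - (fun S => gg S ^ j * g0 S) := by
  funext S
  rw [TT_g0 j n hn S]
  simp only [Pi.sub_apply]
  ring

/-- One more long clause. -/
lemma QQ_sub_x (hn : 0 < n) (x y : ℕ) :
    QQ j n x y - QQ j n (x + 1) y = opE j n x y (fun S => gg S ^ (j + 1) * g0 S) Finset.univ := by
  unfold QQ
  rw [opE_succ_x, TT_g0' _ _ hn, map_sub]
  simp only [Pi.sub_apply]
  ring

/-- One more short clause. -/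
lemma QQ_sub_y (hn : 0 < n) (x y : ℕ) :
    QQ j n x y - QQ j n x (y + 1) = opE j n x y (fun S => gg S ^ j * g0 S) Finset.univ := by
  unfold QQ
  rw [opE_succ_y, TT_g0' _ _ hn, map_sub]
  simp only [Pi.sub_apply]
  ring

lemma QQ_anti_x (hn : 0 < n) (x y : ℕ) : QQ j n (x + 1) y ≤ QQ j n x y := by
  have : NeZero n := ⟨hn.ne'⟩
  have h := QQ_sub_x (j := j) hn x y
  have h2 : 0 ≤ opE j n x y (fun S => gg S ^ (j + 1) * g0 S) Finset.univ :=
    (opE_markov _ _ _ _).nonneg (fun S => mul_nonneg (pow_nonneg (gg_nonneg S) _) (g0_nonneg S)) _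
  linarith

lemma QQ_anti_y (hn : 0 < n) (x y : ℕ) : QQ j n x (y + 1) ≤ QQ j n x y := by
  have : NeZero n := ⟨hn.ne'⟩
  have h := QQ_sub_y (j := j) hn x y
  have h2 : 0 ≤ opE j n x y (fun S => gg S ^ j * g0 S) Finset.univ :=
    (opE_markov _ _ _ _).nonneg (fun S => mul_nonneg (pow_nonneg (gg_nonneg S) _) (g0_nonneg S)) _
  linarith

/-- The split of the kill rate of a short clause. -/
lemma split_pow (hj : 1 ≤ j) {τ : ℝ} (hτ : 0 < τ) (S : Finset (Asg n)) :
    gg S ^ j * g0 S ≤ τ ^ (j - 1) * (gg S * g0 S) + (1 / τ) * (gg S ^ (j + 1) * g0 S) := by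
  obtain ⟨i, rfl⟩ : ∃ i, j = i + 1 := ⟨j - 1, by omega⟩
  simp only [Nat.add_sub_cancel]
  have hg := gg_nonneg S
  have hu := g0_nonneg S
  by_cases h : gg S ≤ τ
  · have h1 : gg S ^ i ≤ τ ^ i := pow_le_pow_left₀ hg h i
    have h2 : gg S ^ (i + 1) * g0 S = gg S ^ i * (gg S * g0 S) := by ring
    rw [h2]
    have h3 := mul_le_mul_of_nonneg_right h1 (mul_nonneg hg hu)
    have h4 : 0 ≤ (1 / τ) * (gg S ^ (i + 1 + 1) * g0 S) := by positivity
    linarith
  · push Not at h
    have h2 : (1 / τ) * (gg S ^ (i + 1 + 1) * g0 S) = (gg S / τ) * (gg S ^ (i + 1) * g0 S) := by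
      field_simp
      ring
    rw [h2]
    have h3 : 1 ≤ gg S / τ := by rw [le_div_iff₀ hτ]; linarith
    have h4 : 0 ≤ gg S ^ (i + 1) * g0 S := by positivity
    have h5 : 0 ≤ τ ^ i * (gg S * g0 S) := by positivity
    nlinarith

/-- The increments in the number of short clauses. -/
noncomputable def DD (j n i y : ℕ) : ℝ := QQ j n i y - QQ j n i (y + 1)

lemma DD_le (hn : 0 < n) (hj : 1 ≤ j) {τ : ℝ} (hτ : 0 < τ) (i y : ℕ) :
    DD j n i y ≤ τ ^ (j - 1) * bb j n i y + (1 / τ) * (QQ j n i y - QQ j n (i + 1) y) := by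
  have : NeZero n := ⟨hn.ne'⟩
  unfold DD
  rw [QQ_sub_y hn, QQ_sub_x hn]
  unfold bb
  have h := (opE_markov j n i y).ord _ _ (fun S => split_pow (n := n) hj hτ S) Finset.univ
  refine h.trans (le_of_eq ?_)
  have e : (fun S : Finset (Asg n) => τ ^ (j - 1) * (gg S * g0 S) + (1 / τ) * (gg S ^ (j + 1) * g0 S))
      = (τ ^ (j - 1)) • (fun S : Finset (Asg n) => gg S * g0 S)
        + (1 / τ) • (fun S : Finset (Asg n) => gg S ^ (j + 1) * g0 S) := rfl
  rw [e, map_add, map_smul, map_smul]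
  rfl

/-- Telescoping. -/
lemma sum_DD_le (hn : 0 < n) (hj : 1 ≤ j) {τ : ℝ} (hτ : 0 < τ) (Y y : ℕ) :
    ∑ i ∈ Finset.range Y, DD j n i y ≤
      τ ^ (j - 1) * ∑ i ∈ Finset.range Y, bb j n i y + 1 / τ := by
  have : NeZero n := ⟨hn.ne'⟩
  have h1 : ∑ i ∈ Finset.range Y, DD j n i y ≤ ∑ i ∈ Finset.range Y,
      (τ ^ (j - 1) * bb j n i y + (1 / τ) * (QQ j n i y - QQ j n (i + 1) y)) :=
    Finset.sum_le_sum (fun i _ => DD_le hn hj hτ i y)
  rw [Finset.sum_add_distrib, ← Finset.mul_sum, ← Finset.mul_sum,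
    Finset.sum_range_sub' (fun i => QQ j n i y)] at h1
  have h2 : QQ j n 0 y - QQ j n Y y ≤ 1 := by
    have := QQ_le_one (j := j) (n := n) 0 y
    have := QQ_nonneg (j := j) (n := n) Y y
    linarith
  have h3 : (1 / τ) * (QQ j n 0 y - QQ j n Y y) ≤ (1 / τ) * 1 :=
    mul_le_mul_of_nonneg_left h2 (by positivity)
  linarith

/-! ### The frozen formula -/

lemma slice_nonempty_iff (p : Fin (n + 1)) (b : Bool) (S : Finset (Asg (n + 1))) :
    (slice p b S).Nonempty ↔ ∃ σ ∈ S, σ p = b := by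
  constructor
  · rintro ⟨a, ha⟩
    exact ⟨_, mem_slice.mp ha, by simp⟩
  · rintro ⟨σ, hσ, hb⟩
    refine ⟨p.removeNth σ, mem_slice.mpr ?_⟩
    rw [← hb, Fin.insertNth_self_removeNth]
    exact hσ

lemma frozen_formula (S : Finset (Asg (n + 1))) :
    gg S * g0 S = (1 / (2 * ((n : ℝ) + 1))) *
      ∑ l : Lit (n + 1), (g0 S - g0 (slice l.1 l.2 S)) := by
  classical
  by_cases hS : S.Nonempty
  · have h1 : ∀ l : Lit (n + 1), (g0 S - g0 (slice l.1 l.2 S) : ℝ)
        = if l ∈ falseLits S then 1 else 0 := by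
      intro l
      unfold g0
      rw [if_pos hS]
      by_cases hl : l ∈ falseLits S
      · rw [if_pos hl, if_neg]
        · norm_num
        · rw [slice_nonempty_iff]
          rintro ⟨σ, hσ, hb⟩
          exact (mem_falseLits.mp hl) σ hσ hb
      · rw [if_neg hl, if_pos]
        · norm_num
        · rw [slice_nonempty_iff]
          rw [mem_falseLits] at hl
          push Not at hl
          exact hl
    simp only [h1]
    rw [Finset.sum_boole]
    unfold gg g0
    rw [if_pos hS, mul_one]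
    have : (Finset.univ.filter (fun l : Lit (n + 1) => l ∈ falseLits S)) = falseLits S := by
      ext l; simp
    rw [this]
    push_cast
    field_simp
  · have hS' : S = ∅ := Finset.not_nonempty_iff_eq_empty.mp hS
    subst hS'
    have : ∀ l : Lit (n + 1), slice l.1 l.2 (∅ : Finset (Asg (n + 1))) = ∅ := by
      intro l
      ext a
      simp [mem_slice]
    simp [this, g0]

/-- The frozen fraction is a mean over literals. -/
lemma bb_le_of_forall (x y : ℕ) {Bd : ℝ}
    (h : ∀ l : Lit (n + 1), QQ j (n + 1) x y -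
      opE j (n + 1) x y (fun S => g0 (slice l.1 l.2 S)) Finset.univ ≤ Bd) :
    bb j (n + 1) x y ≤ Bd := by
  classical
  unfold bb
  have e : (fun S : Finset (Asg (n + 1)) => gg S * g0 S) =
      (1 / (2 * ((n : ℝ) + 1))) •
        ∑ l : Lit (n + 1), (g0 - (fun S : Finset (Asg (n + 1)) => g0 (slice l.1 l.2 S))) := by
    funext S
    rw [frozen_formula]
    simp only [Pi.smul_apply, smul_eq_mul, Finset.sum_apply, Pi.sub_apply]
  rw [e, map_smul, map_sum]
  simp only [map_sub]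
  simp only [Pi.smul_apply, smul_eq_mul, Finset.sum_apply, Pi.sub_apply]
  have h2 : ∑ l : Lit (n + 1), (opE j (n + 1) x y g0 Finset.univ
      - opE j (n + 1) x y (fun S => g0 (slice l.1 l.2 S)) Finset.univ)
      ≤ ∑ l : Lit (n + 1), Bd := Finset.sum_le_sum (fun l _ => h l)
  rw [Finset.sum_const, Finset.card_univ] at h2
  have h3 : Fintype.card (Lit (n + 1)) = 2 * (n + 1) := by
    simp [Lit, Fintype.card_prod, mul_comm]
  rw [h3, nsmul_eq_mul] at h2
  have hpos : (0 : ℝ) < 2 * ((n : ℝ) + 1) := by positivity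
  rw [div_mul_eq_mul_div, one_mul, div_le_iff₀ hpos]
  push_cast at h2
  linarith

end Vale.Agent.Lib.P170T
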