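import Mathlib

namespace Vale.Agent.Lib.P170T

open Filter Topology Finset

/-- Binomial weight. -/
noncomputable def bw (M : ℕ) (x : ℝ) (b : ℕ) : ℝ :=
  (M.choose b : ℝ) * x ^ b * (1 - x) ^ (M - b)

lemma bw_nonneg {M : ℕ} {x : ℝ} (h0 : 0 ≤ x) (h1 : x ≤ 1) (b : ℕ) : 0 ≤ bw M x b := by
  unfold bw
  have : 0 ≤ 1 - x := by linarith
  positivity

lemma bw_sum (M : ℕ) (x : ℝ) : ∑ b ∈ range (M + 1), bw M x b = 1 := by
  have h := add_pow x (1 - x) M
  simp only [add_sub_cancel, one_pow] at h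
  rw [h]
  refine Finset.sum_congr rfl (fun b _ => ?_)
  unfold bw
  ring

lemma bw_var (M : ℕ) (x : ℝ) :
    ∑ b ∈ range (M + 1), ((b : ℝ) - M * x) ^ 2 * bw M x b = M * x * (1 - x) := by
  have h := congrArg (Polynomial.eval x) (bernsteinPolynomial.variance ℝ M)
  simp only [Polynomial.eval_finset_sum, Polynomial.eval_mul, Polynomial.eval_pow,
    Polynomial.eval_sub, Polynomial.eval_X, Polynomial.eval_natCast, Polynomial.eval_smul,
    smul_eq_mul, nsmul_eq_mul, Polynomial.eval_one] at h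
  rw [← h]
  refine Finset.sum_congr rfl (fun b _ => ?_)
  unfold bw bernsteinPolynomial
  simp only [Polynomial.eval_mul, Polynomial.eval_pow, Polynomial.eval_sub, Polynomial.eval_X,
    Polynomial.eval_natCast, Polynomial.eval_one]
  ring

/-- Chebyshev: outside `G` the squared deviation is at least `M + 1`. -/
lemma bw_bad_le {M : ℕ} {x : ℝ} (h0 : 0 ≤ x) (h1 : x ≤ 1) (G : ℕ → Prop) [DecidablePred G]
    (hG : ∀ b ∈ range (M + 1), ¬ G b → (M : ℝ) + 1 ≤ ((b : ℝ) - M * x) ^ 2) :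
    ∑ b ∈ (range (M + 1)).filter (fun b => ¬ G b), bw M x b ≤ 1 / 4 := by
  have hM : (0 : ℝ) < (M : ℝ) + 1 := by positivity
  have key : ((M : ℝ) + 1) * ∑ b ∈ (range (M + 1)).filter (fun b => ¬ G b), bw M x b
      ≤ ∑ b ∈ range (M + 1), ((b : ℝ) - M * x) ^ 2 * bw M x b := by
    rw [Finset.mul_sum]
    calc ∑ b ∈ (range (M + 1)).filter (fun b => ¬ G b), ((M : ℝ) + 1) * bw M x b
        ≤ ∑ b ∈ (range (M + 1)).filter (fun b => ¬ G b), ((b : ℝ) - M * x) ^ 2 * bw M x b := by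
          refine Finset.sum_le_sum (fun b hb => ?_)
          rw [Finset.mem_filter] at hb
          exact mul_le_mul_of_nonneg_right (hG b hb.1 hb.2) (bw_nonneg h0 h1 b)
      _ ≤ ∑ b ∈ range (M + 1), ((b : ℝ) - M * x) ^ 2 * bw M x b := by
          refine Finset.sum_le_sum_of_subset_of_nonneg (Finset.filter_subset _ _) (fun b _ _ => ?_)
          exact mul_nonneg (sq_nonneg _) (bw_nonneg h0 h1 b)
  rw [bw_var] at key
  have hv : (M : ℝ) * x * (1 - x) ≤ ((M : ℝ) + 1) * (1 / 4) := by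
    have h2 : x * (1 - x) ≤ 1 / 4 := by nlinarith [sq_nonneg (x - 1 / 2)]
    have hM0 : (0 : ℝ) ≤ M := by positivity
    nlinarith [mul_le_mul_of_nonneg_left h2 hM0]
  exact le_of_mul_le_mul_left (key.trans hv) hM

/-- Lower bound of a binomial average from a lower bound on the good set. -/
lemma bw_avg_ge {M : ℕ} {x : ℝ} (h0 : 0 ≤ x) (h1 : x ≤ 1) (G : ℕ → Prop) [DecidablePred G]
    (hG : ∀ b ∈ range (M + 1), ¬ G b → (M : ℝ) + 1 ≤ ((b : ℝ) - M * x) ^ 2)
    {f : ℕ → ℝ} (hf0 : ∀ b, 0 ≤ f b) {v : ℝ} (hv0 : 0 ≤ v) (hfv : ∀ b ∈ range (M + 1), G b → v ≤ f b) :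
    (3 / 4) * v ≤ ∑ b ∈ range (M + 1), bw M x b * f b := by
  have hbad := bw_bad_le h0 h1 G hG
  have hsplit := Finset.sum_filter_add_sum_filter_not (range (M + 1)) G (fun b => bw M x b)
  rw [bw_sum] at hsplit
  have hgood : 3 / 4 ≤ ∑ b ∈ (range (M + 1)).filter G, bw M x b := by linarith
  calc (3 / 4) * v ≤ (∑ b ∈ (range (M + 1)).filter G, bw M x b) * v :=
        mul_le_mul_of_nonneg_right hgood hv0
    _ = ∑ b ∈ (range (M + 1)).filter G, bw M x b * v := by rw [Finset.sum_mul]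
    _ ≤ ∑ b ∈ (range (M + 1)).filter G, bw M x b * f b := by
        refine Finset.sum_le_sum (fun b hb => ?_)
        rw [Finset.mem_filter] at hb
        exact mul_le_mul_of_nonneg_left (hfv b hb.1 hb.2) (bw_nonneg h0 h1 b)
    _ ≤ ∑ b ∈ range (M + 1), bw M x b * f b := by
        refine Finset.sum_le_sum_of_subset_of_nonneg (Finset.filter_subset _ _) (fun b _ _ => ?_)
        exact mul_nonneg (bw_nonneg h0 h1 b) (hf0 b)

/-- Upper bound of a binomial average from an upper bound on the good set. -/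
lemma bw_avg_le {M : ℕ} {x : ℝ} (h0 : 0 ≤ x) (h1 : x ≤ 1) (G : ℕ → Prop) [DecidablePred G]
    (hG : ∀ b ∈ range (M + 1), ¬ G b → (M : ℝ) + 1 ≤ ((b : ℝ) - M * x) ^ 2)
    {f : ℕ → ℝ} (hf1 : ∀ b, f b ≤ 1) {v : ℝ} (hv0 : 0 ≤ v) (hfv : ∀ b ∈ range (M + 1), G b → f b ≤ v) :
    ∑ b ∈ range (M + 1), bw M x b * f b ≤ v + 1 / 4 := by
  have hbad := bw_bad_le h0 h1 G hG
  have hsplit := Finset.sum_filter_add_sum_filter_not (range (M + 1)) G (fun b => bw M x b)
  rw [bw_sum] at hsplit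
  have hgood : ∑ b ∈ (range (M + 1)).filter G, bw M x b ≤ 1 := by
    have : 0 ≤ ∑ b ∈ (range (M + 1)).filter (fun b => ¬ G b), bw M x b :=
      Finset.sum_nonneg (fun b _ => bw_nonneg h0 h1 b)
    linarith
  have hsplit2 := Finset.sum_filter_add_sum_filter_not (range (M + 1)) G (fun b => bw M x b * f b)
  rw [← hsplit2]
  have e1 : ∑ b ∈ (range (M + 1)).filter G, bw M x b * f b ≤ v := by
    calc ∑ b ∈ (range (M + 1)).filter G, bw M x b * f b
        ≤ ∑ b ∈ (range (M + 1)).filter G, bw M x b * v := by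
          refine Finset.sum_le_sum (fun b hb => ?_)
          rw [Finset.mem_filter] at hb
          exact mul_le_mul_of_nonneg_left (hfv b hb.1 hb.2) (bw_nonneg h0 h1 b)
      _ = (∑ b ∈ (range (M + 1)).filter G, bw M x b) * v := by rw [Finset.sum_mul]
      _ ≤ 1 * v := mul_le_mul_of_nonneg_right hgood hv0
      _ = v := one_mul v
  have e2 : ∑ b ∈ (range (M + 1)).filter (fun b => ¬ G b), bw M x b * f b ≤ 1 / 4 := by
    calc ∑ b ∈ (range (M + 1)).filter (fun b => ¬ G b), bw M x b * f b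
        ≤ ∑ b ∈ (range (M + 1)).filter (fun b => ¬ G b), bw M x b * 1 := by
          refine Finset.sum_le_sum (fun b _ => ?_)
          exact mul_le_mul_of_nonneg_left (hf1 b) (bw_nonneg h0 h1 b)
      _ ≤ 1 / 4 := by simpa using hbad
  linarith

/-- The fourth root. -/
noncomputable def fr (n : ℕ) : ℝ := (n : ℝ) ^ ((1 : ℝ) / 4)

lemma fr_pow (n : ℕ) : fr n ^ 4 = n := by
  unfold fr
  rw [← Real.rpow_natCast, ← Real.rpow_mul (by positivity)]
  norm_num

lemma fr_nonneg (n : ℕ) : 0 ≤ fr n := by unfold fr; positivity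

lemma fr_pos {n : ℕ} (h : 1 ≤ n) : 0 < fr n := by
  unfold fr
  have : (0 : ℝ) < n := by exact_mod_cast h
  positivity

lemma one_le_fr {n : ℕ} (h : 1 ≤ n) : 1 ≤ fr n := by
  unfold fr
  have : (1 : ℝ) ≤ n := by exact_mod_cast h
  exact Real.one_le_rpow this (by norm_num)

lemma fr_mono {a b : ℕ} (h : a ≤ b) : fr a ≤ fr b := by
  unfold fr
  exact Real.rpow_le_rpow (by positivity) (by exact_mod_cast h) (by norm_num)

lemma fr_mul (a b : ℕ) : fr (a * b) = fr a * fr b := by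
  unfold fr
  push_cast
  exact Real.mul_rpow (by positivity) (by positivity)

lemma fr_tendsto : Tendsto fr atTop atTop := by
  unfold fr
  exact (tendsto_rpow_atTop (by norm_num : (0 : ℝ) < 1 / 4)).comp tendsto_natCast_atTop_atTop

end Vale.Agent.Lib.P170T
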