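import Vale.Agent.Lib.P170T.H84Transfer

namespace Vale.Agent.Lib.P170T

open Finset Vale.Agent.Lib.P170 Filter Topology

set_option linter.unusedSectionVars false
set_option linter.unusedVariables false

variable {j n : ℕ}

/-- The proper clause operator. -/
noncomputable def TP (k n : ℕ) : Module.End ℝ (Fn (Asg n)) := Avg (sol : Clause k n → _)

lemma TP_markov {k : ℕ} (hk : k ≤ n) : Markov (TP k n) := by
  have := nonempty_clause hk
  exact Markov.avg _

lemma satProb_eq' {k : ℕ} (hk : k ≤ n) (m : ℕ) : satProb k n m = ((TP k n) ^ m) g0 Finset.univ :=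
  satProb_eq k n m hk

/-- Comparing with the literal model, first direction. -/
lemma pow_ge_proper (hn : 0 < n) (hk : j + 1 ≤ n) (m : ℕ) (S : Finset (Asg n)) :
    (ppi (j + 1) n) ^ m * ((TP (j + 1) n) ^ m) g0 S ≤ ut j n m S := by
  have : NeZero n := ⟨hn.ne'⟩
  have hP := TP_markov hk
  have h0 := ppi_nonneg (j + 1) n
  induction m generalizing S with
  | zero =>
    simp [ut_zero]
  | succ m ih =>
    rw [ut_succ]
    have e : ((TP (j + 1) n) ^ (m + 1)) g0 = TP (j + 1) n (((TP (j + 1) n) ^ m) g0) := by
      rw [pow_succ']; rfl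
    rw [e]
    have h1 : ((ppi (j + 1) n) ^ m : ℝ) • ((TP (j + 1) n) ^ m) g0 ≤ ut j n m := by
      intro S
      simp only [Pi.smul_apply, smul_eq_mul]
      exact ih S
    have h2 := (TT_markov (j + 1) n).ord _ _ h1 S
    rw [map_smul] at h2
    simp only [Pi.smul_apply, smul_eq_mul] at h2
    have h3 := TT_ge_proper (k := j + 1) hn hk (f := ((TP (j + 1) n) ^ m) g0)
      (fun S => (hP.pow m).nonneg g0_nonneg S) S
    have h4 := mul_le_mul_of_nonneg_left h3 (pow_nonneg h0 m)
    refine le_trans (le_of_eq ?_) (h4.trans h2)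
    unfold TP
    rw [pow_succ]
    ring

/-- Comparing with the literal model, second direction. -/
lemma pn_le_proper (hn : 0 < n) (hk : j + 1 ≤ n) (x : ℕ) :
    pn j n x ≤ ∑ b ∈ Finset.range (x + 1), bw (ppi (j + 1) n) x b * satProb (j + 1) n b := by
  have : NeZero n := ⟨hn.ne'⟩
  have hP := TP_markov hk
  have h0 := ppi_nonneg (j + 1) n
  have h1 := ppi_le_one (k := j + 1) hn
  set θ := ppi (j + 1) n with hθ
  set R : Module.End ℝ (Fn (Asg n)) := θ • TP (j + 1) n + (1 - θ) • 1 with hR
  have hRm : Markov R := Markov.convex hP Markov.one h0 (by linarith) (by ring)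
  have hstep : ∀ ψ : Fn (Asg n), MU ψ → ∀ S, TT (j + 1) n (fun S => ψ (id S)) S ≤ R ψ (id S) + 0 := by
    intro ψ hψ S
    have := TT_le_proper hn hk hψ.1 S
    show TT (j + 1) n ψ S ≤ R ψ S + 0
    rw [add_zero]
    have e : R ψ S = ppi (j + 1) n * Avg (sol : Clause (j + 1) n → _) ψ S + (1 - ppi (j + 1) n) * ψ S := by
      rw [hR]
      simp [TP, hθ]
    rw [e]
    exact this
  have h2 := iter_le (TT_markov (j + 1) n) hRm id hstep x g0 MU_g0 Finset.univ
  simp only [id, mul_zero, add_zero] at h2
  refine h2.trans (le_of_eq ?_)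
  rw [hR, thin_pow]
  refine Finset.sum_congr rfl (fun b _ => ?_)
  rw [satProb_eq' hk]

lemma satProb_nonneg {k : ℕ} (hk : k ≤ n) (m : ℕ) : 0 ≤ satProb k n m := by
  rw [satProb_eq' hk]
  exact ((TP_markov hk).pow m).nonneg g0_nonneg _

lemma satProb_le_one {k : ℕ} (hk : k ≤ n) (m : ℕ) : satProb k n m ≤ 1 := by
  rw [satProb_eq' hk]
  exact ((TP_markov hk).pow m).le_const (fun S => (g0_unit S).2) _

/-- **The satisfiability threshold conjecture**: for every `k ≥ 3`, random `k`-SAT has a
limiting threshold. -/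
theorem sat_threshold (k : ℕ) (hk : 3 ≤ k) : ∃ α : ℝ, 0 < α ∧
    (∀ c : ℝ, 0 ≤ c → c < α → Tendsto (fun n : ℕ => satProb k n ⌊c * n⌋₊) atTop (𝓝 1)) ∧
    (∀ c : ℝ, α < c → Tendsto (fun n : ℕ => satProb k n ⌊c * n⌋₊) atTop (𝓝 0)) := by
  obtain ⟨j, rfl⟩ : ∃ j, k = j + 1 := ⟨k - 1, by omega⟩
  have hj : 2 ≤ j := by omega
  obtain ⟨α, hα0, hbelow, habove⟩ := W_threshold hj
  refine ⟨α, hα0, ?_, ?_⟩
  · intro c hc0 hc
    set c' := (c + α) / 2 with hc'
    have hcc' : c < c' := by rw [hc']; linarith
    have hc'α : c' < α := by rw [hc']; linarith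
    have hW := hbelow c' (by linarith) hc'α
    set K : ℝ := ((j + 1 : ℕ) : ℝ) ^ 2 with hK
    have hK0 : 0 ≤ K := by positivity
    set d := c' - c with hd
    have hd0 : 0 < d := by rw [hd]; linarith
    rw [tendsto_order]
    constructor
    · intro y hy
      set ε := (1 - y) / 2 with hε
      have hε0 : 0 < ε := by rw [hε]; linarith
      have h1 : ∀ᶠ n : ℕ in atTop, 1 - ε < pn j n ⌊c' * n⌋₊ :=
        (tendsto_order.1 hW).1 (1 - ε) (by linarith)
      -- the error terms
      have hinv : Tendsto (fun n : ℕ => 1 / (n : ℝ)) atTop (𝓝 0) :=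
        tendsto_one_div_atTop_nhds_zero_nat
      have h2 : ∀ᶠ n : ℕ in atTop, (1 + K * c' + 1) * (1 / (n : ℝ)) < d / 2 := by
        have := hinv.const_mul (1 + K * c' + 1)
        rw [mul_zero] at this
        exact (tendsto_order.1 this).2 (d / 2) (half_pos hd0)
      have h3 : ∀ᶠ n : ℕ in atTop, (c' * K * 16 / d ^ 2) * (1 / (n : ℝ)) < ε := by
        have := hinv.const_mul (c' * K * 16 / d ^ 2)
        rw [mul_zero] at this
        exact (tendsto_order.1 this).2 ε hε0
      filter_upwards [h1, h2, h3, eventually_ge_atTop (j + 1 + 1)] with n hn1 hn2 hn3 hn4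
      have hnpos : 0 < n := by omega
      have hnr : (0 : ℝ) < n := by exact_mod_cast hnpos
      have hkn : j + 1 ≤ n := by omega
      have : NeZero n := ⟨hnpos.ne'⟩
      set x := ⌊c' * n⌋₊ with hx
      set T := ⌊c * n⌋₊ with hT
      have hc'0 : 0 ≤ c' := by linarith
      have hxle : (x : ℝ) ≤ c' * n := Nat.floor_le (by positivity)
      have hxgt : c' * n < (x : ℝ) + 1 := Nat.lt_floor_add_one _
      have hTle : (T : ℝ) ≤ c * n := Nat.floor_le (by positivity)
      set θ := ppi (j + 1) n with hθ
      have hθ0 := ppi_nonneg (j + 1) n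
      have hθ1 := ppi_le_one (k := j + 1) hnpos
      have hθge : 1 - K / n ≤ θ := by
        have := ppi_ge (k := j + 1) (n := n) (by omega) hkn
        rw [hK]
        exact this
      set L := d / 4 * n with hL
      have hL0 : 0 < L := by positivity
      have hinv' : (1 / (n : ℝ)) * n = 1 := by field_simp
      -- the quantile
      have hTL : (T : ℝ) ≤ (x : ℝ) * θ - L := by
        have hx0 : (0 : ℝ) ≤ x := Nat.cast_nonneg x
        have h4 : (x : ℝ) * (1 - K / n) ≤ (x : ℝ) * θ := mul_le_mul_of_nonneg_left hθge hx0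
        have h5 : (x : ℝ) * (K / n) ≤ c' * K := by
          calc (x : ℝ) * (K / n) ≤ (c' * n) * (K / n) :=
                mul_le_mul_of_nonneg_right hxle (by positivity)
            _ = c' * K := by field_simp
        have h6 : (1 + K * c' + 1) * (1 / (n : ℝ)) * n < d / 2 * n :=
          mul_lt_mul_of_pos_right hn2 hnr
        rw [mul_assoc, hinv'] at h6
        have hd2 : c' * n = c * n + d * n := by rw [hd]; ring
        nlinarith
      have hle := pn_le_proper (j := j) hnpos hkn x
      have hbound := bw_anti_le hθ0 hθ1 x T hL0 hTL (satProb (j + 1) n)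
        (fun a b h => satProb_anti (j + 1) n hkn h) (fun a => satProb_nonneg hkn a)
        (fun a => satProb_le_one hkn a)
      have herr : (x : ℝ) * θ * (1 - θ) / L ^ 2 ≤ (c' * K * 16 / d ^ 2) * (1 / (n : ℝ)) := by
        have h4 : (x : ℝ) * θ * (1 - θ) ≤ (c' * n) * 1 * (K / n) := by
          apply mul_le_mul
          · exact mul_le_mul hxle hθ1 hθ0 (by positivity)
          · linarith
          · linarith
          · positivity
        have hpos : 0 < L ^ 2 := by positivity
        calc (x : ℝ) * θ * (1 - θ) / L ^ 2 ≤ ((c' * n) * 1 * (K / n)) / L ^ 2 :=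
              div_le_div_of_nonneg_right h4 hpos.le
          _ ≤ _ := by
            have e : ((c' * n) * 1 * (K / n)) / L ^ 2 = (c' * K * 16 / d ^ 2) * (1 / (n : ℝ)) * (1 / (n : ℝ)) := by
              rw [hL]
              field_simp
              ring
            rw [e]
            have h1n : 1 / (n : ℝ) ≤ 1 := by
              rw [div_le_one hnr]
              exact_mod_cast hnpos
            have h5 : 0 ≤ c' * K * 16 / d ^ 2 * (1 / (n : ℝ)) := by positivity
            nlinarith
      linarith
    · intro y hy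
      filter_upwards [eventually_ge_atTop (j + 1)] with n hn
      exact lt_of_le_of_lt (satProb_le_one hn _) hy
  · intro c hc
    have hW := habove c hc
    have hc0 : 0 < c := by linarith
    set K : ℝ := ((j + 1 : ℕ) : ℝ) ^ 2 with hK
    have hK0 : 0 ≤ K := by positivity
    set B := Real.exp (2 * K * c) with hB
    have hB0 : 0 < B := Real.exp_pos _
    rw [tendsto_order]
    constructor
    · intro y hy
      filter_upwards [eventually_ge_atTop (j + 1)] with n hn
      exact lt_of_lt_of_le hy (satProb_nonneg hn _)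
    · intro y hy
      have h1 : ∀ᶠ n : ℕ in atTop, pn j n ⌊c * n⌋₊ < y / B :=
        (tendsto_order.1 hW).2 (y / B) (by positivity)
      have hinv : Tendsto (fun n : ℕ => 1 / (n : ℝ)) atTop (𝓝 0) :=
        tendsto_one_div_atTop_nhds_zero_nat
      have h2 : ∀ᶠ n : ℕ in atTop, K * (1 / (n : ℝ)) < 1 / 2 := by
        have := hinv.const_mul K
        rw [mul_zero] at this
        exact (tendsto_order.1 this).2 (1 / 2) (by norm_num)
      filter_upwards [h1, h2, eventually_ge_atTop (j + 1 + 1)] with n hn1 hn2 hn4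
      have hnpos : 0 < n := by omega
      have hnr : (0 : ℝ) < n := by exact_mod_cast hnpos
      have hkn : j + 1 ≤ n := by omega
      have : NeZero n := ⟨hnpos.ne'⟩
      set T := ⌊c * n⌋₊ with hT
      have hTle : (T : ℝ) ≤ c * n := Nat.floor_le (by positivity)
      set θ := ppi (j + 1) n with hθ
      have hθge : 1 - K / n ≤ θ := by
        have := ppi_ge (k := j + 1) (n := n) (by omega) hkn
        rw [hK]
        exact this
      set a := K / n with ha
      have ha' : a = K * (1 / (n : ℝ)) := by rw [ha]; ring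
      have ha0 : 0 ≤ a := by positivity
      have ha1 : a < 1 / 2 := by rw [ha']; exact hn2
      have hθpos : 0 < θ := by linarith
      have hle := pow_ge_proper (j := j) hnpos hkn T Finset.univ
      rw [← satProb_eq' hkn] at hle
      -- bound the inverse power
      have hinvθ : 1 / θ ≤ Real.exp (2 * a) := by
        have h3 : 1 / θ ≤ 1 + 2 * a := by
          rw [div_le_iff₀ hθpos]
          nlinarith
        have h4 := Real.add_one_le_exp (2 * a)
        linarith
      have hpowinv : (1 / θ) ^ T ≤ B := by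
        have h3 : (1 / θ) ^ T ≤ (Real.exp (2 * a)) ^ T :=
          pow_le_pow_left₀ (by positivity) hinvθ T
        have h4 : (Real.exp (2 * a)) ^ T = Real.exp (T * (2 * a)) := by
          rw [← Real.exp_nat_mul]
        rw [h4] at h3
        refine h3.trans (Real.exp_le_exp.mpr ?_)
        have h5 : (T : ℝ) * (2 * a) ≤ (c * n) * (2 * a) :=
          mul_le_mul_of_nonneg_right hTle (by positivity)
        have h6 : (c * n) * (2 * a) = 2 * K * c := by
          rw [ha]
          field_simp
        linarith
      have hsat : satProb (j + 1) n T ≤ (1 / θ) ^ T * pn j n T := by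
        have h3 : 0 < θ ^ T := pow_pos hθpos T
        rw [one_div, inv_pow, inv_mul_eq_div, le_div_iff₀ h3, mul_comm]
        exact hle
      have hp0 : 0 ≤ pn j n T := pn_nonneg _
      calc satProb (j + 1) n T ≤ (1 / θ) ^ T * pn j n T := hsat
        _ ≤ B * pn j n T := mul_le_mul_of_nonneg_right hpowinv hp0
        _ < B * (y / B) := mul_lt_mul_of_pos_left hn1 hB0
        _ = y := by field_simp

end Vale.Agent.Lib.P170T
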