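import Vale.Agent.Lib.P170T.Binom

namespace Vale.Agent.Lib.P170T

open Finset Vale.Agent.Lib.P170

set_option linter.unusedSectionVars false
set_option linter.unusedVariables false

variable {j n₁ n₂ : ℕ}

/-- Clause operator inside a block of variables given by an injection. -/
noncomputable def TB (k : ℕ) {n N : ℕ} (ι : Fin n → Fin N) : Module.End ℝ (Fn (Asg N)) :=
  Avg (fun C : WCl k n => solW (upC ι C))

lemma proj_inter_upC {k n N : ℕ} {ι : Fin n → Fin N} (hι : Function.Injective ι)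
    (S : Finset (Asg N)) (C : WCl k n) :
    proj ι (S ∩ solW (upC ι C)) = proj ι S ∩ solW C := by
  classical
  apply Finset.Subset.antisymm (proj_inter_upC_subset ι S C)
  intro a ha
  simp only [proj, Finset.mem_image, Finset.mem_inter] at ha ⊢
  obtain ⟨⟨σ, h1, rfl⟩, h2⟩ := ha
  exact ⟨σ, ⟨h1, mem_solW_upC.mpr h2⟩, rfl⟩

/-- The block operator on the satisfiability indicator. -/
lemma TB_g0 (k : ℕ) {n N : ℕ} {ι : Fin n → Fin N} (hι : Function.Injective ι) (hn : 0 < n)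
    (S : Finset (Asg N)) :
    TB k ι g0 S = g0 S * (1 - gg (proj ι S) ^ k) := by
  unfold TB
  rw [Avg_apply]
  have h1 : ∀ C : WCl k n, (g0 : Fn (Asg N)) (S ∩ solW (upC ι C)) = g0 (proj ι S ∩ solW C) := by
    intro C
    rw [← g0_proj ι, proj_inter_upC hι]
  simp only [h1]
  have h2 := TT_g0 k n hn (proj ι S)
  unfold TT at h2
  rw [Avg_apply] at h2
  rw [h2, g0_proj]

/-- Additivity of frozen literals. -/
lemma falseLits_card_add (S : Finset (Asg (n₁ + n₂))) :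
    (falseLits S).card = (falseLits (proj (Fin.castAdd n₂) S)).card
      + (falseLits (proj (Fin.natAdd n₁) S)).card := by
  classical
  have key : ∀ {n : ℕ} (T : Finset (Asg n)), (falseLits T).card =
      ∑ v : Fin n, ∑ b : Bool, if (∀ σ ∈ T, σ v ≠ b) then 1 else 0 := by
    intro n T
    have : (falseLits T).card = ∑ l : Lit n, if l ∈ falseLits T then 1 else 0 := by
      simp
    rw [this, Fintype.sum_prod_type]
    simp only [mem_falseLits]
  rw [key S, key, key, Fin.sum_univ_add]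
  congr 1
  · refine Finset.sum_congr rfl (fun v _ => Finset.sum_congr rfl (fun b _ => ?_))
    congr 1
    apply propext
    constructor
    · intro h a ha
      simp only [proj, Finset.mem_image] at ha
      obtain ⟨σ, hσ, rfl⟩ := ha
      exact h σ hσ
    · intro h σ hσ
      exact h (σ ∘ Fin.castAdd n₂) (by
        simp only [proj, Finset.mem_image]
        exact ⟨σ, hσ, rfl⟩)
  · refine Finset.sum_congr rfl (fun v _ => Finset.sum_congr rfl (fun b _ => ?_))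
    congr 1
    apply propext
    constructor
    · intro h a ha
      simp only [proj, Finset.mem_image] at ha
      obtain ⟨σ, hσ, rfl⟩ := ha
      exact h σ hσ
    · intro h σ hσ
      exact h (σ ∘ Fin.natAdd n₁) (by
        simp only [proj, Finset.mem_image]
        exact ⟨σ, hσ, rfl⟩)

/-- The weights of the blocks. -/
noncomputable def lam (n₁ n₂ : ℕ) : ℝ := (n₁ : ℝ) / ((n₁ : ℝ) + n₂)

lemma lam_nonneg (n₁ n₂ : ℕ) : 0 ≤ lam n₁ n₂ := by unfold lam; positivity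

lemma lam_le_one (n₁ n₂ : ℕ) : lam n₁ n₂ ≤ 1 := by
  unfold lam
  apply div_le_one_of_le₀
  · linarith [(Nat.cast_nonneg n₂ : (0 : ℝ) ≤ n₂)]
  · positivity

lemma one_sub_lam (hn : 0 < n₁ + n₂) : 1 - lam n₁ n₂ = (n₂ : ℝ) / ((n₁ : ℝ) + n₂) := by
  unfold lam
  have : (0 : ℝ) < (n₁ : ℝ) + n₂ := by exact_mod_cast hn
  field_simp
  ring

lemma gg_add (hn₁ : 0 < n₁) (hn₂ : 0 < n₂) (S : Finset (Asg (n₁ + n₂))) :
    gg S = lam n₁ n₂ * gg (proj (Fin.castAdd n₂) S)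
      + (1 - lam n₁ n₂) * gg (proj (Fin.natAdd n₁) S) := by
  have h1 : (0 : ℝ) < n₁ := by exact_mod_cast hn₁
  have h2 : (0 : ℝ) < n₂ := by exact_mod_cast hn₂
  rw [one_sub_lam (by omega)]
  unfold gg lam
  rw [falseLits_card_add]
  push_cast
  field_simp

/-- The mixture of block clauses. -/
noncomputable def WM (k n₁ n₂ : ℕ) : Module.End ℝ (Fn (Asg (n₁ + n₂))) :=
  lam n₁ n₂ • TB k (Fin.castAdd n₂ : Fin n₁ → Fin (n₁ + n₂))
    + (1 - lam n₁ n₂) • TB k (Fin.natAdd n₁ : Fin n₂ → Fin (n₁ + n₂))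

lemma WM_apply (k : ℕ) (f : Fn (Asg (n₁ + n₂))) : WM k n₁ n₂ f =
    lam n₁ n₂ • TB k (Fin.castAdd n₂ : Fin n₁ → Fin (n₁ + n₂)) f
    + (1 - lam n₁ n₂) • TB k (Fin.natAdd n₁ : Fin n₂ → Fin (n₁ + n₂)) f := rfl

lemma castAdd_inj : Function.Injective (Fin.castAdd n₂ : Fin n₁ → Fin (n₁ + n₂)) :=
  Fin.castAdd_injective _ _

lemma natAdd_inj : Function.Injective (Fin.natAdd n₁ : Fin n₂ → Fin (n₁ + n₂)) :=
  Fin.natAdd_injective _ _

/-- Jensen on the generators. -/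
lemma WM_g0_le (k : ℕ) (hn₁ : 0 < n₁) (hn₂ : 0 < n₂) (S : Finset (Asg (n₁ + n₂))) :
    WM k n₁ n₂ g0 S ≤ TT k (n₁ + n₂) g0 S := by
  rw [WM_apply]
  simp only [Pi.add_apply, Pi.smul_apply, smul_eq_mul]
  rw [TB_g0 k castAdd_inj hn₁, TB_g0 k natAdd_inj hn₂, TT_g0 k _ (by omega)]
  have hu := g0_nonneg S
  have hl0 := lam_nonneg n₁ n₂
  have hl1 := lam_le_one n₁ n₂
  set x := gg (proj (Fin.castAdd n₂ : Fin n₁ → Fin (n₁ + n₂)) S)
  set y := gg (proj (Fin.natAdd n₁ : Fin n₂ → Fin (n₁ + n₂)) S)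
  have hx : 0 ≤ x := gg_nonneg _
  have hy : 0 ≤ y := gg_nonneg _
  have hJ : (lam n₁ n₂ * x + (1 - lam n₁ n₂) * y) ^ k ≤
      lam n₁ n₂ * x ^ k + (1 - lam n₁ n₂) * y ^ k := by
    have := (convexOn_pow k).2 (Set.mem_Ici.mpr hx) (Set.mem_Ici.mpr hy) hl0 (by linarith : 0 ≤ 1 - lam n₁ n₂)
      (by ring)
    simpa [smul_eq_mul] using this
  rw [gg_add hn₁ hn₂ S]
  nlinarith

lemma TB_markov (k : ℕ) {n N : ℕ} [NeZero n] (ι : Fin n → Fin N) : Markov (TB k ι) := by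
  unfold TB
  exact Markov.avg _

lemma WM_markov (k : ℕ) (hn₁ : 0 < n₁) (hn₂ : 0 < n₂) : Markov (WM k n₁ n₂) := by
  have : NeZero n₁ := ⟨hn₁.ne'⟩
  have : NeZero n₂ := ⟨hn₂.ne'⟩
  exact Markov.convex (TB_markov _ _) (TB_markov _ _) (lam_nonneg _ _)
    (by linarith [lam_le_one n₁ n₂]) (by ring)

lemma WM_comm (k : ℕ) : Commute (TT k (n₁ + n₂)) (WM k n₁ n₂) := by
  unfold WM TT TB
  apply Commute.add_right
  · exact (Avg_comm _ _).smul_right _
  · exact (Avg_comm _ _).smul_right _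

/-- The hybrid argument. -/
theorem hybrid_WM (k : ℕ) (hn₁ : 0 < n₁) (hn₂ : 0 < n₂) (M : ℕ) (S : Finset (Asg (n₁ + n₂))) :
    ((WM k n₁ n₂) ^ M) g0 S ≤ ((TT k (n₁ + n₂)) ^ M) g0 S := by
  have : NeZero (n₁ + n₂) := ⟨by omega⟩
  have hW := WM_markov k hn₁ hn₂
  have hT := TT_markov k (n₁ + n₂)
  induction M generalizing S with
  | zero => exact le_rfl
  | succ M ih =>
    have e1 : ((WM k n₁ n₂) ^ (M + 1)) g0 = WM k n₁ n₂ (((WM k n₁ n₂) ^ M) g0) := by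
      rw [pow_succ']; rfl
    have e2 : ((TT k (n₁ + n₂)) ^ (M + 1)) g0 = ((TT k (n₁ + n₂)) ^ M) (TT k (n₁ + n₂) g0) := by
      rw [pow_succ]; rfl
    rw [e1, e2]
    have h1 := hW.ord _ _ (fun S => ih S) S
    refine h1.trans ?_
    have hc : Commute ((TT k (n₁ + n₂)) ^ M) (WM k n₁ n₂) := (WM_comm k).pow_left M
    have e3 : WM k n₁ n₂ (((TT k (n₁ + n₂)) ^ M) g0) = ((TT k (n₁ + n₂)) ^ M) (WM k n₁ n₂ g0) :=
      (congrArg (fun f : Module.End ℝ (Fn (Asg (n₁ + n₂))) => f g0) hc.eq).symm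
    rw [e3]
    exact (hT.pow M).ord _ _ (fun S => WM_g0_le k hn₁ hn₂ S) S

/-! ### Product sets -/

open Classical in
/-- Product of two sets of assignments. -/
noncomputable def prodS (S₁ : Finset (Asg n₁)) (S₂ : Finset (Asg n₂)) : Finset (Asg (n₁ + n₂)) :=
  Finset.univ.filter (fun σ => σ ∘ Fin.castAdd n₂ ∈ S₁ ∧ σ ∘ Fin.natAdd n₁ ∈ S₂)

lemma mem_prodS {S₁ : Finset (Asg n₁)} {S₂ : Finset (Asg n₂)} {σ : Asg (n₁ + n₂)} :
    σ ∈ prodS S₁ S₂ ↔ σ ∘ Fin.castAdd n₂ ∈ S₁ ∧ σ ∘ Fin.natAdd n₁ ∈ S₂ := by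
  simp [prodS]

lemma prodS_univ : prodS (Finset.univ : Finset (Asg n₁)) (Finset.univ : Finset (Asg n₂))
    = Finset.univ := by
  ext σ
  simp [mem_prodS]

lemma prodS_inter_left (S₁ : Finset (Asg n₁)) (S₂ : Finset (Asg n₂)) {k : ℕ} (C : WCl k n₁) :
    prodS S₁ S₂ ∩ solW (upC (Fin.castAdd n₂) C) = prodS (S₁ ∩ solW C) S₂ := by
  ext σ
  simp only [Finset.mem_inter, mem_prodS, mem_solW_upC]
  tauto

lemma prodS_inter_right (S₁ : Finset (Asg n₁)) (S₂ : Finset (Asg n₂)) {k : ℕ} (C : WCl k n₂) :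
    prodS S₁ S₂ ∩ solW (upC (Fin.natAdd n₁) C) = prodS S₁ (S₂ ∩ solW C) := by
  ext σ
  simp only [Finset.mem_inter, mem_prodS, mem_solW_upC]
  tauto

lemma g0_prodS (S₁ : Finset (Asg n₁)) (S₂ : Finset (Asg n₂)) :
    (g0 : Fn (Asg (n₁ + n₂))) (prodS S₁ S₂) = g0 S₁ * g0 S₂ := by
  unfold g0
  by_cases h1 : S₁.Nonempty
  · by_cases h2 : S₂.Nonempty
    · rw [if_pos h1, if_pos h2, if_pos, one_mul]
      obtain ⟨a, ha⟩ := h1
      obtain ⟨b, hb⟩ := h2
      refine ⟨Fin.append a b, mem_prodS.mpr ⟨?_, ?_⟩⟩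
      · have : (Fin.append a b : Fin (n₁ + n₂) → Bool) ∘ Fin.castAdd n₂ = a := by
          funext i; simp
        rwa [this]
      · have : (Fin.append a b : Fin (n₁ + n₂) → Bool) ∘ Fin.natAdd n₁ = b := by
          funext i; simp
        rwa [this]
    · rw [if_neg h2, if_neg, mul_zero]
      rintro ⟨σ, hσ⟩
      exact h2 ⟨_, (mem_prodS.mp hσ).2⟩
  · rw [if_neg h1, if_neg, zero_mul]
    rintro ⟨σ, hσ⟩
    exact h1 ⟨_, (mem_prodS.mp hσ).1⟩

/-- Product formula. -/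
lemma pow_TB_prod (k : ℕ) (a c : ℕ) (S₁ : Finset (Asg n₁)) (S₂ : Finset (Asg n₂)) :
    ((TB k (Fin.castAdd n₂ : Fin n₁ → Fin (n₁ + n₂))) ^ a *
      (TB k (Fin.natAdd n₁ : Fin n₂ → Fin (n₁ + n₂))) ^ c) g0 (prodS S₁ S₂)
      = ((TT k n₁) ^ a) g0 S₁ * ((TT k n₂) ^ c) g0 S₂ := by
  show ((TB k (Fin.castAdd n₂ : Fin n₁ → Fin (n₁ + n₂))) ^ a)
    (((TB k (Fin.natAdd n₁ : Fin n₂ → Fin (n₁ + n₂))) ^ c) g0) (prodS S₁ S₂) = _
  induction a generalizing S₁ with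
  | zero =>
    simp only [pow_zero, Module.End.one_apply]
    induction c generalizing S₂ with
    | zero =>
      simp only [pow_zero, Module.End.one_apply]
      exact g0_prodS S₁ S₂
    | succ c ih =>
      have e1 : ((TB k (Fin.natAdd n₁ : Fin n₂ → Fin (n₁ + n₂))) ^ (c + 1)) g0
          = TB k (Fin.natAdd n₁ : Fin n₂ → Fin (n₁ + n₂))
            (((TB k (Fin.natAdd n₁ : Fin n₂ → Fin (n₁ + n₂))) ^ c) g0) := by
        rw [pow_succ']; rfl
      have e2 : ((TT k n₂) ^ (c + 1)) g0 = TT k n₂ (((TT k n₂) ^ c) g0) := by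
        rw [pow_succ']; rfl
      rw [e1, e2]
      unfold TB TT
      rw [Avg_apply, Avg_apply]
      simp only [prodS_inter_right]
      have : ∀ C : WCl k n₂, ((Avg (fun C : WCl k n₂ => solW (upC (Fin.natAdd n₁) C))) ^ c) g0
          (prodS S₁ (S₂ ∩ solW C)) = g0 S₁ * (((Avg (solW (j := k) (n := n₂))) ^ c) g0 (S₂ ∩ solW C)) := by
        intro C
        have := ih (S₂ ∩ solW C)
        unfold TB TT at this
        exact this
      simp only [this]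
      rw [← Finset.mul_sum, mul_div_assoc]
  | succ a ih =>
    have e1 : ∀ f : Fn (Asg (n₁ + n₂)), ((TB k (Fin.castAdd n₂ : Fin n₁ → Fin (n₁ + n₂))) ^ (a + 1)) f
        = TB k (Fin.castAdd n₂ : Fin n₁ → Fin (n₁ + n₂))
          (((TB k (Fin.castAdd n₂ : Fin n₁ → Fin (n₁ + n₂))) ^ a) f) := by
      intro f
      rw [pow_succ']; rfl
    have e2 : ((TT k n₁) ^ (a + 1)) g0 = TT k n₁ (((TT k n₁) ^ a) g0) := by
      rw [pow_succ']; rfl
    rw [e1, e2]
    unfold TB TT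
    rw [Avg_apply, Avg_apply]
    simp only [prodS_inter_left]
    have : ∀ C : WCl k n₁, ((Avg (fun C : WCl k n₁ => solW (upC (Fin.castAdd n₂) C))) ^ a)
        (((Avg (fun C : WCl k n₂ => solW (upC (Fin.natAdd n₁) C))) ^ c) g0)
        (prodS (S₁ ∩ solW C) S₂)
        = (((Avg (solW (j := k) (n := n₁))) ^ a) g0 (S₁ ∩ solW C)) * (((Avg (solW (j := k) (n := n₂))) ^ c) g0 S₂) := by
      intro C
      have := ih (S₁ ∩ solW C)
      unfold TB TT at this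
      exact this
    simp only [this]
    rw [← Finset.sum_mul, div_mul_eq_mul_div]

/-- The binomial expansion of the mixture at the top. -/
lemma WM_pow_univ (k M : ℕ) :
    ((WM k n₁ n₂) ^ M) g0 Finset.univ = ∑ b ∈ Finset.range (M + 1),
      bw (lam n₁ n₂) M b * (((TT k n₁) ^ b) g0 Finset.univ * ((TT k n₂) ^ (M - b)) g0 Finset.univ) := by
  have hc : Commute (lam n₁ n₂ • TB k (Fin.castAdd n₂ : Fin n₁ → Fin (n₁ + n₂)))
      ((1 - lam n₁ n₂) • TB k (Fin.natAdd n₁ : Fin n₂ → Fin (n₁ + n₂))) := by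
    unfold TB
    exact ((Avg_comm _ _).smul_left _).smul_right _
  unfold WM
  rw [hc.add_pow, LinearMap.sum_apply, Finset.sum_apply]
  refine Finset.sum_congr rfl (fun b _ => ?_)
  have e : (lam n₁ n₂ • TB k (Fin.castAdd n₂ : Fin n₁ → Fin (n₁ + n₂))) ^ b
      * ((1 - lam n₁ n₂) • TB k (Fin.natAdd n₁ : Fin n₂ → Fin (n₁ + n₂))) ^ (M - b)
      * ((M.choose b : ℕ) : Module.End ℝ (Fn (Asg (n₁ + n₂))))
      = (bw (lam n₁ n₂) M b) • ((TB k (Fin.castAdd n₂ : Fin n₁ → Fin (n₁ + n₂))) ^ b *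
        (TB k (Fin.natAdd n₁ : Fin n₂ → Fin (n₁ + n₂))) ^ (M - b)) := by
    rw [smul_pow, smul_pow, smul_mul_smul_comm, smul_mul_assoc]
    rw [← nsmul_eq_mul', ← Nat.cast_smul_eq_nsmul ℝ, smul_smul]
    congr 1
    unfold bw
    ring
  rw [e]
  simp only [LinearMap.smul_apply, Pi.smul_apply, smul_eq_mul]
  rw [← prodS_univ, pow_TB_prod]

/-- The supermultiplicativity. -/
theorem mixing (hn₁ : 0 < n₁) (hn₂ : 0 < n₂) (M : ℕ) :
    ∑ b ∈ Finset.range (M + 1), bw (lam n₁ n₂) M b * (pn j n₁ b * pn j n₂ (M - b))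
      ≤ pn j (n₁ + n₂) M := by
  have h := hybrid_WM (j + 1) hn₁ hn₂ M Finset.univ
  rw [WM_pow_univ] at h
  exact h

/-! ### Restriction -/

/-- Restricting the variables. -/
theorem restrict_le {n N : ℕ} (hn : 0 < n) (hnN : n ≤ N) (x : ℕ) :
    pn j N x ≤ ∑ b ∈ Finset.range (x + 1), bw (thn (j + 1) n N) x b * pn j n b := by
  have : NeZero n := ⟨hn.ne'⟩
  have : NeZero N := ⟨by omega⟩
  set ι : Fin n → Fin N := Fin.castLE hnN with hι
  have hinj : Function.Injective ι := Fin.castLE_injective hnN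
  set θ := thn (j + 1) n N with hθ
  have h0 : 0 ≤ θ := thn_nonneg _ _ _
  have h1 : θ ≤ 1 := thn_le_one _ hnN
  set P : Module.End ℝ (Fn (Asg n)) := θ • TT (j + 1) n + (1 - θ) • 1 with hP
  have hPm : Markov P := Markov.convex (TT_markov _ _) Markov.one h0 (by linarith) (by ring)
  have hstep : ∀ ψ : Fn (Asg n), MU ψ → ∀ S, TT (j + 1) N (fun S => ψ (proj ι S)) S ≤ P ψ (proj ι S) + 0 := by
    intro ψ hψ S
    have := TT_proj_le (j := j + 1) hinj hn hψ.1 S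
    rw [add_zero, hP]
    simpa using this
  have h2 := iter_le (TT_markov (j + 1) N) hPm (proj ι) hstep x g0 MU_g0 Finset.univ
  rw [proj_univ hinj] at h2
  have hg0 : (fun S => (g0 : Fn (Asg n)) (proj ι S)) = g0 := by
    funext S
    rw [g0_proj]
  rw [hg0] at h2
  simp only [mul_zero, add_zero] at h2
  refine h2.trans (le_of_eq ?_)
  rw [hP, thin_pow]
  rfl

end Vale.Agent.Lib.P170T
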