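import Vale.Agent.Lib.P170T.Model
import Vale.Agent.Lib.P170.MixFinite

/-!
Mixing in the iid-literal model: a clause on `n₁ + n₂` variables is no more lethal than a mixture
of clauses inside the two blocks.
-/

namespace Vale.Agent.Lib.P170T

open Finset Vale.Agent.Lib.P170

set_option linter.unusedSectionVars false
set_option linter.unusedVariables false

section mix

variable {k n₁ n₂ : ℕ}

open Classical in
/-- Assignments whose first block satisfies the clause. -/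
noncomputable def solLW (C : WClause k n₁) : Finset (Fin (n₁ + n₂) → Bool) :=
  Finset.univ.filter (fun σ => resL σ ∈ solW C)

open Classical in
/-- Assignments whose second block satisfies the clause. -/
noncomputable def solRW (C : WClause k n₂) : Finset (Fin (n₁ + n₂) → Bool) :=
  Finset.univ.filter (fun σ => resR σ ∈ solW C)

lemma mem_solLW {C : WClause k n₁} {σ : Fin (n₁ + n₂) → Bool} :
    σ ∈ solLW C ↔ resL σ ∈ solW C := by
  simp [solLW]

lemma mem_solRW {C : WClause k n₂} {σ : Fin (n₁ + n₂) → Bool} :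
    σ ∈ solRW C ↔ resR σ ∈ solW C := by
  simp [solRW]

lemma g0_inter_solLW (S : Finset (Fin (n₁ + n₂) → Bool)) (C : WClause k n₁) :
    (g0 : Fn _) (S ∩ solLW C) = (g0 : Fn _) (S.image resL ∩ solW C) := by
  rw [g0_eq_ite, g0_eq_ite]
  congr 1
  apply propext
  constructor
  · rintro ⟨σ, hσ⟩
    rw [Finset.mem_inter] at hσ
    exact ⟨resL σ, Finset.mem_inter.mpr ⟨Finset.mem_image_of_mem _ hσ.1, mem_solLW.mp hσ.2⟩⟩
  · rintro ⟨τ, hτ⟩
    rw [Finset.mem_inter, Finset.mem_image] at hτ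
    obtain ⟨⟨σ, hσ, rfl⟩, h2⟩ := hτ
    exact ⟨σ, Finset.mem_inter.mpr ⟨hσ, mem_solLW.mpr h2⟩⟩

lemma g0_inter_solRW (S : Finset (Fin (n₁ + n₂) → Bool)) (C : WClause k n₂) :
    (g0 : Fn _) (S ∩ solRW C) = (g0 : Fn _) (S.image resR ∩ solW C) := by
  rw [g0_eq_ite, g0_eq_ite]
  congr 1
  apply propext
  constructor
  · rintro ⟨σ, hσ⟩
    rw [Finset.mem_inter] at hσ
    exact ⟨resR σ, Finset.mem_inter.mpr ⟨Finset.mem_image_of_mem _ hσ.1, mem_solRW.mp hσ.2⟩⟩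
  · rintro ⟨τ, hτ⟩
    rw [Finset.mem_inter, Finset.mem_image] at hτ
    obtain ⟨⟨σ, hσ, rfl⟩, h2⟩ := hτ
    exact ⟨σ, Finset.mem_inter.mpr ⟨hσ, mem_solRW.mpr h2⟩⟩

lemma Avg_solLW_g0 (hn : 0 < n₁) {S : Finset (Fin (n₁ + n₂) → Bool)} (hS : S.Nonempty) :
    Avg (solLW : WClause k n₁ → _) (g0 : Fn _) S = 1 - gW (S.image resL) ^ k := by
  rw [← TW_g0 hn (hS.image _)]
  unfold TW TT
  rw [Avg_apply, Avg_apply]
  simp only [g0_inter_solLW]

lemma Avg_solRW_g0 (hn : 0 < n₂) {S : Finset (Fin (n₁ + n₂) → Bool)} (hS : S.Nonempty) :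
    Avg (solRW : WClause k n₂ → _) (g0 : Fn _) S = 1 - gW (S.image resR) ^ k := by
  rw [← TW_g0 hn (hS.image _)]
  unfold TW TT
  rw [Avg_apply, Avg_apply]
  simp only [g0_inter_solRW]

/-- The frozen fraction on the whole is the weighted mean of the two blocks. -/
lemma gW_split (hn₁ : 0 < n₁) (hn₂ : 0 < n₂) (S : Finset (Fin (n₁ + n₂) → Bool)) :
    gW S = ((n₁ : ℝ) / ((n₁ + n₂ : ℕ) : ℝ)) * gW (S.image resL)
      + ((n₂ : ℝ) / ((n₁ + n₂ : ℕ) : ℝ)) * gW (S.image resR) := by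
  unfold gW gg
  rw [falseLits_card_split]
  have h1 : (0 : ℝ) < n₁ := by exact_mod_cast hn₁
  have h2 : (0 : ℝ) < n₂ := by exact_mod_cast hn₂
  push_cast
  field_simp

/-- The pointwise comparison. -/
lemma pointwise_mixW (hk : 1 ≤ k) (hn₁ : 0 < n₁) (hn₂ : 0 < n₂)
    (S : Finset (Fin (n₁ + n₂) → Bool)) :
    Lazy2 (solLW : WClause k n₁ → _) (solRW : WClause k n₂ → _)
        ((n₁ : ℝ) / ((n₁ + n₂ : ℕ) : ℝ)) ((n₂ : ℝ) / ((n₁ + n₂ : ℕ) : ℝ))
        (g0 : Fn (Fin (n₁ + n₂) → Bool)) S - 0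
      ≤ Lazy1 (solW : WClause k (n₁ + n₂) → _) 1 (g0 : Fn (Fin (n₁ + n₂) → Bool)) S := by
  have i₁ := nonempty_WClause (j := k) hn₁
  have i₂ := nonempty_WClause (j := k) hn₂
  have i₀ := nonempty_WClause (j := k) (n := n₁ + n₂) (by omega)
  have h1 : (0 : ℝ) < n₁ := by exact_mod_cast hn₁
  have h2 : (0 : ℝ) < n₂ := by exact_mod_cast hn₂
  have hN : (0 : ℝ) < ((n₁ + n₂ : ℕ) : ℝ) := by push_cast; linarith
  set l₁ : ℝ := (n₁ : ℝ) / ((n₁ + n₂ : ℕ) : ℝ) with hl₁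
  set l₂ : ℝ := (n₂ : ℝ) / ((n₁ + n₂ : ℕ) : ℝ) with hl₂
  have hsum : l₁ + l₂ = 1 := by
    rw [hl₁, hl₂, ← add_div]
    push_cast
    field_simp
  rw [Lazy1_apply, Lazy2_apply]
  by_cases hS : S.Nonempty
  · rw [Avg_solLW_g0 hn₁ hS, Avg_solRW_g0 hn₂ hS]
    have e : Avg (solW : WClause k (n₁ + n₂) → _) (g0 : Fn (Fin (n₁ + n₂) → Bool)) S
        = 1 - gW S ^ k := TW_g0 (j := k) (n := n₁ + n₂) (by omega) hS
    rw [e, gW_split hn₁ hn₂ S]
    have hc := (convexOn_pow (𝕜 := ℝ) k).2 (x := gW (S.image resL)) (y := gW (S.image resR))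
      (Set.mem_Ici.mpr (gW_nonneg _)) (Set.mem_Ici.mpr (gW_nonneg _))
      (show 0 ≤ l₁ by positivity) (show 0 ≤ l₂ by positivity) hsum
    simp only [smul_eq_mul] at hc
    have hg : (g0 : Fn (Fin (n₁ + n₂) → Bool)) S = 1 := by
      rw [g0_eq_ite, if_pos hS]
    rw [hg]
    have e3 : 1 - l₁ - l₂ = 0 := by linarith
    rw [e3]
    nlinarith
  · rw [Finset.not_nonempty_iff_eq_empty] at hS
    subst hS
    rw [Avg_g0_empty, Avg_g0_empty, Avg_g0_empty, g0_empty]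
    simp

lemma Lazy1_one {X : Type} [DecidableEq X] {Ω : Type} [Fintype Ω] (A : Ω → Finset X) :
    Lazy1 A 1 = Avg A := by
  unfold Lazy1
  simp

/-- The product formula: two independent systems on disjoint variable sets. -/
lemma prod_formulaW (hk : 1 ≤ k) (hn₁ : 0 < n₁) (hn₂ : 0 < n₂) (a b : ℕ) :
    ((Avg (solLW : WClause k n₁ → _)) ^ a)
        (((Avg (solRW : WClause k n₂ → _)) ^ b) (g0 : Fn (Fin (n₁ + n₂) → Bool))) Finset.univ
      = pW k n₁ a * pW k n₂ b := by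
  classical
  have := nonempty_WClause (j := k) hn₁
  have := nonempty_WClause (j := k) hn₂
  unfold pW TW TT
  apply prod_abstract
  intro F₁ F₂
  rw [g0_eq_ite, g0_eq_ite, g0_eq_ite]
  by_cases hL : ∃ τ : Fin n₁ → Bool, ∀ i, τ ∈ solW (F₁ i)
  · by_cases hR : ∃ τ : Fin n₂ → Bool, ∀ i, τ ∈ solW (F₂ i)
    · obtain ⟨τ₁, ht₁⟩ := hL
      obtain ⟨τ₂, ht₂⟩ := hR
      have n1 : (Finset.univ.filter (fun x => ∀ i, x ∈ solW (F₁ i))).Nonempty :=
        ⟨τ₁, by simpa using ht₁⟩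
      have n2 : (Finset.univ.filter (fun x => ∀ i, x ∈ solW (F₂ i))).Nonempty :=
        ⟨τ₂, by simpa using ht₂⟩
      rw [if_pos n1, if_pos n2, if_pos]
      · norm_num
      · refine ⟨Fin.append τ₁ τ₂, ?_⟩
        simp only [Finset.mem_filter, Finset.mem_univ, true_and]
        have eL : resL (Fin.append τ₁ τ₂) = τ₁ := by
          funext i
          simp [resL]
        have eR : resR (Fin.append τ₁ τ₂) = τ₂ := by
          funext i
          simp [resR]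
        constructor
        · intro i
          rw [mem_solLW, eL]
          exact ht₁ i
        · intro i
          rw [mem_solRW, eR]
          exact ht₂ i
    · have n2 : ¬ (Finset.univ.filter (fun x => ∀ i, x ∈ solW (F₂ i))).Nonempty := by
        rintro ⟨τ, ht⟩
        exact hR ⟨τ, by simpa using ht⟩
      rw [if_neg n2, if_neg]
      · simp
      · rintro ⟨σ, hσ⟩
        simp only [Finset.mem_filter, Finset.mem_univ, true_and] at hσ
        exact hR ⟨resR σ, fun i => mem_solRW.mp (hσ.2 i)⟩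
  · have n1 : ¬ (Finset.univ.filter (fun x => ∀ i, x ∈ solW (F₁ i))).Nonempty := by
      rintro ⟨τ, ht⟩
      exact hL ⟨τ, by simpa using ht⟩
    rw [if_neg n1, if_neg]
    · simp
    · rintro ⟨σ, hσ⟩
      simp only [Finset.mem_filter, Finset.mem_univ, true_and] at hσ
      exact hL ⟨resL σ, fun i => mem_solLW.mp (hσ.1 i)⟩

/-- Mixing inequality, Chebyshev form: if `x` clauses on `n₁ + n₂` variables are split in
proportion and the block budgets `J₁`, `J₂` exceed the means by `t`, then the product of the block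
probabilities (up to the Chebyshev factor) bounds the probability on the whole. -/
theorem mix_W (hk : 1 ≤ k) (hn₁ : 0 < n₁) (hn₂ : 0 < n₂) {x J₁ J₂ : ℕ} {t : ℝ} (ht : 0 < t)
    (h₁ : (x : ℝ) * ((n₁ : ℝ) / ((n₁ + n₂ : ℕ) : ℝ)) + t ≤ J₁)
    (h₂ : (x : ℝ) * ((n₂ : ℝ) / ((n₁ + n₂ : ℕ) : ℝ)) + t ≤ J₂) :
    (1 - (x : ℝ) / t ^ 2) * (pW k n₁ J₁ * pW k n₂ J₂) ≤ pW k (n₁ + n₂) x := by
  have i₁ := nonempty_WClause (j := k) hn₁
  have i₂ := nonempty_WClause (j := k) hn₂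
  have i₀ := nonempty_WClause (j := k) (n := n₁ + n₂) (by omega)
  have hn1 : (0 : ℝ) < n₁ := by exact_mod_cast hn₁
  have hn2 : (0 : ℝ) < n₂ := by exact_mod_cast hn₂
  have hN : (0 : ℝ) < ((n₁ + n₂ : ℕ) : ℝ) := by push_cast; linarith
  set l₁ : ℝ := (n₁ : ℝ) / ((n₁ + n₂ : ℕ) : ℝ) with hl₁
  set l₂ : ℝ := (n₂ : ℝ) / ((n₁ + n₂ : ℕ) : ℝ) with hl₂
  have hsum : l₁ + l₂ = 1 := by
    rw [hl₁, hl₂, ← add_div]
    push_cast
    field_simp
  have hl₁0 : 0 ≤ l₁ := by positivity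
  have hl₂0 : 0 ≤ l₂ := by positivity
  have hh := hybrid (solW : WClause k (n₁ + n₂) → _) (solLW : WClause k n₁ → _)
    (solRW : WClause k n₂ → _) (a := 1) (b₁ := l₁) (b₂ := l₂) (e := 0) (by norm_num) (by norm_num)
    hl₁0 hl₂0 (by linarith) (pointwise_mixW hk hn₁ hn₂) x Finset.univ
  have hg := lazy2_ge (solLW : WClause k n₁ → _) (solRW : WClause k n₂ → _) hl₁0 hl₂0
    (by linarith : l₁ + l₂ ≤ 1) ht ht (J₁ := J₁) (J₂ := J₂) (N := x) h₁ h₂
    (Finset.univ : Finset (Fin (n₁ + n₂) → Bool))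
  rw [prod_formulaW hk hn₁ hn₂] at hg
  rw [Lazy1_one] at hh
  have e1 : pW k (n₁ + n₂) x = ((Avg (solW : WClause k (n₁ + n₂) → _)) ^ x)
      (g0 : Fn (Fin (n₁ + n₂) → Bool)) Finset.univ := rfl
  rw [e1]
  have e2 : 1 - (x : ℝ) * l₁ / t ^ 2 - (x : ℝ) * l₂ / t ^ 2 = 1 - (x : ℝ) / t ^ 2 := by
    have : (x : ℝ) = (x : ℝ) * (l₁ + l₂) := by rw [hsum, mul_one]
    field_simp
    nlinarith
  rw [e2] at hg
  linarith

end mix

end Vale.Agent.Lib.P170T
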