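import Vale.Agent.Lib.P170.MixConcrete
import Vale.Agent.Lib.P170T.Basic

/-!
The iid-literal model of random clauses: a `j`-clause is a `j`-tuple of literals, each uniform.
Short names on top of `Basic`.
-/

namespace Vale.Agent.Lib.P170T

open Finset Vale.Agent.Lib.P170

set_option linter.unusedSectionVars false
set_option linter.unusedVariables false

/-- A clause of the iid model: a tuple of literals. -/
abbrev WClause (j n : ℕ) := WCl j n

/-- The averaging operator over a uniform `j`-clause of the iid model. -/
noncomputable abbrev TW (j n : ℕ) : Module.End ℝ (Fn (Fin n → Bool)) := TT j n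

/-- Probability that `m` iid `k`-clauses on `n` variables are satisfiable. -/
noncomputable def pW (k n m : ℕ) : ℝ := ((TW k n) ^ m) (g0 : Fn (Fin n → Bool)) Finset.univ

/-- Fraction of literals false on all of `S`. -/
noncomputable abbrev gW {n : ℕ} (S : Finset (Fin n → Bool)) : ℝ := gg S

lemma gW_nonneg {n : ℕ} (S : Finset (Fin n → Bool)) : 0 ≤ gW S := gg_nonneg S

lemma gW_anti {n : ℕ} {S T : Finset (Fin n → Bool)} (h : S ⊆ T) : gW T ≤ gW S := gg_anti h

lemma gW_le_one {n : ℕ} (S : Finset (Fin n → Bool)) : gW S ≤ 1 := by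
  unfold gW gg
  apply div_le_one_of_le₀ _ (by positivity)
  have h : (falseLits S).card ≤ (Finset.univ : Finset (Fin n × Bool)).card :=
    Finset.card_le_card (Finset.subset_univ _)
  simp only [Finset.card_univ, Fintype.card_prod, Fintype.card_fin, Fintype.card_bool] at h
  have h' : ((falseLits S).card : ℝ) ≤ ((n * 2 : ℕ) : ℝ) := by exact_mod_cast h
  push_cast at h'
  linarith

lemma card_WClause (j n : ℕ) : (Fintype.card (WClause j n) : ℝ) = (2 * (n : ℝ)) ^ j := by
  simp only [Fintype.card_fun, Fintype.card_prod, Fintype.card_fin, Fintype.card_bool]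
  push_cast
  ring

open Classical in
lemma card_killW {j n : ℕ} (S : Finset (Fin n → Bool)) :
    (Finset.univ.filter (fun C : WClause j n => S ∩ solW C = ∅)).card = (falseLits S).card ^ j := by
  have h : (Finset.univ.filter (fun C : WClause j n => S ∩ solW C = ∅))
      = Fintype.piFinset (fun _ : Fin j => falseLits S) := by
    ext C
    simp only [Finset.mem_filter, Finset.mem_univ, true_and, Fintype.mem_piFinset]
    exact inter_solW_eq_empty
  rw [h, Fintype.card_piFinset]
  simp

/-- The exact formula for one step applied to the indicator of being nonempty. -/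
lemma TW_g0 {j n : ℕ} (hn : 0 < n) {S : Finset (Fin n → Bool)} (hS : S.Nonempty) :
    TW j n (g0 : Fn (Fin n → Bool)) S = 1 - gW S ^ j := by
  have h := TT_g0 j n hn S
  have hg : (g0 : Fn (Fin n → Bool)) S = 1 := by
    unfold g0
    rw [if_pos hS]
  rw [hg, one_mul] at h
  exact h

lemma nonempty_WClause {j n : ℕ} (hn : 0 < n) : Nonempty (WClause j n) :=
  ⟨fun _ => (⟨0, hn⟩, true)⟩

lemma pW_zero (k n : ℕ) : pW k n 0 = 1 := by
  unfold pW
  simp only [pow_zero, Module.End.one_apply]
  unfold g0
  rw [if_pos]
  exact ⟨fun _ => true, Finset.mem_univ _⟩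

end Vale.Agent.Lib.P170T
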