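import Vale.Agent.Lib.P170T.Slice

namespace Vale.Agent.Lib.P170T

open Finset Vale.Agent.Lib.P170

set_option linter.unusedSectionVars false
set_option linter.unusedVariables false

section pascal

variable {X : Type} [DecidableEq X]

lemma Markov.convex3 {T U V : Module.End ℝ (Fn X)} (hT : Markov T) (hU : Markov U) (hV : Markov V)
    {a b c : ℝ} (ha : 0 ≤ a) (hb : 0 ≤ b) (hc : 0 ≤ c) (hab : a + b + c = 1) :
    Markov (a • T + b • U + c • V) := by
  refine ⟨((hT.ord.smul ha).add (hU.ord.smul hb)).add (hV.ord.smul hc),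
    ((hT.mono.smul ha).add (hU.mono.smul hb)).add (hV.mono.smul hc), ?_⟩
  intro e
  funext S
  simp only [LinearMap.add_apply, LinearMap.smul_apply, Pi.add_apply, Pi.smul_apply, hT.const,
    hU.const, hV.const, smul_eq_mul]
  rw [← add_mul, ← add_mul, hab, one_mul]

variable (P B R : Module.End ℝ (Fn X)) (q : ℝ) (w : Fn X)

/-- The differences. -/
noncomputable def vv (e : ℕ) : Fn X := (B ^ e) (w - B w)

/-- The Pascal bound. -/
noncomputable def TTx (x : ℕ) : Fn X :=
  ∑ e ∈ Finset.range x, (q ^ (e + 1) * (x.choose (e + 1) : ℝ)) • (P ^ (x - 1 - e)) (vv B w e)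

variable {P B R q w}

lemma vv_nonneg (hB : Markov B) (hw : ∀ S, 0 ≤ (w - B w) S) (e : ℕ) (S : Finset X) :
    0 ≤ vv B w e S := (hB.pow e).nonneg hw S

lemma vv_succ (e : ℕ) : vv B w (e + 1) = B (vv B w e) := by
  unfold vv
  rw [pow_succ']
  rfl

lemma TTx_nonneg (hP : Markov P) (hB : Markov B) (hq : 0 ≤ q) (hw : ∀ S, 0 ≤ (w - B w) S)
    (x : ℕ) (S : Finset X) : 0 ≤ TTx P B q w x S := by
  unfold TTx
  rw [Finset.sum_apply]
  refine Finset.sum_nonneg (fun e _ => ?_)
  simp only [Pi.smul_apply, smul_eq_mul]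
  exact mul_nonneg (by positivity) ((hP.pow _).nonneg (vv_nonneg hB hw e) S)

lemma TTx_step (hcomm : Commute P B) (x : ℕ) :
    TTx P B q w (x + 1) = P (TTx P B q w x) + q • B (TTx P B q w x) + q • (P ^ x) (w - B w) := by
  unfold TTx
  rw [map_sum, map_sum, Finset.smul_sum]
  simp only [map_smul]
  -- split the binomial coefficient
  have h1 : ∀ e ∈ Finset.range (x + 1),
      (q ^ (e + 1) * ((x + 1).choose (e + 1) : ℝ)) • (P ^ (x + 1 - 1 - e)) (vv B w e)
      = (q ^ (e + 1) * (x.choose (e + 1) : ℝ)) • (P ^ (x - e)) (vv B w e)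
        + (q ^ (e + 1) * (x.choose e : ℝ)) • (P ^ (x - e)) (vv B w e) := by
    intro e _
    rw [Nat.choose_succ_succ, Nat.add_sub_cancel, ← add_smul]
    congr 1
    push_cast
    ring
  rw [Finset.sum_congr rfl h1, Finset.sum_add_distrib]
  rw [Finset.sum_range_succ (fun e => (q ^ (e + 1) * (x.choose (e + 1) : ℝ)) • (P ^ (x - e)) (vv B w e))]
  rw [Finset.sum_range_succ' (fun e => (q ^ (e + 1) * (x.choose e : ℝ)) • (P ^ (x - e)) (vv B w e))]
  have h2 : x.choose (x + 1) = 0 := Nat.choose_succ_self x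
  simp only [h2, Nat.cast_zero, mul_zero, zero_smul, add_zero]
  have h3 : ∀ e ∈ Finset.range x, (q ^ (e + 1) * (x.choose (e + 1) : ℝ)) • (P ^ (x - e)) (vv B w e)
      = (q ^ (e + 1) * (x.choose (e + 1) : ℝ)) • P ((P ^ (x - 1 - e)) (vv B w e)) := by
    intro e he
    have hlt : e < x := Finset.mem_range.mp he
    have h0 : x - e = (x - 1 - e) + 1 := by omega
    have h00 : (P ^ (x - e)) (vv B w e) = P ((P ^ (x - 1 - e)) (vv B w e)) := by
      rw [h0, pow_succ']
      rfl
    rw [h00]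
  have h4 : ∀ e ∈ Finset.range x,
      (q ^ (e + 1 + 1) * (x.choose (e + 1) : ℝ)) • (P ^ (x - (e + 1))) (vv B w (e + 1))
      = q • ((q ^ (e + 1) * (x.choose (e + 1) : ℝ)) • B ((P ^ (x - 1 - e)) (vv B w e))) := by
    intro e he
    have hc : Commute (P ^ (x - 1 - e)) B := hcomm.pow_left _
    have e1 : (P ^ (x - 1 - e)) (B (vv B w e)) = B ((P ^ (x - 1 - e)) (vv B w e)) :=
      congrArg (fun f : Module.End ℝ (Fn X) => f (vv B w e)) hc.eq
    rw [vv_succ, smul_smul]
    have : x - (e + 1) = x - 1 - e := by omega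
    rw [this, e1]
    congr 1
    ring
  rw [Finset.sum_congr rfl h3, Finset.sum_congr rfl h4]
  rw [← Finset.smul_sum]
  have h5 : (q ^ (0 + 1) * (x.choose 0 : ℝ)) • (P ^ (x - 0)) (vv B w 0) = q • (P ^ x) (w - B w) := by
    simp [vv]
  rw [h5]
  abel

/-- The Pascal inequality. -/
theorem pascal (hP : Markov P) (hB : Markov B) (hR : Markov R) (hcomm : Commute P B) (hq : 0 ≤ q)
    (hRdef : ∀ f : Fn X, R f = P f + q • B f - q • f) (hw : ∀ S, 0 ≤ (w - B w) S)
    (x : ℕ) (S : Finset X) :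
    (P ^ x) w S - (R ^ x) w S ≤ TTx P B q w x S := by
  induction x generalizing S with
  | zero => simp [TTx]
  | succ x ih =>
    have e1 : (P ^ (x + 1)) w = P ((P ^ x) w) := by rw [pow_succ']; rfl
    have e2 : (R ^ (x + 1)) w = R ((R ^ x) w) := by rw [pow_succ']; rfl
    have hc : Commute (P ^ x) B := hcomm.pow_left _
    have e3 : B ((P ^ x) w) = (P ^ x) (B w) :=
      (congrArg (fun f : Module.End ℝ (Fn X) => f w) hc.eq).symm
    have h1 : R ((P ^ x) w) = P ((P ^ x) w) + q • B ((P ^ x) w) - q • (P ^ x) w := hRdef _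
    -- the main decomposition
    have h3 : ∀ S, R ((P ^ x) w) S - R ((R ^ x) w) S ≤ R (TTx P B q w x) S := by
      intro S
      have h4 := hR.ord ((P ^ x) w) ((R ^ x) w + TTx P B q w x) (fun S => by
        have := ih S
        simp only [Pi.add_apply]
        linarith) S
      rw [map_add] at h4
      simp only [Pi.add_apply] at h4
      linarith
    have h5 : R (TTx P B q w x) S ≤ P (TTx P B q w x) S + q * B (TTx P B q w x) S := by
      rw [hRdef]
      simp only [Pi.sub_apply, Pi.add_apply, Pi.smul_apply, smul_eq_mul]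
      have := TTx_nonneg (q := q) (w := w) hP hB hq hw x S
      have h6 : 0 ≤ q * TTx P B q w x S := mul_nonneg hq this
      linarith
    have h7 : (P ^ x) (w - B w) S = (P ^ x) w S - (P ^ x) (B w) S := by
      rw [map_sub]; rfl
    rw [e1, e2, TTx_step hcomm]
    simp only [Pi.add_apply, Pi.smul_apply, smul_eq_mul]
    have h8 := h3 S
    rw [h1] at h8
    simp only [Pi.sub_apply, Pi.add_apply, Pi.smul_apply, smul_eq_mul] at h8
    rw [e3] at h8
    rw [h7]
    nlinarith

/-- Green bound. -/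
theorem green {A : Module.End ℝ (Fn X)} {θ : ℝ} (hA : Markov A) (hθ : 0 < θ) (hθ1 : θ ≤ 1)
    {P : Module.End ℝ (Fn X)} (hP : Markov P) (hPdef : ∀ f : Fn X, P f = θ • A f + (1 - θ) • f)
    {ψ : Fn X} (hψ : ∀ S, 0 ≤ ψ S) (Y : ℕ) (S : Finset X) :
    ∑ m ∈ Finset.range Y, (P ^ m) ψ S ≤ (1 / θ) * ∑ i ∈ Finset.range Y, (A ^ i) ψ S := by
  induction Y generalizing S with
  | zero => simp
  | succ Y ih =>
    -- work with the functions
    set Z : Fn X := ∑ m ∈ Finset.range Y, (P ^ m) ψ with hZ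
    set G : Fn X := ∑ i ∈ Finset.range Y, (A ^ i) ψ with hG
    have hZa : ∀ S, Z S = ∑ m ∈ Finset.range Y, (P ^ m) ψ S := fun S => by
      rw [hZ, Finset.sum_apply]
    have hGa : ∀ S, G S = ∑ i ∈ Finset.range Y, (A ^ i) ψ S := fun S => by
      rw [hG, Finset.sum_apply]
    have hG0 : ∀ S, 0 ≤ G S := fun S => by
      rw [hGa]
      exact Finset.sum_nonneg (fun i _ => (hA.pow i).nonneg hψ S)
    have e1 : ∑ m ∈ Finset.range (Y + 1), (P ^ m) ψ S = ψ S + P Z S := by
      rw [Finset.sum_range_succ']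
      rw [hZ, map_sum, Finset.sum_apply]
      have : ∀ m ∈ Finset.range Y, (P ^ (m + 1)) ψ S = P ((P ^ m) ψ) S := fun m _ => by
        rw [pow_succ']; rfl
      rw [Finset.sum_congr rfl this]
      simp only [pow_zero, Module.End.one_apply]
      ring
    have e2 : ∑ i ∈ Finset.range (Y + 1), (A ^ i) ψ S = ψ S + A G S := by
      rw [Finset.sum_range_succ']
      rw [hG, map_sum, Finset.sum_apply]
      have : ∀ m ∈ Finset.range Y, (A ^ (m + 1)) ψ S = A ((A ^ m) ψ) S := fun m _ => by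
        rw [pow_succ']; rfl
      rw [Finset.sum_congr rfl this]
      simp only [pow_zero, Module.End.one_apply]
      ring
    have h1 : P Z S ≤ P ((1 / θ) • G) S := hP.ord Z ((1 / θ) • G) (fun S => by
      have := ih S
      simp only [Pi.smul_apply, smul_eq_mul]
      rw [hZa, hGa]
      exact this) S
    have h2 : P ((1 / θ) • G) S = A G S + ((1 - θ) / θ) * G S := by
      rw [map_smul, hPdef]
      simp only [Pi.smul_apply, Pi.add_apply, smul_eq_mul]
      field_simp
    have h3 : G S ≤ ψ S + A G S := by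
      rw [← e2, hGa]
      exact Finset.sum_le_sum_of_subset_of_nonneg (Finset.range_subset_range.mpr (Nat.le_succ _))
        (fun i _ _ => (hA.pow i).nonneg hψ S)
    rw [e1, e2]
    have h4 : 0 ≤ (1 - θ) / θ := div_nonneg (by linarith) hθ.le
    have h5 : (1 / θ) * (ψ S + A G S) = (ψ S + A G S) + ((1 - θ) / θ) * (ψ S + A G S) := by
      field_simp
      ring
    rw [h5]
    have h6 := mul_le_mul_of_nonneg_left h3 h4
    linarith

/-- Summing the Pascal bound. -/
theorem sum_TTx_le (hP : Markov P) (hB : Markov B) (hq : 0 ≤ q) (hw : ∀ S, 0 ≤ (w - B w) S)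
    (Y : ℕ) (S : Finset X) :
    ∑ x ∈ Finset.range (Y + 1), TTx P B q w x S ≤
      ∑ e ∈ Finset.range Y, (q ^ (e + 1) * (Y.choose (e + 1) : ℝ)) *
        ∑ m ∈ Finset.range Y, (P ^ m) (vv B w e) S := by
  have hΦ : ∀ e m, 0 ≤ (P ^ m) (vv B w e) S := fun e m =>
    (hP.pow m).nonneg (vv_nonneg hB hw e) S
  unfold TTx
  simp only [Finset.sum_apply, Pi.smul_apply, smul_eq_mul]
  rw [Finset.sum_sigma']
  have h1 : ∑ x ∈ (Finset.range (Y + 1)).sigma (fun x => Finset.range x),
      (q ^ (x.2 + 1) * (x.1.choose (x.2 + 1) : ℝ)) * (P ^ (x.1 - 1 - x.2)) (vv B w x.2) S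
      = ∑ z ∈ (Finset.range Y).sigma (fun e => Finset.range (Y - 1 - e + 1)),
        (q ^ (z.1 + 1) * ((z.1 + 1 + z.2).choose (z.1 + 1) : ℝ)) * (P ^ z.2) (vv B w z.1) S := by
    apply Finset.sum_nbij' (fun x => ⟨x.2, x.1 - 1 - x.2⟩) (fun z => ⟨z.1 + 1 + z.2, z.1⟩)
    · rintro ⟨x, e⟩ h
      simp only [Finset.mem_sigma, Finset.mem_range] at h ⊢
      omega
    · rintro ⟨e, m⟩ h
      simp only [Finset.mem_sigma, Finset.mem_range] at h ⊢
      omega
    · rintro ⟨x, e⟩ h
      simp only [Finset.mem_sigma, Finset.mem_range] at h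
      simp only [Sigma.mk.injEq, heq_eq_eq]
      refine ⟨by omega, trivial⟩
    · rintro ⟨e, m⟩ h
      simp only [Finset.mem_sigma, Finset.mem_range] at h
      simp only [Sigma.mk.injEq, heq_eq_eq]
      refine ⟨trivial, by omega⟩
    · rintro ⟨x, e⟩ h
      simp only [Finset.mem_sigma, Finset.mem_range] at h
      have h' : e + 1 + (x - 1 - e) = x := by omega
      simp only [h']
  rw [h1, Finset.sum_sigma]
  apply Finset.sum_le_sum
  intro e he
  have he' : e < Y := Finset.mem_range.mp he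
  rw [Finset.mul_sum]
  calc ∑ m ∈ Finset.range (Y - 1 - e + 1),
        (q ^ (e + 1) * ((e + 1 + m).choose (e + 1) : ℝ)) * (P ^ m) (vv B w e) S
      ≤ ∑ m ∈ Finset.range (Y - 1 - e + 1),
        (q ^ (e + 1) * (Y.choose (e + 1) : ℝ)) * (P ^ m) (vv B w e) S := by
        apply Finset.sum_le_sum
        intro m hm
        have hm' : m < Y - 1 - e + 1 := Finset.mem_range.mp hm
        apply mul_le_mul_of_nonneg_right _ (hΦ e m)
        apply mul_le_mul_of_nonneg_left _ (by positivity)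
        exact_mod_cast Nat.choose_le_choose _ (by omega)
    _ ≤ ∑ m ∈ Finset.range Y,
        (q ^ (e + 1) * (Y.choose (e + 1) : ℝ)) * (P ^ m) (vv B w e) S := by
        apply Finset.sum_le_sum_of_subset_of_nonneg
        · apply Finset.range_subset_range.mpr
          omega
        · intro m _ _
          exact mul_nonneg (by positivity) (hΦ e m)

end pascal

end Vale.Agent.Lib.P170T
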