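import Vale.Agent.Lib.P170T.Mix

namespace Vale.Agent.Lib.P170T

open Finset Vale.Agent.Lib.P170 Filter Topology

set_option linter.unusedSectionVars false
set_option linter.unusedVariables false

variable {j n : ℕ}

/-! ### First moment -/

/-- One clause satisfied by a fixed assignment. -/
lemma TT_g0_singleton (hn : 0 < n) (k : ℕ) (σ : Asg n) :
    TT k n g0 {σ} = 1 - (1 / 2) ^ k := by
  rw [TT_g0 k n hn]
  have h1 : (g0 : Fn (Asg n)) {σ} = 1 := by simp [g0]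
  have h2 : gg ({σ} : Finset (Asg n)) = 1 / 2 := by
    unfold gg
    rw [falseLits_singleton_card]
    have : (n : ℝ) ≠ 0 := by positivity
    field_simp
  rw [h1, h2, one_mul]

/-- The function `card`. -/
noncomputable def cardF (n : ℕ) : Fn (Asg n) := fun S => (S.card : ℝ)

lemma TT_card (hn : 0 < n) (k : ℕ) (S : Finset (Asg n)) :
    TT k n (cardF n) S = (1 - (1 / 2) ^ k) * S.card := by
  classical
  have h1 : ∀ C : WCl k n, (cardF n) (S ∩ solW C) = ∑ σ ∈ S, (g0 : Fn (Asg n)) ({σ} ∩ solW C) := by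
    intro C
    unfold cardF
    rw [← Finset.filter_mem_eq_inter, Finset.card_filter]
    push_cast
    refine Finset.sum_congr rfl (fun σ _ => ?_)
    unfold g0
    by_cases h : σ ∈ solW C
    · rw [if_pos h, if_pos]
      exact ⟨σ, by simp [h]⟩
    · rw [if_neg h, if_neg]
      rintro ⟨τ, hτ⟩
      simp only [Finset.mem_inter, Finset.mem_singleton] at hτ
      exact h (hτ.1 ▸ hτ.2)
  unfold TT
  rw [Avg_apply]
  simp only [h1]
  rw [Finset.sum_comm, Finset.sum_div]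
  have h2 : ∀ σ ∈ S, (∑ C : WCl k n, (g0 : Fn (Asg n)) ({σ} ∩ solW C)) / (Fintype.card (WCl k n) : ℝ)
      = 1 - (1 / 2) ^ k := by
    intro σ _
    have := TT_g0_singleton hn k σ
    unfold TT at this
    rw [Avg_apply] at this
    exact this
  rw [Finset.sum_congr rfl h2, Finset.sum_const, nsmul_eq_mul]
  ring

lemma first_moment_W (hn : 0 < n) (m : ℕ) (S : Finset (Asg n)) :
    ut j n m S ≤ (S.card : ℝ) * (1 - (1 / 2) ^ (j + 1)) ^ m := by
  have : NeZero n := ⟨hn.ne'⟩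
  have ha : (0 : ℝ) ≤ 1 - (1 / 2) ^ (j + 1) := by
    have : ((1 : ℝ) / 2) ^ (j + 1) ≤ 1 := pow_le_one₀ (by norm_num) (by norm_num)
    linarith
  induction m generalizing S with
  | zero =>
    rw [ut_zero]
    simp only [pow_zero, mul_one]
    unfold g0
    by_cases h : S.Nonempty
    · rw [if_pos h]
      exact_mod_cast Finset.one_le_card.mpr h
    · rw [if_neg h]
      positivity
  | succ m ih =>
    rw [ut_succ]
    have h1 : ut j n m ≤ (((1 - ((1 : ℝ) / 2) ^ (j + 1)) ^ m : ℝ)) • cardF n := by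
      intro S
      simp only [Pi.smul_apply, smul_eq_mul, cardF]
      rw [mul_comm]
      exact ih S
    have h2 := (TT_markov (j + 1) n).ord _ _ h1 S
    refine h2.trans (le_of_eq ?_)
    rw [map_smul]
    simp only [Pi.smul_apply, smul_eq_mul]
    rw [TT_card hn]
    ring

lemma pn_le_first (hn : 0 < n) (m : ℕ) : pn j n m ≤ 2 ^ n * (1 - (1 / 2) ^ (j + 1)) ^ m := by
  have h := first_moment_W (j := j) hn m Finset.univ
  have h2 : ((Finset.univ : Finset (Asg n)).card : ℝ) = 2 ^ n := by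
    simp [Asg]
  rw [h2] at h
  exact h

/-- The density cap. -/
lemma exists_cap (j : ℕ) : ∃ c₂ : ℕ, 0 < c₂ ∧ (1 - ((1 : ℝ) / 2) ^ (j + 1)) ^ c₂ ≤ 1 / 4 := by
  have h0 : (0 : ℝ) ≤ 1 - ((1 : ℝ) / 2) ^ (j + 1) := by
    have : ((1 : ℝ) / 2) ^ (j + 1) ≤ 1 := pow_le_one₀ (by norm_num) (by norm_num)
    linarith
  have h1 : 1 - ((1 : ℝ) / 2) ^ (j + 1) < 1 := by
    have : (0 : ℝ) < ((1 : ℝ) / 2) ^ (j + 1) := by positivity
    linarith
  obtain ⟨c, hc⟩ := exists_pow_lt_of_lt_one (by norm_num : (0 : ℝ) < 1 / 4) h1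
  refine ⟨c + 1, Nat.succ_pos _, ?_⟩
  rw [pow_succ]
  have h2 : (1 - ((1 : ℝ) / 2) ^ (j + 1)) ≤ 1 := h1.le
  have h3 : 0 ≤ (1 - ((1 : ℝ) / 2) ^ (j + 1)) ^ c := pow_nonneg h0 c
  nlinarith

/-- The density cap, chosen. -/
noncomputable def cap (j : ℕ) : ℕ := Classical.choose (exists_cap j)

lemma cap_pos (j : ℕ) : 0 < cap j := (Classical.choose_spec (exists_cap j)).1

lemma cap_spec (j : ℕ) : (1 - ((1 : ℝ) / 2) ^ (j + 1)) ^ cap j ≤ 1 / 4 :=
  (Classical.choose_spec (exists_cap j)).2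

lemma pn_small (hn : 0 < n) {m : ℕ} (hm : cap j * n ≤ m) : pn j n m ≤ (1 / 2) ^ n := by
  have h1 := pn_le_first (j := j) hn m
  have h0 : (0 : ℝ) ≤ 1 - ((1 : ℝ) / 2) ^ (j + 1) := by
    have : ((1 : ℝ) / 2) ^ (j + 1) ≤ 1 := pow_le_one₀ (by norm_num) (by norm_num)
    linarith
  have h2 : (1 - ((1 : ℝ) / 2) ^ (j + 1)) ≤ 1 := by
    have : (0 : ℝ) < ((1 : ℝ) / 2) ^ (j + 1) := by positivity
    linarith
  have h3 : (1 - ((1 : ℝ) / 2) ^ (j + 1)) ^ m ≤ ((1 : ℝ) / 4) ^ n := by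
    calc (1 - ((1 : ℝ) / 2) ^ (j + 1)) ^ m ≤ (1 - ((1 : ℝ) / 2) ^ (j + 1)) ^ (cap j * n) :=
          pow_le_pow_of_le_one h0 h2 hm
      _ = ((1 - ((1 : ℝ) / 2) ^ (j + 1)) ^ cap j) ^ n := by rw [pow_mul]
      _ ≤ _ := pow_le_pow_left₀ (pow_nonneg h0 _) (cap_spec j) n
  calc pn j n m ≤ 2 ^ n * (1 - (1 / 2) ^ (j + 1)) ^ m := h1
    _ ≤ 2 ^ n * (1 / 4) ^ n := mul_le_mul_of_nonneg_left h3 (by positivity)
    _ = _ := by
      rw [← mul_pow]
      norm_num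

/-- For `n ≥ 3`, beyond the cap the probability is small. -/
lemma pn_lt_of_cap (hn : 3 ≤ n) {m : ℕ} (hm : cap j * n ≤ m) : pn j n m ≤ 1 / 8 := by
  have h1 := pn_small (j := j) (by omega : 0 < n) hm
  refine h1.trans ?_
  calc ((1 : ℝ) / 2) ^ n ≤ (1 / 2) ^ 3 := pow_le_pow_of_le_one (by norm_num) (by norm_num) hn
    _ = 1 / 8 := by norm_num

/-! ### The median -/

/-- The median number of clauses. -/
noncomputable def hat (j n : ℕ) : ℕ := sSup {m : ℕ | (1 : ℝ) / 2 ≤ pn j n m}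

lemma hat_bdd (hn : 3 ≤ n) : BddAbove {m : ℕ | (1 : ℝ) / 2 ≤ pn j n m} := by
  refine ⟨cap j * n, fun m hm => ?_⟩
  by_contra h
  push Not at h
  have := pn_lt_of_cap (j := j) hn (le_of_lt h)
  simp only [Set.mem_ofPred_eq] at hm
  linarith

lemma hat_nonempty : {m : ℕ | (1 : ℝ) / 2 ≤ pn j n m}.Nonempty :=
  ⟨0, by
    simp only [Set.mem_ofPred_eq]
    rw [pn_zero]
    norm_num⟩

lemma hat_spec (hn : 3 ≤ n) : (1 : ℝ) / 2 ≤ pn j n (hat j n) :=
  Nat.sSup_mem hat_nonempty (hat_bdd hn)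

lemma le_hat (hn : 3 ≤ n) {m : ℕ} (hm : (1 : ℝ) / 2 ≤ pn j n m) : m ≤ hat j n :=
  le_csSup (hat_bdd hn) hm

lemma pn_hat_succ (hn : 3 ≤ n) : pn j n (hat j n + 1) < 1 / 2 := by
  by_contra h
  push Not at h
  have := le_hat hn h
  omega

lemma hat_le_cap (hn : 3 ≤ n) : hat j n ≤ cap j * n := by
  by_contra h
  push Not at h
  have h1 := pn_lt_of_cap (j := j) hn (le_of_lt h)
  have h2 := hat_spec (j := j) hn
  linarith

/-- The median density. -/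
noncomputable def rr (j n : ℕ) : ℝ := (hat j n : ℝ) / n

lemma rr_nonneg (j n : ℕ) : 0 ≤ rr j n := by unfold rr; positivity

lemma rr_le_cap (hn : 3 ≤ n) : rr j n ≤ cap j := by
  unfold rr
  have h : (0 : ℝ) < n := by exact_mod_cast (by omega : 0 < n)
  rw [div_le_iff₀ h]
  exact_mod_cast hat_le_cap hn

/-! ### The scale -/

/-- Fourth root. -/
noncomputable def sr (x : ℝ) : ℝ := Real.sqrt (Real.sqrt x)

lemma sr_nonneg (x : ℝ) : 0 ≤ sr x := Real.sqrt_nonneg _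

lemma sr_pow_four {x : ℝ} (hx : 0 ≤ x) : sr x ^ 4 = x := by
  unfold sr
  have h1 := Real.sq_sqrt (Real.sqrt_nonneg x)
  have h2 := Real.sq_sqrt hx
  calc (Real.sqrt (Real.sqrt x)) ^ 4 = ((Real.sqrt (Real.sqrt x)) ^ 2) ^ 2 := by ring
    _ = x := by rw [h1, h2]

lemma sr_pos {x : ℝ} (hx : 0 < x) : 0 < sr x := by
  unfold sr
  exact Real.sqrt_pos.mpr (Real.sqrt_pos.mpr hx)

lemma one_le_sr {x : ℝ} (hx : 1 ≤ x) : 1 ≤ sr x := by
  unfold sr
  exact Real.one_le_sqrt.mpr (Real.one_le_sqrt.mpr hx)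

/-- The inverse fourth root. -/
noncomputable def ww (N : ℕ) : ℝ := 1 / sr N

lemma ww_nonneg (N : ℕ) : 0 ≤ ww N := by
  unfold ww
  have := sr_nonneg (N : ℝ)
  positivity

lemma ww_pos {N : ℕ} (hN : 0 < N) : 0 < ww N := by
  unfold ww
  have := sr_pos (by exact_mod_cast hN : (0 : ℝ) < N)
  positivity

lemma ww_le_one {N : ℕ} (hN : 0 < N) : ww N ≤ 1 := by
  unfold ww
  have := one_le_sr (by exact_mod_cast hN : (1 : ℝ) ≤ N)
  rw [div_le_one (by linarith)]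
  exact this

lemma ww_pow_four {N : ℕ} (hN : 0 < N) : ww N ^ 4 = 1 / (N : ℝ) := by
  unfold ww
  rw [div_pow, sr_pow_four (by positivity)]
  norm_num

lemma mul_ww {N : ℕ} (hN : 0 < N) : (N : ℝ) * ww N = sr N ^ 3 := by
  have h := sr_pos (by exact_mod_cast hN : (0 : ℝ) < N)
  unfold ww
  have h2 := sr_pow_four (by positivity : (0 : ℝ) ≤ N)
  field_simp
  rw [h2]

/-- Comparing the scales of two sizes. -/
lemma ww_le_of_le {a b : ℕ} (ha : 0 < a) (hab : a ≤ b) : ww b ≤ ww a := by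
  have h1 : (a : ℝ) ≤ b := by exact_mod_cast hab
  unfold ww sr
  have h2 : Real.sqrt (Real.sqrt a) ≤ Real.sqrt (Real.sqrt b) :=
    Real.sqrt_le_sqrt (Real.sqrt_le_sqrt h1)
  have h3 := sr_pos (by exact_mod_cast ha : (0 : ℝ) < a)
  unfold sr at h3
  apply one_div_le_one_div_of_le h3 h2

lemma ww_mul_le {a b : ℕ} (ha : 0 < a) (hab : (b : ℝ) ≤ 3 * a) (hb : 0 < b) : ww a ≤ 2 * ww b := by
  have h1 := ww_nonneg a
  have h2 := ww_nonneg b
  have h3 : ww a ^ 4 ≤ (2 * ww b) ^ 4 := by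
    rw [ww_pow_four ha, mul_pow, ww_pow_four hb]
    have hb' : (0 : ℝ) < b := by exact_mod_cast hb
    have ha' : (0 : ℝ) < a := by exact_mod_cast ha
    rw [div_le_iff₀ ha']
    have h5 : (2 : ℝ) ^ 4 * (1 / (b : ℝ)) * a = 16 * ((a : ℝ) / b) := by ring
    rw [h5]
    have h6 : (1 / 3 : ℝ) ≤ (a : ℝ) / b := by
      rw [div_le_div_iff₀ (by norm_num) hb']
      linarith
    linarith
  exact (pow_le_pow_iff_left₀ h1 (by positivity) (by norm_num)).mp h3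

lemma ww_gap {a b : ℕ} (ha : 0 < a) (hb : 0 < b) (hab : 3 * (a : ℝ) ≤ 2 * b) :
    (11 / 10) * ww b ≤ ww a := by
  have h1 := ww_nonneg a
  have h2 := ww_nonneg b
  have h3 : ((11 / 10) * ww b) ^ 4 ≤ ww a ^ 4 := by
    rw [mul_pow, ww_pow_four hb, ww_pow_four ha]
    have hb' : (0 : ℝ) < b := by exact_mod_cast hb
    have ha' : (0 : ℝ) < a := by exact_mod_cast ha
    rw [le_div_iff₀ ha']
    have : (11 / 10 : ℝ) ^ 4 * (1 / (b : ℝ)) * a = (11 / 10 : ℝ) ^ 4 * ((a : ℝ) / b) := by ring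
    rw [this]
    have h4 : (a : ℝ) / b ≤ 2 / 3 := by
      rw [div_le_div_iff₀ hb' (by norm_num)]
      linarith
    have h5 : (11 / 10 : ℝ) ^ 4 * ((a : ℝ) / b) ≤ (11 / 10 : ℝ) ^ 4 * (2 / 3) :=
      mul_le_mul_of_nonneg_left h4 (by positivity)
    refine h5.trans ?_
    norm_num
  exact (pow_le_pow_iff_left₀ (by positivity) h1 (by norm_num)).mp h3

lemma tendsto_ww : Tendsto ww atTop (𝓝 0) := by
  have h1 : Tendsto (fun N : ℕ => sr (N : ℝ)) atTop atTop := by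
    unfold sr
    exact Real.tendsto_sqrt_atTop.comp (Real.tendsto_sqrt_atTop.comp tendsto_natCast_atTop_atTop)
  have h2 := h1.inv_tendsto_atTop
  refine h2.congr (fun N => ?_)
  simp [ww]

/-! ### The window in counts -/

/-- The quantile window. -/
theorem window_count (hj : 2 ≤ j) {c₃ ε η : ℝ} (hc₃ : 0 < c₃) (hε : 0 < ε) (hη : 0 < η) :
    ∃ N₀ : ℕ, 0 < N₀ ∧ ∀ N ≥ N₀, ∀ m₁ m₂ : ℕ, m₁ < m₂ → (m₂ : ℝ) ≤ c₃ * N →
      pn j N (m₁ + 1) ≤ 1 - ε → η ≤ pn j N m₂ → (m₂ : ℝ) - m₁ ≤ 8 * (N * ww N) := by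
  obtain ⟨U, hU0, N₁, hN₁0, hN₁⟩ := window_final hj hc₃
  set B : ℝ := c₃ * (1 + 2 * U) / (ε * η) with hB
  have hB0 : 0 < B := by positivity
  obtain ⟨N₂, hN₂⟩ := exists_nat_gt (B ^ 4)
  refine ⟨max N₁ (N₂ + 1), lt_of_lt_of_le hN₁0 (le_max_left _ _), fun N hN m₁ m₂ hm hm₂ hp hq => ?_⟩
  have hN1 : N₁ ≤ N := le_trans (le_max_left _ _) hN
  have hN2 : N₂ + 1 ≤ N := le_trans (le_max_right _ _) hN
  have hNpos : 0 < N := by omega
  have hN' : (0 : ℝ) < N := by exact_mod_cast hNpos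
  have : NeZero N := ⟨hNpos.ne'⟩
  set s := sr (N : ℝ) with hs
  have hs1 : 1 ≤ s := one_le_sr (by exact_mod_cast hNpos)
  have hs4 : s ^ 4 = N := sr_pow_four hN'.le
  set R := ⌈s⌉₊ with hR
  have hRs : s ≤ R := Nat.le_ceil s
  have hRs2 : (R : ℝ) ≤ s + 1 := (Nat.ceil_lt_add_one (by linarith)).le
  have hR1 : (1 : ℝ) ≤ R := by linarith
  have hR1' : 1 ≤ R := by exact_mod_cast hR1
  have hsB : B < s := by
    have h1 : B ^ 4 < s ^ 4 := by
      rw [hs4]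
      have : ((N₂ + 1 : ℕ) : ℝ) ≤ N := by exact_mod_cast hN2
      push_cast at this
      linarith
    exact lt_of_pow_lt_pow_left₀ 4 (by linarith) h1
  -- the gap is at most the cube
  have hgap : m₂ ≤ m₁ + R ^ 3 := by
    by_contra hc
    push Not at hc
    have hRpos : 0 < R ^ 3 := by positivity
    obtain ⟨m, hm'⟩ : ∃ m, R ^ 3 = m + 1 := ⟨R ^ 3 - 1, by omega⟩
    have hm₁' : m₁ + 1 ≤ m₂ - R ^ 3 := by omega
    have h1 := hN₁ N hN1 (m₂ - R ^ 3) m R (by omega) (by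
      have e : m₂ - R ^ 3 + m + 1 = m₂ := by omega
      rw [e]
      exact hm₂)
    have e : m₂ - R ^ 3 + m + 1 = m₂ := by omega
    rw [e] at h1
    have h2 : pn j N (m₂ - R ^ 3 + 1) ≤ 1 - ε := (pn_anti hNpos (by omega)).trans hp
    have h3 : ε * η * ((m : ℝ) + 1) ^ 2 ≤
        (1 - pn j N (m₂ - R ^ 3 + 1)) * pn j N m₂ * ((m : ℝ) + 1) ^ 2 := by
      apply mul_le_mul_of_nonneg_right _ (by positivity)
      exact mul_le_mul (by linarith) hq hη.le (by linarith)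
    have h4 := h3.trans h1
    have hm3 : (m : ℝ) + 1 = (R : ℝ) ^ 3 := by
      have : ((R ^ 3 : ℕ) : ℝ) = ((m + 1 : ℕ) : ℝ) := by rw [hm']
      push_cast at this
      linarith
    rw [hm3] at h4
    -- numerics
    have hNR : (N : ℝ) ≤ (R : ℝ) ^ 4 := by
      rw [← hs4]
      exact pow_le_pow_left₀ (by linarith) hRs 4
    have h5 : c₃ * N * (1 + 2 * ((R : ℝ) * U)) ≤ c₃ * (R : ℝ) ^ 4 * ((R : ℝ) * (1 + 2 * U)) := by
      apply mul_le_mul
      · exact mul_le_mul_of_nonneg_left hNR hc₃.le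
      · nlinarith
      · positivity
      · positivity
    have h6 : ε * η * (R : ℝ) ≤ c₃ * (1 + 2 * U) := by
      have hR5 : (0 : ℝ) < (R : ℝ) ^ 5 := by positivity
      have h7 : (ε * η * (R : ℝ)) * (R : ℝ) ^ 5 ≤ (c₃ * (1 + 2 * U)) * (R : ℝ) ^ 5 := by
        calc (ε * η * (R : ℝ)) * (R : ℝ) ^ 5 = ε * η * ((R : ℝ) ^ 3) ^ 2 := by ring
          _ ≤ c₃ * N * (1 + 2 * ((R : ℝ) * U)) := h4
          _ ≤ c₃ * (R : ℝ) ^ 4 * ((R : ℝ) * (1 + 2 * U)) := h5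
          _ = _ := by ring
      exact le_of_mul_le_mul_right h7 hR5
    have h8 : (R : ℝ) ≤ B := by
      rw [hB, le_div_iff₀ (by positivity)]
      linarith
    linarith
  -- conclusion
  have h1 : (m₂ : ℝ) ≤ (m₁ : ℝ) + (R : ℝ) ^ 3 := by exact_mod_cast hgap
  have h2 : (R : ℝ) ^ 3 ≤ (2 * s) ^ 3 := pow_le_pow_left₀ (by linarith) (by linarith) 3
  have h3 : (N : ℝ) * ww N = s ^ 3 := mul_ww hNpos
  rw [h3]
  have h4 : (2 * s) ^ 3 = 8 * s ^ 3 := by ring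
  linarith

end Vale.Agent.Lib.P170T
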