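import Vale.Agent.Lib.P170T.H84Limit

namespace Vale.Agent.Lib.P170T

open Finset Vale.Agent.Lib.P170 Filter Topology

set_option linter.unusedSectionVars false
set_option linter.unusedVariables false

variable {j : ℕ}

/-- Survival from the frozen sum. -/
lemma pn_ge_of_GG {n : ℕ} (hn : 0 < n) (X : ℕ) : 1 - GG j n X 0 ≤ pn j n (X + 1) := by
  have : NeZero n := ⟨hn.ne'⟩
  have h1 : ∀ x, pn j n x - pn j n (x + 1) ≤ bb j n x 0 := by
    intro x
    have e := QQ_sub_x (j := j) hn x 0
    rw [pn_eq_QQ, pn_eq_QQ, e]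
    unfold bb
    apply (opE_markov j n x 0).ord
    intro S
    have hu := g0_nonneg S
    by_cases hS : S.Nonempty
    · have hg := gg_nonneg S
      have hg1 := gg_le_one hS
      have h2 : gg S ^ (j + 1) ≤ gg S ^ 1 := pow_le_pow_of_le_one hg hg1 (by omega)
      rw [pow_one] at h2
      exact mul_le_mul_of_nonneg_right h2 hu
    · have hS' : S = ∅ := Finset.not_nonempty_iff_eq_empty.mp hS
      subst hS'
      simp [g0_empty]
  have h2 : ∑ x ∈ Finset.range (X + 1), (pn j n x - pn j n (x + 1)) ≤ GG j n X 0 :=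
    Finset.sum_le_sum (fun x _ => h1 x)
  rw [Finset.sum_range_sub', pn_zero] at h2
  linarith

/-- The median density stays away from zero. -/
lemma rr_ge (hj : 2 ≤ j) : ∃ c₀ : ℝ, 0 < c₀ ∧ ∃ N₀ : ℕ, ∀ N ≥ N₀, c₀ ≤ rr j N := by
  obtain ⟨c₀, hc₀, N₁, hN₁⟩ := thmA_small (j := j) (by omega)
  refine ⟨c₀, hc₀, max N₁ 3, fun N hN => ?_⟩
  have h1 : N₁ ≤ N := le_trans (le_max_left _ _) hN
  have h3 : 3 ≤ N := le_trans (le_max_right _ _) hN
  have hNr : (0 : ℝ) < N := by exact_mod_cast (by omega : 0 < N)
  set X := ⌊c₀ * N⌋₊ with hX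
  have hXle : (X : ℝ) ≤ c₀ * N := Nat.floor_le (by positivity)
  have hXgt : c₀ * N < (X : ℝ) + 1 := Nat.lt_floor_add_one _
  have h2 := hN₁ N h1 X hXle
  have h4 := pn_ge_of_GG (j := j) (by omega : 0 < N) X
  have h5 : X + 1 ≤ hat j N := le_hat h3 (by linarith)
  unfold rr
  rw [le_div_iff₀ hNr]
  have : ((X + 1 : ℕ) : ℝ) ≤ hat j N := by exact_mod_cast h5
  push_cast at this
  linarith

/-- The threshold in the literal model. -/
theorem W_threshold (hj : 2 ≤ j) : ∃ α : ℝ, 0 < α ∧
    (∀ c : ℝ, 0 ≤ c → c < α → Tendsto (fun n : ℕ => pn j n ⌊c * n⌋₊) atTop (𝓝 1)) ∧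
    (∀ c : ℝ, α < c → Tendsto (fun n : ℕ => pn j n ⌊c * n⌋₊) atTop (𝓝 0)) := by
  obtain ⟨α, hα⟩ := rr_tendsto hj
  obtain ⟨c₀, hc₀, N₀, hN₀⟩ := rr_ge hj
  have hα0 : 0 < α := by
    have : c₀ ≤ α := ge_of_tendsto hα (eventually_atTop.2 ⟨N₀, hN₀⟩)
    linarith
  refine ⟨α, hα0, ?_, ?_⟩
  · intro c hc0 hc
    rw [tendsto_order]
    constructor
    · intro y hy
      -- window with `ε = 1 - y`
      have hε : 0 < 1 - y := by linarith
      have hcap : (0 : ℝ) < cap j := by exact_mod_cast cap_pos j
      obtain ⟨N₁, _, hN₁⟩ := window_count (j := j) hj hcap hε (by norm_num : (0 : ℝ) < 1 / 2)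
      set δ := (α - c) / 2 with hδ
      have hδ0 : 0 < δ := by rw [hδ]; linarith
      have h1 : ∀ᶠ n in atTop, c + δ < rr j n := (tendsto_order.1 hα).1 (c + δ) (by rw [hδ]; linarith)
      have h2 : ∀ᶠ n : ℕ in atTop, 8 * ww n < δ := by
        have := tendsto_ww.const_mul 8
        rw [mul_zero] at this
        exact (tendsto_order.1 this).2 δ hδ0
      filter_upwards [h1, h2, eventually_ge_atTop N₁, eventually_ge_atTop 3] with n hn1 hn2 hn3 hn4
      by_contra hcon
      push Not at hcon
      have hnpos : 0 < n := by omega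
      have : NeZero n := ⟨hnpos.ne'⟩
      have hnr : (0 : ℝ) < n := by exact_mod_cast hnpos
      set T := ⌊c * n⌋₊ with hT
      have hTle : (T : ℝ) ≤ c * n := Nat.floor_le (by positivity)
      have hT0 : 0 < T := by
        rcases Nat.eq_zero_or_pos T with h | h
        · rw [h, pn_zero] at hcon
          linarith
        · exact h
      obtain ⟨m, hm⟩ : ∃ m, T = m + 1 := ⟨T - 1, by omega⟩
      have hhat : (c + δ) * n < hat j n := by
        have : (hat j n : ℝ) = rr j n * n := by
          unfold rr
          field_simp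
        rw [this]
        exact mul_lt_mul_of_pos_right hn1 hnr
      have hδn : 0 < δ * n := by positivity
      have hlt : m < hat j n := by
        have h3 : (m : ℝ) + 1 ≤ c * n := by
          have : ((m + 1 : ℕ) : ℝ) ≤ c * n := by rw [← hm]; exact hTle
          push_cast at this
          exact this
        have h4 : (m : ℝ) < hat j n := by nlinarith
        exact_mod_cast h4
      have hcapn : (hat j n : ℝ) ≤ cap j * n := by exact_mod_cast hat_le_cap hn4
      have h3 := hN₁ n hn3 m (hat j n) hlt hcapn (by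
        rw [← hm]
        linarith) (hat_spec hn4)
      have h4 : (m : ℝ) + 1 ≤ c * n := by
        have : ((m + 1 : ℕ) : ℝ) ≤ c * n := by rw [← hm]; exact hTle
        push_cast at this
        exact this
      have h5 : δ * n ≤ 8 * (n * ww n) := by nlinarith
      have h6 : 8 * (n * ww n) = 8 * ww n * n := by ring
      rw [h6] at h5
      have h7 := le_of_mul_le_mul_right h5 hnr
      linarith
    · intro y hy
      filter_upwards [eventually_ge_atTop 1] with n hn
      have : NeZero n := ⟨by omega⟩
      exact lt_of_le_of_lt (pn_le_one _) hy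
  · intro c hc
    rw [tendsto_order]
    constructor
    · intro y hy
      filter_upwards [eventually_ge_atTop 1] with n hn
      have : NeZero n := ⟨by omega⟩
      exact lt_of_lt_of_le hy (pn_nonneg _)
    · intro y hy
      -- window with `η = y`
      set c' := min c (α + 1) with hc'
      have hc'1 : α < c' := lt_min hc (by linarith)
      have hc'2 : c' ≤ c := min_le_left _ _
      have hc'3 : c' ≤ α + 1 := min_le_right _ _
      have hc₃ : (0 : ℝ) < α + 1 := by linarith
      obtain ⟨N₁, _, hN₁⟩ := window_count (j := j) hj hc₃ (by norm_num : (0 : ℝ) < 1 / 2) hy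
      set δ := (c' - α) / 2 with hδ
      have hδ0 : 0 < δ := by rw [hδ]; linarith
      have h1 : ∀ᶠ n in atTop, rr j n < α + δ := (tendsto_order.1 hα).2 (α + δ) (by linarith)
      have h2 : ∀ᶠ n : ℕ in atTop, 8 * ww n + ww n ^ 4 < δ := by
        have := (tendsto_ww.const_mul 8).add (tendsto_ww.pow 4)
        simp only [mul_zero, add_zero, ne_eq, OfNat.ofNat_ne_zero, not_false_eq_true, zero_pow] at this
        exact (tendsto_order.1 this).2 δ hδ0
      filter_upwards [h1, h2, eventually_ge_atTop N₁, eventually_ge_atTop 3] with n hn1 hn2 hn3 hn4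
      have hnpos : 0 < n := by omega
      have : NeZero n := ⟨hnpos.ne'⟩
      have hnr : (0 : ℝ) < n := by exact_mod_cast hnpos
      have hw4 : ww n ^ 4 = 1 / (n : ℝ) := ww_pow_four hnpos
      have hc'0 : 0 < c' := by linarith
      set T := ⌊c' * n⌋₊ with hT
      have hTle : (T : ℝ) ≤ c' * n := Nat.floor_le (by positivity)
      have hTgt : c' * n < (T : ℝ) + 1 := Nat.lt_floor_add_one _
      have hmono : ⌊c' * n⌋₊ ≤ ⌊c * n⌋₊ :=
        Nat.floor_le_floor (mul_le_mul_of_nonneg_right hc'2 hnr.le)
      refine lt_of_le_of_lt (pn_anti hnpos hmono) ?_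
      by_contra hcon
      push Not at hcon
      have hhat : (hat j n : ℝ) < (α + δ) * n := by
        have : (hat j n : ℝ) = rr j n * n := by
          unfold rr
          field_simp
        rw [this]
        exact mul_lt_mul_of_pos_right hn1 hnr
      have hone : 1 = (1 / (n : ℝ)) * n := by field_simp
      have hc'eq : c' = α + 2 * δ := by rw [hδ]; ring
      have hgap : δ * n - 1 < (T : ℝ) - hat j n := by
        rw [hc'eq] at hTgt
        nlinarith
      have hδ1 : 1 < δ * n := by
        have : (1 / (n : ℝ)) * n < δ * n := by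
          apply mul_lt_mul_of_pos_right _ hnr
          have := ww_nonneg n
          nlinarith [hw4, hn2]
        linarith
      have hlt : hat j n < T := by
        have : (hat j n : ℝ) < T := by linarith
        exact_mod_cast this
      have h3 := hN₁ n hn3 (hat j n) T hlt (by nlinarith) (by
        have := pn_hat_succ (j := j) hn4
        linarith) hcon
      have h5 : (δ - 1 / (n : ℝ)) * n ≤ (8 * ww n) * n := by
        have e1 : (δ - 1 / (n : ℝ)) * n = δ * n - 1 := by
          field_simp
        rw [e1]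
        nlinarith
      have h7 := le_of_mul_le_mul_right h5 hnr
      rw [← hw4] at h7
      linarith

end Vale.Agent.Lib.P170T
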