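import Vale.Agent.Lib.P170T.Basic

namespace Vale.Agent.Lib.P170T

open Finset Vale.Agent.Lib.P170

set_option linter.unusedSectionVars false
set_option linter.unusedVariables false

variable {j n N : ℕ}

/-- Bounding a sum by the values on the range of an injection and a bound elsewhere. -/
lemma sum_le_of_inj {α β : Type} [Fintype α] [Fintype β] [DecidableEq β] (e : α → β)
    (he : Function.Injective e) (f : β → ℝ) (g : α → ℝ) {c : ℝ}
    (hg : ∀ a, f (e a) ≤ g a) (hc : ∀ b, (∀ a, e a ≠ b) → f b ≤ c) :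
    ∑ b, f b ≤ ∑ a, g a + ((Fintype.card β : ℝ) - Fintype.card α) * c := by
  classical
  have h1 : ∑ b, f b = ∑ b ∈ Finset.univ.image e, f b + ∑ b ∈ (Finset.univ.image e)ᶜ, f b :=
    (Finset.sum_add_sum_compl _ _).symm
  rw [h1, Finset.sum_image (fun a _ b _ h => he h)]
  have h2 : ∑ b ∈ (Finset.univ.image e)ᶜ, f b ≤ ∑ b ∈ (Finset.univ.image e)ᶜ, c := by
    apply Finset.sum_le_sum
    intro b hb
    apply hc
    intro a ha
    rw [Finset.mem_compl] at hb
    exact hb (Finset.mem_image.mpr ⟨a, Finset.mem_univ _, ha⟩)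
  have h3 : ((Finset.univ.image e)ᶜ).card = Fintype.card β - Fintype.card α := by
    rw [Finset.card_compl, Finset.card_image_of_injective _ he, Finset.card_univ]
  have h4 : Fintype.card α ≤ Fintype.card β := Fintype.card_le_of_injective e he
  rw [Finset.sum_const, nsmul_eq_mul, h3, Nat.cast_sub h4] at h2
  have h5 := Finset.sum_le_sum (fun a (_ : a ∈ Finset.univ) => hg a)
  linarith

/-- Lower bound for a sum of nonnegative terms through an injection. -/
lemma sum_ge_of_inj {α β : Type} [Fintype α] [Fintype β] [DecidableEq β] (e : α → β)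
    (he : Function.Injective e) (f : β → ℝ) (hf : ∀ b, 0 ≤ f b) :
    ∑ a, f (e a) ≤ ∑ b, f b := by
  classical
  rw [← Finset.sum_image (s := Finset.univ) (g := e) (f := f) (fun a _ b _ h => he h)]
  exact Finset.sum_le_sum_of_subset_of_nonneg (Finset.subset_univ _) (fun b _ _ => hf b)

/-! ### Lifting clauses along an injection of variables and projecting -/

/-- Lifted clause. -/
def upC (ι : Fin n → Fin N) (C : WCl j n) : WCl j N := fun i => (ι (C i).1, (C i).2)

lemma upC_injective {ι : Fin n → Fin N} (hι : Function.Injective ι) :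
    Function.Injective (upC (j := j) ι) := by
  intro C D h
  funext i
  have h1 := congrFun h i
  simp only [upC, Prod.mk.injEq] at h1
  exact Prod.ext (hι h1.1) h1.2

lemma mem_solW_upC {ι : Fin n → Fin N} {C : WCl j n} {σ : Asg N} :
    σ ∈ solW (upC ι C) ↔ (σ ∘ ι) ∈ solW C := by
  simp [mem_solW, upC]

open Classical in
/-- Projection of a set of assignments. -/
noncomputable def proj (ι : Fin n → Fin N) (S : Finset (Asg N)) : Finset (Asg n) :=
  S.image (fun σ => σ ∘ ι)

lemma proj_mono (ι : Fin n → Fin N) {S T : Finset (Asg N)} (h : S ⊆ T) : proj ι S ⊆ proj ι T :=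
  Finset.image_subset_image h

lemma proj_nonempty (ι : Fin n → Fin N) {S : Finset (Asg N)} :
    (proj ι S).Nonempty ↔ S.Nonempty := by
  unfold proj
  exact Finset.image_nonempty

lemma proj_univ {ι : Fin n → Fin N} (hι : Function.Injective ι) :
    proj ι (Finset.univ : Finset (Asg N)) = Finset.univ := by
  classical
  ext a
  simp only [proj, Finset.mem_image, Finset.mem_univ, true_and, iff_true]
  exact ⟨Function.extend ι a (fun _ => false), by funext i; exact hι.extend_apply a _ i⟩

lemma g0_proj (ι : Fin n → Fin N) (S : Finset (Asg N)) :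
    (g0 : Fn (Asg n)) (proj ι S) = (g0 : Fn (Asg N)) S := by
  unfold g0
  simp only [proj_nonempty]

lemma proj_inter_upC_subset (ι : Fin n → Fin N) (S : Finset (Asg N)) (C : WCl j n) :
    proj ι (S ∩ solW (upC ι C)) ⊆ proj ι S ∩ solW C := by
  classical
  intro a ha
  simp only [proj, Finset.mem_image, Finset.mem_inter] at ha ⊢
  obtain ⟨σ, ⟨h1, h2⟩, rfl⟩ := ha
  exact ⟨⟨σ, h1, rfl⟩, mem_solW_upC.mp h2⟩

/-- The thinning probability. -/
noncomputable def thn (j n N : ℕ) : ℝ := ((n : ℝ) / N) ^ j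

lemma thn_nonneg (j n N : ℕ) : 0 ≤ thn j n N := by unfold thn; positivity

lemma thn_le_one (j : ℕ) (h : n ≤ N) : thn j n N ≤ 1 := by
  unfold thn
  apply pow_le_one₀ (by positivity)
  exact div_le_one_of_le₀ (by exact_mod_cast h) (by positivity)

/-- A clause operator applied to a function of the projection, upper bound. -/
lemma TT_proj_le {ι : Fin n → Fin N} (hι : Function.Injective ι) (hn : 0 < n)
    {ψ : Fn (Asg n)} (hψ : MonoFn ψ) (S : Finset (Asg N)) :
    TT j N (fun S => ψ (proj ι S)) S ≤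
      thn j n N * TT j n ψ (proj ι S) + (1 - thn j n N) * ψ (proj ι S) := by
  classical
  have hnN : n ≤ N := by simpa using Fintype.card_le_of_injective ι hι
  have hN : 0 < N := lt_of_lt_of_le hn hnN
  unfold TT
  rw [Avg_apply, Avg_apply, card_WCl, card_WCl]
  have key := sum_le_of_inj (upC (j := j) ι) (upC_injective hι)
    (fun C => ψ (proj ι (S ∩ solW C))) (fun C => ψ (proj ι S ∩ solW C)) (c := ψ (proj ι S))
    (fun C => hψ _ _ (proj_inter_upC_subset ι S C))
    (fun C _ => hψ _ _ (proj_mono ι Finset.inter_subset_left))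
  rw [card_WCl, card_WCl] at key
  push_cast at key ⊢
  have hNr : (0 : ℝ) < (2 * (N : ℝ)) ^ j := by positivity
  have hnr : (0 : ℝ) < (2 * (n : ℝ)) ^ j := by positivity
  rw [div_le_iff₀ hNr]
  refine key.trans (le_of_eq ?_)
  have hth : thn j n N * (2 * (N : ℝ)) ^ j = (2 * (n : ℝ)) ^ j := by
    unfold thn
    rw [← mul_pow]
    congr 1
    have : (N : ℝ) ≠ 0 := by positivity
    field_simp
  have e : (thn j n N * ((∑ C : WCl j n, ψ (proj ι S ∩ solW C)) / (2 * (n : ℝ)) ^ j)
      + (1 - thn j n N) * ψ (proj ι S)) * (2 * (N : ℝ)) ^ j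
      = (thn j n N * (2 * (N : ℝ)) ^ j)
        * ((∑ C : WCl j n, ψ (proj ι S ∩ solW C)) / (2 * (n : ℝ)) ^ j)
        + ((2 * (N : ℝ)) ^ j - thn j n N * (2 * (N : ℝ)) ^ j) * ψ (proj ι S) := by ring
  rw [e, hth]
  field_simp

/-! ### Slices at a variable -/

open Classical in
/-- The slice of `S` at variable `p` and value `b`. -/
noncomputable def slice (p : Fin (n + 1)) (b : Bool) (S : Finset (Asg (n + 1))) : Finset (Asg n) :=
  Finset.univ.filter (fun a => (Fin.insertNth p b a : Fin (n + 1) → Bool) ∈ S)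

lemma mem_slice {p : Fin (n + 1)} {b : Bool} {S : Finset (Asg (n + 1))} {a : Asg n} :
    a ∈ slice p b S ↔ (Fin.insertNth p b a : Fin (n + 1) → Bool) ∈ S := by
  simp [slice]

lemma slice_univ (p : Fin (n + 1)) (b : Bool) :
    slice p b (Finset.univ : Finset (Asg (n + 1))) = Finset.univ := by
  ext a
  simp [mem_slice]

lemma insertNth_comp_succAbove (p : Fin (n + 1)) (b : Bool) (a : Asg n) :
    ((Fin.insertNth p b a : Fin (n + 1) → Bool) ∘ p.succAbove) = a := by
  funext i
  simp

lemma slice_inter_upC (p : Fin (n + 1)) (b : Bool) (S : Finset (Asg (n + 1))) (C : WCl j n) :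
    slice p b (S ∩ solW (upC p.succAbove C)) = slice p b S ∩ solW C := by
  ext a
  simp only [mem_slice, Finset.mem_inter, mem_solW_upC, insertNth_comp_succAbove]

/-- A clause containing one literal on variable `p`. -/
def insC (p : Fin (n + 1)) (i : Fin (j + 1)) (t : Bool) (D : WCl j n) : WCl (j + 1) (n + 1) :=
  Fin.insertNth (α := fun _ => Lit (n + 1)) i (p, t) (upC p.succAbove D)

lemma insC_same (p : Fin (n + 1)) (i : Fin (j + 1)) (t : Bool) (D : WCl j n) :
    insC p i t D i = (p, t) := by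
  simp [insC]

lemma insC_succAbove (p : Fin (n + 1)) (i : Fin (j + 1)) (t : Bool) (D : WCl j n) (i' : Fin j) :
    insC p i t D (i.succAbove i') = (p.succAbove (D i').1, (D i').2) := by
  simp [insC, upC]

lemma slice_inter_insC (p : Fin (n + 1)) (b : Bool) (S : Finset (Asg (n + 1)))
    (i : Fin (j + 1)) (t : Bool) (D : WCl j n) :
    slice p b (S ∩ solW (insC p i t D)) = if t = b then slice p b S else slice p b S ∩ solW D := by
  ext a
  have key : (Fin.insertNth p b a : Fin (n + 1) → Bool) ∈ solW (insC p i t D) ↔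
      t = b ∨ a ∈ solW D := by
    rw [mem_solW, Fin.exists_iff_succAbove i]
    simp only [insC_same, insC_succAbove, Fin.insertNth_apply_same, Fin.insertNth_apply_succAbove,
      mem_solW]
    constructor
    · rintro (h | h)
      · exact Or.inl h.symm
      · exact Or.inr h
    · rintro (h | h)
      · exact Or.inl h.symm
      · exact Or.inr h
  by_cases ht : t = b
  · rw [if_pos ht, mem_slice, Finset.mem_inter, key, mem_slice]
    exact ⟨fun h => h.1, fun h => ⟨h, Or.inl ht⟩⟩
  · rw [if_neg ht, Finset.mem_inter, mem_slice, Finset.mem_inter, key, mem_slice]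
    simp [ht]

/-- The injection of clause types. -/
def typeMap (p : Fin (n + 1)) : WCl (j + 1) n ⊕ (Fin (j + 1) × Bool × WCl j n) → WCl (j + 1) (n + 1)
  | Sum.inl C => upC p.succAbove C
  | Sum.inr (i, t, D) => insC p i t D

lemma typeMap_injective (p : Fin (n + 1)) : Function.Injective (typeMap (j := j) p) := by
  have hne : ∀ q : Fin n, p.succAbove q ≠ p := fun q => Fin.succAbove_ne p q
  rintro (C | ⟨i, t, D⟩) (C' | ⟨i', t', D'⟩) h
  · simp only [typeMap] at h
    rw [upC_injective (Fin.succAbove_right_injective) h]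
  · exfalso
    simp only [typeMap] at h
    have h1 := congrFun h i'
    rw [insC_same] at h1
    simp only [upC, Prod.mk.injEq] at h1
    exact hne _ h1.1
  · exfalso
    simp only [typeMap] at h
    have h1 := congrFun h i
    rw [insC_same] at h1
    simp only [upC, Prod.mk.injEq] at h1
    exact hne _ h1.1.symm
  · simp only [typeMap] at h
    have hi : i = i' := by
      by_contra hne'
      obtain ⟨z, hz⟩ := Fin.exists_succAbove_eq hne'
      have h1 := congrFun h i
      rw [insC_same, ← hz, insC_succAbove] at h1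
      exact hne _ (congrArg Prod.fst h1).symm
    subst hi
    have ht : t = t' := by
      have h1 := congrFun h i
      rw [insC_same, insC_same] at h1
      exact (Prod.mk.inj h1).2
    subst ht
    have hD : D = D' := by
      funext z
      have h1 := congrFun h (i.succAbove z)
      rw [insC_succAbove, insC_succAbove] at h1
      have h2 := Prod.mk.inj h1
      exact Prod.ext (Fin.succAbove_right_injective h2.1) h2.2
    rw [hD]

/-- The weight of a clause with a single literal on the removed variable. -/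
noncomputable def pi1 (j n : ℕ) : ℝ := ((j : ℝ) + 1) * ((n : ℝ) / (n + 1)) ^ j / (2 * ((n : ℝ) + 1))

lemma pi1_nonneg (j n : ℕ) : 0 ≤ pi1 j n := by unfold pi1; positivity

/-- A clause operator applied to a function of a slice, lower bound. -/
lemma TT_slice_ge (p : Fin (n + 1)) (b : Bool) (hn : 0 < n) {ψ : Fn (Asg n)} (hψ : ∀ S, 0 ≤ ψ S)
    (S : Finset (Asg (n + 1))) :
    thn (j + 1) n (n + 1) * TT (j + 1) n ψ (slice p b S) + pi1 j n * TT j n ψ (slice p b S)
        + pi1 j n * ψ (slice p b S)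
      ≤ TT (j + 1) (n + 1) (fun S => ψ (slice p b S)) S := by
  classical
  unfold TT
  rw [Avg_apply, Avg_apply, Avg_apply, card_WCl, card_WCl, card_WCl]
  have key := sum_ge_of_inj (typeMap (j := j) p) (typeMap_injective p)
    (fun C => ψ (slice p b (S ∩ solW C))) (fun _ => hψ _)
  rw [Fintype.sum_sum_type] at key
  simp only [typeMap, slice_inter_upC] at key
  rw [Fintype.sum_prod_type] at key
  have h2 : ∀ i : Fin (j + 1), ∑ y : Bool × WCl j n,
      ψ (slice p b (S ∩ solW (insC p i y.1 y.2)))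
      = ∑ D : WCl j n, ψ (slice p b S ∩ solW D) + (Fintype.card (WCl j n) : ℝ) * ψ (slice p b S) := by
    intro i
    rw [Fintype.sum_prod_type, Fintype.sum_bool]
    simp only [slice_inter_insC]
    cases b <;> simp [add_comm]
  simp only [h2] at key
  rw [Finset.sum_const, Finset.card_univ, Fintype.card_fin, nsmul_eq_mul, card_WCl] at key
  have hn' : (0 : ℝ) < n := by exact_mod_cast hn
  rw [le_div_iff₀ (by positivity)]
  refine le_trans (le_of_eq ?_) key
  unfold thn pi1
  push_cast
  have hne : ((n : ℝ) + 1) ≠ 0 := by positivity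
  have hne2 : (n : ℝ) ≠ 0 := hn'.ne'
  have e1 : ((2 * ((n : ℝ) + 1)) ^ (j + 1)) = (2 * (n : ℝ)) ^ (j + 1) * (((n : ℝ) + 1) / n) ^ (j + 1) := by
    rw [← mul_pow]
    congr 1
    field_simp
  have e2 : ((2 * (n : ℝ)) ^ j) = (2 * (n : ℝ)) ^ (j + 1) / (2 * n) := by
    rw [pow_succ]
    field_simp
  set A := ∑ C : WCl (j + 1) n, ψ (slice p b S ∩ solW C)
  set B := ∑ D : WCl j n, ψ (slice p b S ∩ solW D)
  set c := ψ (slice p b S)
  have hp : (0:ℝ) < (2 * (n : ℝ)) ^ j := by positivity
  have hq : (0:ℝ) < (((n : ℝ)) / (n + 1)) ^ j := by positivity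
  have e3 : ((n : ℝ) / (n + 1)) ^ (j + 1) * (2 * ((n : ℝ) + 1)) ^ (j + 1) = (2 * (n : ℝ)) ^ (j + 1) := by
    rw [← mul_pow]
    congr 1
    field_simp
  have e4 : ((n : ℝ) / (n + 1)) ^ j * (2 * ((n : ℝ) + 1)) ^ (j + 1)
      = (2 * (n : ℝ)) ^ j * (2 * ((n : ℝ) + 1)) := by
    rw [pow_succ (2 * ((n : ℝ) + 1)), ← mul_assoc, ← mul_pow]
    congr 2
    field_simp
  calc _ = (((n : ℝ) / (n + 1)) ^ (j + 1) * (2 * ((n : ℝ) + 1)) ^ (j + 1)) * (A / (2 * (n : ℝ)) ^ (j + 1))
        + (((j : ℝ) + 1) * (((n : ℝ) / (n + 1)) ^ j * (2 * ((n : ℝ) + 1)) ^ (j + 1)) / (2 * ((n : ℝ) + 1)))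
            * (B / (2 * (n : ℝ)) ^ j)
        + (((j : ℝ) + 1) * (((n : ℝ) / (n + 1)) ^ j * (2 * ((n : ℝ) + 1)) ^ (j + 1)) / (2 * ((n : ℝ) + 1)))
            * c := by ring
    _ = _ := by
      rw [e3, e4]
      field_simp
      ring

/-- A clause operator at `n + 1` on a function of a slice, lower bound by clauses avoiding `p`. -/
lemma TT_slice_ge' (p : Fin (n + 1)) (b : Bool) (hn : 0 < n) {ψ : Fn (Asg n)} (hψ : ∀ S, 0 ≤ ψ S)
    (S : Finset (Asg (n + 1))) :
    thn j n (n + 1) * TT j n ψ (slice p b S) ≤ TT j (n + 1) (fun S => ψ (slice p b S)) S := by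
  classical
  unfold TT
  rw [Avg_apply, Avg_apply, card_WCl, card_WCl]
  have key := sum_ge_of_inj (upC (j := j) p.succAbove) (upC_injective Fin.succAbove_right_injective)
    (fun C => ψ (slice p b (S ∩ solW C))) (fun _ => hψ _)
  simp only [slice_inter_upC] at key
  have hn' : (0 : ℝ) < n := by exact_mod_cast hn
  rw [le_div_iff₀ (by positivity)]
  refine le_trans (le_of_eq ?_) key
  unfold thn
  push_cast
  have e3 : ((n : ℝ) / (n + 1)) ^ j * (2 * ((n : ℝ) + 1)) ^ j = (2 * (n : ℝ)) ^ j := by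
    rw [← mul_pow]
    congr 1
    field_simp
  calc _ = (((n : ℝ) / (n + 1)) ^ j * (2 * ((n : ℝ) + 1)) ^ j)
        * ((∑ C : WCl j n, ψ (slice p b S ∩ solW C)) / (2 * (n : ℝ)) ^ j) := by ring
    _ = _ := by
      rw [e3]
      field_simp

end Vale.Agent.Lib.P170T
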