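import Vale.Agent.Lib.P170T.Trans

namespace Vale.Agent.Lib.P170T

open Finset Vale.Agent.Lib.P170 Filter Topology

set_option linter.unusedSectionVars false
set_option linter.unusedVariables false

variable {j n : ℕ}

lemma sum_choose_weight (q : ℝ) (hq : 0 ≤ q) (X : ℕ) :
    ∑ e ∈ Finset.range X, q ^ (e + 1) * (X.choose (e + 1) : ℝ) * (1 + (e : ℝ))
      ≤ X * q * (1 + q) ^ X := by
  have h1 : ∀ e ∈ Finset.range X, q ^ (e + 1) * (X.choose (e + 1) : ℝ) * (1 + (e : ℝ))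
      ≤ X * q * (q ^ e * (X.choose e : ℝ)) := by
    intro e he
    have h2 : ((X.choose (e + 1) * (e + 1) : ℕ) : ℝ) = ((X.choose e * (X - e) : ℕ) : ℝ) := by
      rw [Nat.choose_succ_right_eq]
    push_cast at h2
    have h3 : (((X - e : ℕ)) : ℝ) ≤ X := by exact_mod_cast Nat.sub_le X e
    have h4 : (X.choose (e + 1) : ℝ) * (1 + (e : ℝ)) ≤ (X.choose e : ℝ) * X := by
      calc (X.choose (e + 1) : ℝ) * (1 + (e : ℝ)) = (X.choose (e + 1) : ℝ) * ((e : ℝ) + 1) := by ring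
        _ = (X.choose e : ℝ) * ((X - e : ℕ) : ℝ) := h2
        _ ≤ _ := mul_le_mul_of_nonneg_left h3 (by positivity)
    have h5 : 0 ≤ q ^ (e + 1) := by positivity
    calc _ = q ^ (e + 1) * ((X.choose (e + 1) : ℝ) * (1 + (e : ℝ))) := by ring
      _ ≤ q ^ (e + 1) * ((X.choose e : ℝ) * X) := mul_le_mul_of_nonneg_left h4 h5
      _ = _ := by ring
  refine (Finset.sum_le_sum h1).trans ?_
  rw [← Finset.mul_sum]
  have h6 : (1 + q) ^ X = ∑ m ∈ Finset.range (X + 1), q ^ m * (X.choose m : ℝ) := by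
    rw [add_comm 1 q, add_pow]
    simp
  rw [h6]
  apply mul_le_mul_of_nonneg_left _ (by positivity)
  apply Finset.sum_le_sum_of_subset_of_nonneg
  · exact Finset.range_subset_range.mpr (Nat.le_succ _)
  · intro m _ _
    positivity

/-- The constant `Lambda`. -/
noncomputable def LamB (c : ℝ) (j : ℕ) : ℝ :=
  2 * (c * ((j : ℝ) + 1) / 2) * Real.exp (c * ((j : ℝ) + 1) / 2)

/-- The additive constant. -/
noncomputable def EE (c τ : ℝ) (j : ℕ) : ℝ :=
  LamB c j / τ + 2 * c ^ 2 * (((j : ℝ) + 1) * j) + 4 * c * j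

lemma LamB_nonneg {c : ℝ} (hc : 0 < c) (j : ℕ) : 0 ≤ LamB c j := by
  unfold LamB; positivity

lemma EE_nonneg {c τ : ℝ} (hc : 0 < c) (hτ : 0 < τ) (j : ℕ) : 0 ≤ EE c τ j := by
  unfold EE
  have := LamB_nonneg hc j
  positivity

/-- Parameters at a level. -/
structure LevelOK (c : ℝ) (j n X : ℕ) : Prop where
  pos : 0 < n
  hX : (X : ℝ) ≤ c * ((n : ℝ) + 1)
  h1 : ((j : ℝ) + 1) / ((n : ℝ) + 1) ≤ 1 / 2
  h2 : 1 / ((n : ℝ) + 1) ≤ c

lemma LevelOK.succ {c : ℝ} (hc : 0 < c) {X : ℕ} (h : LevelOK c j n X) : LevelOK c j (n + 1) X := by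
  have hp : (0 : ℝ) < (n : ℝ) + 1 := by positivity
  have hle : (n : ℝ) + 1 ≤ ((n + 1 : ℕ) : ℝ) + 1 := by push_cast; linarith
  refine ⟨Nat.succ_pos _, ?_, ?_, ?_⟩
  · exact h.hX.trans (mul_le_mul_of_nonneg_left hle hc.le)
  · refine le_trans ?_ h.h1
    apply div_le_div_of_nonneg_left (by positivity) hp hle
  · refine le_trans ?_ h.h2
    apply div_le_div_of_nonneg_left (by positivity) hp hle

/-- One step of the contraction. -/
theorem GG_contract {c τ U : ℝ} (hc : 0 < c) (hτ : 0 < τ) (hj : 1 ≤ j) {X : ℕ}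
    (hlev : LevelOK c j n X) (hU : ∀ y, GG j n X y ≤ U * (1 + (y : ℝ))) (y : ℕ) :
    GG j (n + 1) X y ≤ (1 + (y : ℝ)) * (τ ^ (j - 1) * LamB c j * U + EE c τ j) := by
  have hn := hlev.pos
  have : NeZero n := ⟨hn.ne'⟩
  have hp : (0 : ℝ) < (n : ℝ) + 1 := by positivity
  have hth : (1 : ℝ) / 2 ≤ th0 j n := by
    have := th0_ge j n
    have := hlev.h1
    linarith
  have hth0 : 0 < th0 j n := by linarith
  have h1th : 1 / th0 j n ≤ 2 := by
    rw [div_le_iff₀ hth0]; linarith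
  have hU0 : 0 ≤ U := by
    have h1 := hU 0
    have h2 := GG_nonneg (j := j) (n := n) X 0
    simp only [Nat.cast_zero, add_zero, mul_one] at h1
    linarith
  have hq := pi1_nonneg j n
  set L := c * ((j : ℝ) + 1) / 2 with hL
  have hL0 : 0 ≤ L := by positivity
  have hXq : (X : ℝ) * pi1 j n ≤ L := by
    have h1 := pi1_le j n
    calc (X : ℝ) * pi1 j n ≤ (c * ((n : ℝ) + 1)) * (((j : ℝ) + 1) / (2 * ((n : ℝ) + 1))) :=
          mul_le_mul hlev.hX h1 hq (by positivity)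
      _ = L := by rw [hL]; field_simp
  -- bound for the total weight
  have hLam : ∑ e ∈ Finset.range X, WW j n X e * (1 + (e : ℝ)) ≤ LamB c j := by
    have h1 := sum_choose_weight (pi1 j n) hq X
    have e1 : ∑ e ∈ Finset.range X, WW j n X e * (1 + (e : ℝ))
        = (1 / th0 j n) * ∑ e ∈ Finset.range X, pi1 j n ^ (e + 1) * (X.choose (e + 1) : ℝ) * (1 + (e : ℝ)) := by
      rw [Finset.mul_sum]
      refine Finset.sum_congr rfl (fun e _ => ?_)
      unfold WW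
      ring
    rw [e1]
    have h2 : (1 + pi1 j n) ^ X ≤ Real.exp L := by
      have h3 : 1 + pi1 j n ≤ Real.exp (pi1 j n) := by
        linarith [Real.add_one_le_exp (pi1 j n)]
      calc (1 + pi1 j n) ^ X ≤ (Real.exp (pi1 j n)) ^ X := pow_le_pow_left₀ (by linarith) h3 X
        _ = Real.exp (X * pi1 j n) := by rw [← Real.exp_nat_mul]
        _ ≤ Real.exp L := Real.exp_le_exp.mpr hXq
    have h4 : (X : ℝ) * pi1 j n * (1 + pi1 j n) ^ X ≤ L * Real.exp L :=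
      mul_le_mul hXq h2 (by positivity) hL0
    unfold LamB
    rw [← hL]
    have h5 : 0 ≤ (1 / th0 j n) := by positivity
    calc _ ≤ (1 / th0 j n) * (L * Real.exp L) := mul_le_mul_of_nonneg_left (h1.trans h4) h5
      _ ≤ 2 * (L * Real.exp L) := mul_le_mul_of_nonneg_right h1th (by positivity)
      _ = _ := by ring
  -- the main recursion
  have hrec := GG_step (j := j) hn hth0 X y
  have hDD : ∀ e, ∑ i ∈ Finset.range X, DD j n i (y + e) ≤
      τ ^ (j - 1) * (U * (1 + ((y + e : ℕ) : ℝ))) + 1 / τ := by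
    intro e
    have h1 := sum_DD_le hn hj hτ X (y + e)
    have h2 : ∑ i ∈ Finset.range X, bb j n i (y + e) ≤ GG j n X (y + e) := by
      unfold GG
      apply Finset.sum_le_sum_of_subset_of_nonneg
      · exact Finset.range_subset_range.mpr (Nat.le_succ _)
      · intro _ _ _
        exact bb_nonneg _ _
    have h3 := (h2.trans (hU (y + e)))
    have h4 := mul_le_mul_of_nonneg_left h3 (by positivity : 0 ≤ τ ^ (j - 1))
    linarith
  have hy0 : (0 : ℝ) ≤ (y : ℝ) := Nat.cast_nonneg y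
  have hsum : ∑ e ∈ Finset.range X, WW j n X e * ∑ i ∈ Finset.range X, DD j n i (y + e)
      ≤ (1 + (y : ℝ)) * (τ ^ (j - 1) * LamB c j * U + LamB c j / τ) := by
    have h1 : ∀ e ∈ Finset.range X, WW j n X e * ∑ i ∈ Finset.range X, DD j n i (y + e)
        ≤ (1 + (y : ℝ)) * ((τ ^ (j - 1) * U + 1 / τ) * (WW j n X e * (1 + (e : ℝ)))) := by
      intro e _
      have hw := WW_nonneg (j := j) (n := n) X e
      have h2 := mul_le_mul_of_nonneg_left (hDD e) hw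
      refine h2.trans ?_
      have he0 : (0 : ℝ) ≤ (e : ℝ) := Nat.cast_nonneg e
      have hτU : 0 ≤ τ ^ (j - 1) * U := by positivity
      have h1τ : 0 ≤ 1 / τ := by positivity
      push_cast
      have h3 : (1 + ((y : ℝ) + e)) ≤ (1 + (y : ℝ)) * (1 + (e : ℝ)) := by nlinarith
      have h4 : τ ^ (j - 1) * (U * (1 + ((y : ℝ) + e))) ≤ τ ^ (j - 1) * U * ((1 + (y : ℝ)) * (1 + (e : ℝ))) := by
        rw [mul_assoc]
        exact mul_le_mul_of_nonneg_left (by nlinarith) (by positivity)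
      have h5 : 1 / τ ≤ 1 / τ * ((1 + (y : ℝ)) * (1 + (e : ℝ))) := by
        have : 1 ≤ (1 + (y : ℝ)) * (1 + (e : ℝ)) := by nlinarith
        nlinarith
      have h6 := mul_le_mul_of_nonneg_left (add_le_add h4 h5) hw
      refine h6.trans (le_of_eq ?_)
      ring
    refine (Finset.sum_le_sum h1).trans ?_
    rw [← Finset.mul_sum, ← Finset.mul_sum]
    apply mul_le_mul_of_nonneg_left _ (by positivity)
    have h7 := mul_le_mul_of_nonneg_left hLam (by positivity : 0 ≤ τ ^ (j - 1) * U + 1 / τ)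
    refine h7.trans (le_of_eq ?_)
    ring
  -- the rare terms
  have hX0 : (0 : ℝ) ≤ (X : ℝ) := Nat.cast_nonneg X
  have hXn : ((X : ℝ) + 1) / ((n : ℝ) + 1) ≤ 2 * c := by
    rw [add_div]
    have : (X : ℝ) / ((n : ℝ) + 1) ≤ c := by
      rw [div_le_iff₀ hp]; exact hlev.hX
    linarith [hlev.h2]
  have hXn' : (X : ℝ) / ((n : ℝ) + 1) ≤ c := by
    rw [div_le_iff₀ hp]; exact hlev.hX
  have hj0 : (0 : ℝ) ≤ (j : ℝ) := Nat.cast_nonneg j
  have hrare1 : ((X : ℝ) + 1) * (X * pr j n) ≤ 2 * c ^ 2 * (((j : ℝ) + 1) * j) := by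
    have h1 := pr_le j n
    have h2 : ((X : ℝ) + 1) * (X * pr j n) ≤ ((X : ℝ) + 1) * (X * (((j : ℝ) + 1) * j / ((n : ℝ) + 1) ^ 2)) := by
      apply mul_le_mul_of_nonneg_left _ (by positivity)
      exact mul_le_mul_of_nonneg_left h1 hX0
    refine h2.trans ?_
    have e : ((X : ℝ) + 1) * (X * (((j : ℝ) + 1) * j / ((n : ℝ) + 1) ^ 2))
        = (((X : ℝ) + 1) / ((n : ℝ) + 1)) * ((X : ℝ) / ((n : ℝ) + 1)) * (((j : ℝ) + 1) * j) := by
      field_simp
    rw [e]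
    have h3 : (((X : ℝ) + 1) / ((n : ℝ) + 1)) * ((X : ℝ) / ((n : ℝ) + 1)) ≤ (2 * c) * c :=
      mul_le_mul hXn hXn' (by positivity) (by positivity)
    have h4 := mul_le_mul_of_nonneg_right h3 (by positivity : (0:ℝ) ≤ ((j : ℝ) + 1) * j)
    refine h4.trans (le_of_eq ?_)
    ring
  have hrare2 : ((X : ℝ) + 1) * (2 * (1 - th1 j n)) ≤ 4 * c * j := by
    have h1 := one_sub_th1_le j n
    have h2 : ((X : ℝ) + 1) * (2 * (1 - th1 j n)) ≤ ((X : ℝ) + 1) * (2 * ((j : ℝ) / ((n : ℝ) + 1))) := by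
      apply mul_le_mul_of_nonneg_left _ (by positivity)
      linarith
    refine h2.trans ?_
    have e : ((X : ℝ) + 1) * (2 * ((j : ℝ) / ((n : ℝ) + 1)))
        = 2 * (((X : ℝ) + 1) / ((n : ℝ) + 1)) * j := by
      field_simp
    rw [e]
    have h3 := mul_le_mul_of_nonneg_right hXn hj0
    nlinarith
  have hth1 : 0 ≤ 1 - th1 j n := by linarith [th1_le_one j n]
  have hpr := pr_nonneg j n
  have hrare : ((X : ℝ) + 1) * (X * pr j n + 2 * (y * (1 - th1 j n)))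
      ≤ (1 + (y : ℝ)) * (2 * c ^ 2 * (((j : ℝ) + 1) * j) + 4 * c * j) := by
    have e : ((X : ℝ) + 1) * (X * pr j n + 2 * (y * (1 - th1 j n)))
        = ((X : ℝ) + 1) * (X * pr j n) + y * (((X : ℝ) + 1) * (2 * (1 - th1 j n))) := by ring
    rw [e]
    have h3 := mul_le_mul_of_nonneg_left hrare2 hy0
    have h4 : 0 ≤ 2 * c ^ 2 * (((j : ℝ) + 1) * j) := by positivity
    have h5 : 0 ≤ 4 * c * (j : ℝ) := by positivity
    nlinarith
  unfold EE
  calc _ ≤ _ := hrec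
    _ ≤ (1 + (y : ℝ)) * (τ ^ (j - 1) * LamB c j * U + LamB c j / τ)
        + (1 + (y : ℝ)) * (2 * c ^ 2 * (((j : ℝ) + 1) * j) + 4 * c * j) := add_le_add hsum hrare
    _ = _ := by ring

/-- Iterating the contraction. -/
theorem GG_levels {c τ : ℝ} (hc : 0 < c) (hτ : 0 < τ) (hj : 1 ≤ j)
    (hcontr : τ ^ (j - 1) * LamB c j ≤ 1 / 2) {X : ℕ}
    (hlev : LevelOK c j n X) (r y : ℕ) :
    GG j (n + r) X y ≤ (1 + (y : ℝ)) * (((X : ℝ) + 1) / 2 ^ r + 2 * EE c τ j) := by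
  have hE := EE_nonneg hc hτ j
  induction r generalizing y with
  | zero =>
    have : NeZero n := ⟨hlev.pos.ne'⟩
    have h1 := GG_le (j := j) (n := n) X y
    simp only [add_zero, pow_zero, div_one]
    have hy0 : (0 : ℝ) ≤ (y : ℝ) := Nat.cast_nonneg y
    have hX0 : (0 : ℝ) ≤ (X : ℝ) := Nat.cast_nonneg X
    nlinarith
  | succ r ih =>
    have hlev' : LevelOK c j (n + r) X := by
      clear ih
      induction r with
      | zero => exact hlev
      | succ r ih2 => exact LevelOK.succ hc ih2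
    have h := GG_contract (n := n + r) (U := ((X : ℝ) + 1) / 2 ^ r + 2 * EE c τ j) hc hτ hj hlev'
      (fun y => by
        have := ih y
        linarith) y
    rw [← add_assoc]
    refine h.trans ?_
    have hy0 : (0 : ℝ) ≤ 1 + (y : ℝ) := by positivity
    apply mul_le_mul_of_nonneg_left _ hy0
    have hU0 : 0 ≤ ((X : ℝ) + 1) / 2 ^ r + 2 * EE c τ j := by positivity
    have h2 := mul_le_mul_of_nonneg_right hcontr hU0
    have e : ((X : ℝ) + 1) / 2 ^ (r + 1) = (((X : ℝ) + 1) / 2 ^ r) / 2 := by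
      rw [pow_succ]; field_simp
    rw [e]
    linarith

lemma tendsto_linear_div_two_pow (a b : ℝ) :
    Tendsto (fun r : ℕ => (a * r + b) / (2 : ℝ) ^ r) atTop (𝓝 0) := by
  have h1 := tendsto_pow_const_div_const_pow_of_one_lt 1 (by norm_num : (1 : ℝ) < 2)
  have h2 : Tendsto (fun r : ℕ => (1 / 2 : ℝ) ^ r) atTop (𝓝 0) :=
    tendsto_pow_atTop_nhds_zero_of_lt_one (by norm_num) (by norm_num)
  have h3 := (h1.const_mul a).add (h2.const_mul b)
  simp only [mul_zero, add_zero] at h3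
  refine h3.congr (fun r => ?_)
  simp only [pow_one, one_div, inv_pow]
  field_simp

/-- Mean frozen fraction: general form. -/
theorem thmA_gen {c₂ τ η : ℝ} (hc₂ : 0 < c₂) (hτ : 0 < τ) (hj : 1 ≤ j) (hη : 0 < η)
    (hcontr : τ ^ (j - 1) * LamB (2 * c₂) j ≤ 1 / 2) :
    ∃ N₀ : ℕ, ∀ N ≥ N₀, ∀ X : ℕ, (X : ℝ) ≤ c₂ * N → GG j N X 0 ≤ η + 2 * EE (2 * c₂) τ j := by
  have hT := tendsto_linear_div_two_pow (c₂ * 2) (c₂ + 1)
  obtain ⟨r₀, hr₀⟩ := ((tendsto_order.1 hT).2 η hη).exists_forall_of_atTop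
  obtain ⟨N₁, hN₁⟩ := exists_nat_ge (1 / c₂)
  refine ⟨max (max (4 * (j + 1)) (N₁ + 2)) (2 * r₀ + 2), fun N hN X hX => ?_⟩
  have hN1 : 4 * (j + 1) ≤ N := le_trans (le_trans (le_max_left _ _) (le_max_left _ _)) hN
  have hN2 : N₁ + 2 ≤ N := le_trans (le_trans (le_max_right _ _) (le_max_left _ _)) hN
  have hN3 : 2 * r₀ + 2 ≤ N := le_trans (le_max_right _ _) hN
  set r := N / 2 with hr
  set n₁ := N - r with hn₁
  have hrN : N = n₁ + r := by omega
  have hrN2 : N ≤ 2 * r + 1 := by omega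
  have hn1N : N ≤ 2 * n₁ := by omega
  have hn1 : 0 < n₁ := by omega
  have hp : (0 : ℝ) < (n₁ : ℝ) + 1 := by positivity
  have hNr : (N : ℝ) ≤ 2 * (n₁ : ℝ) := by exact_mod_cast hn1N
  have hlev : LevelOK (2 * c₂) j n₁ X := by
    refine ⟨hn1, ?_, ?_, ?_⟩
    · calc (X : ℝ) ≤ c₂ * N := hX
        _ ≤ c₂ * (2 * ((n₁ : ℝ) + 1)) := mul_le_mul_of_nonneg_left (by linarith) hc₂.le
        _ = _ := by ring
    · rw [div_le_iff₀ hp]
      have : ((4 * (j + 1) : ℕ) : ℝ) ≤ (N : ℝ) := by exact_mod_cast hN1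
      push_cast at this
      linarith
    · rw [div_le_iff₀ hp]
      have h1 : ((N₁ + 2 : ℕ) : ℝ) ≤ (N : ℝ) := by exact_mod_cast hN2
      push_cast at h1
      have h2 : 1 / c₂ ≤ (n₁ : ℝ) * 2 := by linarith
      have h3 : 1 ≤ c₂ * ((n₁ : ℝ) * 2) := by
        rw [div_le_iff₀ hc₂] at h2
        linarith
      nlinarith
  have h := GG_levels (by positivity : (0 : ℝ) < 2 * c₂) hτ hj hcontr hlev r 0
  rw [← hrN] at h
  simp only [Nat.cast_zero, add_zero, one_mul] at h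
  refine h.trans ?_
  have hr0 : r₀ ≤ r := by omega
  have h2 := hr₀ r hr0
  have h3 : ((X : ℝ) + 1) / 2 ^ r ≤ (c₂ * 2 * r + (c₂ + 1)) / 2 ^ r := by
    apply div_le_div_of_nonneg_right _ (by positivity)
    have h4 : (N : ℝ) ≤ 2 * (r : ℝ) + 1 := by exact_mod_cast hrN2
    nlinarith
  linarith

/-- Mean frozen fraction: bounded sum. -/
theorem thmA (hj : 2 ≤ j) {c₂ : ℝ} (hc₂ : 0 < c₂) :
    ∃ U : ℝ, 0 ≤ U ∧ ∃ N₀ : ℕ, ∀ N ≥ N₀, ∀ X : ℕ, (X : ℝ) ≤ c₂ * N → GG j N X 0 ≤ U := by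
  set Lam := LamB (2 * c₂) j with hLam
  have hL0 : 0 ≤ Lam := LamB_nonneg (by positivity) j
  set τ : ℝ := 1 / (2 * Lam + 1) with hτdef
  have hτ : 0 < τ := by positivity
  have hτ1 : τ ≤ 1 := by
    rw [hτdef, div_le_one (by positivity)]
    linarith
  have hcontr : τ ^ (j - 1) * Lam ≤ 1 / 2 := by
    have h1 : τ ^ (j - 1) ≤ τ := by
      calc τ ^ (j - 1) ≤ τ ^ 1 := pow_le_pow_of_le_one hτ.le hτ1 (by omega)
        _ = τ := pow_one τ
    have h2 : τ * Lam ≤ 1 / 2 := by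
      rw [hτdef, div_mul_eq_mul_div, one_mul, div_le_iff₀ (by positivity)]
      linarith
    have h3 := mul_le_mul_of_nonneg_right h1 hL0
    linarith
  obtain ⟨N₀, hN₀⟩ := thmA_gen (η := 1) hc₂ hτ (by omega) one_pos hcontr
  exact ⟨1 + 2 * EE (2 * c₂) τ j, by
    have := EE_nonneg (c := 2 * c₂) (by positivity) hτ j
    positivity, N₀, hN₀⟩

/-- Mean frozen fraction: small density. -/
theorem thmA_small (hj : 1 ≤ j) :
    ∃ c₀ : ℝ, 0 < c₀ ∧ ∃ N₀ : ℕ, ∀ N ≥ N₀, ∀ X : ℕ, (X : ℝ) ≤ c₀ * N → GG j N X 0 ≤ 1 / 8 := by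
  have hJ : (0 : ℝ) < (j : ℝ) + 1 := by positivity
  set c₀ : ℝ := 1 / (400 * ((j : ℝ) + 1)) with hc₀
  have hc0 : 0 < c₀ := by positivity
  have hc2 : (2 * c₀) * ((j : ℝ) + 1) = 1 / 200 := by
    rw [hc₀]; field_simp; norm_num
  have hL : (2 * c₀) * ((j : ℝ) + 1) / 2 = 1 / 400 := by
    rw [hc2]; norm_num
  have hexp : Real.exp (1 / 400) ≤ 3 := by
    have h1 : Real.exp (1 / 400) ≤ Real.exp 1 := Real.exp_le_exp.mpr (by norm_num)
    have h2 := Real.exp_one_lt_d9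
    linarith
  have hLam : LamB (2 * c₀) j ≤ 3 / 200 := by
    unfold LamB
    rw [hL]
    nlinarith [Real.exp_pos (1 / 400 : ℝ)]
  have hLam0 : 0 ≤ LamB (2 * c₀) j := LamB_nonneg (by positivity) j
  have hcontr : (1 : ℝ) ^ (j - 1) * LamB (2 * c₀) j ≤ 1 / 2 := by
    rw [one_pow, one_mul]
    linarith
  obtain ⟨N₀, hN₀⟩ := thmA_gen (η := 1 / 20) hc0 one_pos hj (by norm_num) hcontr
  refine ⟨c₀, hc0, N₀, fun N hN X hX => (hN₀ N hN X hX).trans ?_⟩
  unfold EE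
  have hj0 : (0 : ℝ) ≤ (j : ℝ) := Nat.cast_nonneg j
  have h1 : 2 * (2 * c₀) ^ 2 * (((j : ℝ) + 1) * j) ≤ 1 / 10000 := by
    have h2 : 2 * (2 * c₀) ^ 2 * (((j : ℝ) + 1) * j) ≤ 2 * (2 * c₀) ^ 2 * (((j : ℝ) + 1) * ((j : ℝ) + 1)) := by
      apply mul_le_mul_of_nonneg_left _ (by positivity)
      nlinarith
    refine h2.trans ?_
    have : 2 * (2 * c₀) ^ 2 * (((j : ℝ) + 1) * ((j : ℝ) + 1)) = 2 * ((2 * c₀) * ((j : ℝ) + 1)) ^ 2 := by ring
    rw [this, hc2]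
    norm_num
  have h3 : 4 * (2 * c₀) * (j : ℝ) ≤ 1 / 50 := by
    have h2 : 4 * (2 * c₀) * (j : ℝ) ≤ 4 * ((2 * c₀) * ((j : ℝ) + 1)) := by
      nlinarith
    rw [hc2] at h2
    linarith
  have h4 : LamB (2 * c₀) j / 1 ≤ 3 / 200 := by simpa using hLam
  linarith

end Vale.Agent.Lib.P170T
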