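import Vale.Agent.Lib.P170T.Level

namespace Vale.Agent.Lib.P170T

open Finset Vale.Agent.Lib.P170

set_option linter.unusedSectionVars false
set_option linter.unusedVariables false

variable {j n : ℕ}

/-! ### Numerics of the clause types -/

/-- The probability that a long clause avoids a given variable. -/
noncomputable abbrev th0 (j n : ℕ) : ℝ := thn (j + 1) n (n + 1)

/-- The probability that a short clause avoids a given variable. -/
noncomputable abbrev th1 (j n : ℕ) : ℝ := thn j n (n + 1)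

lemma s_sum_le_one {s : ℝ} (h0 : 0 ≤ s) (h1 : s ≤ 1) (j : ℕ) :
    s ^ (j + 1) + ((j : ℝ) + 1) * (1 - s) * s ^ j ≤ 1 := by
  induction j with
  | zero => simp
  | succ j ih =>
    have h2 : s ^ (j + 1) ≤ 1 := pow_le_one₀ h0 h1
    push_cast
    have e : s ^ (j + 1 + 1) + ((j : ℝ) + 1 + 1) * (1 - s) * s ^ (j + 1)
        = s * (s ^ (j + 1) + ((j : ℝ) + 1) * (1 - s) * s ^ j) + (1 - s) * s ^ (j + 1) := by ring
    rw [e]
    have h3 := mul_le_mul_of_nonneg_left ih h0
    have h4 := mul_le_mul_of_nonneg_left h2 (sub_nonneg.mpr h1)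
    nlinarith

lemma thn_succ_eq (j n : ℕ) : thn j n (n + 1) = ((n : ℝ) / (n + 1)) ^ j := by
  unfold thn; push_cast; rfl

lemma one_sub_s (n : ℕ) : 1 - (n : ℝ) / (n + 1) = 1 / ((n : ℝ) + 1) := by
  have : (n : ℝ) + 1 ≠ 0 := by positivity
  field_simp
  ring

lemma th0_add_pi1_le (j n : ℕ) : th0 j n + 2 * pi1 j n ≤ 1 := by
  have h0 : (0 : ℝ) ≤ (n : ℝ) / (n + 1) := by positivity
  have h1 : (n : ℝ) / (n + 1) ≤ 1 := by
    apply div_le_one_of_le₀ <;> [linarith; positivity]
  have h := s_sum_le_one h0 h1 j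
  rw [one_sub_s] at h
  unfold pi1
  rw [th0, thn_succ_eq]
  have hp : (0:ℝ) < (n : ℝ) + 1 := by positivity
  refine le_trans (le_of_eq ?_) h
  field_simp

/-- The rare part. -/
noncomputable def pr (j n : ℕ) : ℝ := 1 - th0 j n - 2 * pi1 j n

lemma pr_nonneg (j n : ℕ) : 0 ≤ pr j n := by
  unfold pr; linarith [th0_add_pi1_le j n]

lemma pow_s_ge (j n : ℕ) : 1 - (j : ℝ) / ((n : ℝ) + 1) ≤ ((n : ℝ) / (n + 1)) ^ j := by
  have hp : (0:ℝ) < (n : ℝ) + 1 := by positivity
  have h1 : (-2 : ℝ) ≤ -(1 / ((n : ℝ) + 1)) := by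
    have : 1 / ((n : ℝ) + 1) ≤ 1 := by
      rw [div_le_one hp]; linarith [(Nat.cast_nonneg n : (0:ℝ) ≤ n)]
    linarith
  have h := one_add_mul_le_pow h1 j
  have e : 1 + -(1 / ((n : ℝ) + 1)) = (n : ℝ) / (n + 1) := by
    field_simp
    ring
  rw [e] at h
  refine le_trans (le_of_eq ?_) h
  ring

lemma pr_le (j n : ℕ) : pr j n ≤ ((j : ℝ) + 1) * j / ((n : ℝ) + 1) ^ 2 := by
  unfold pr pi1
  rw [th0, thn_succ_eq]
  have hp : (0:ℝ) < (n : ℝ) + 1 := by positivity
  have h1 := pow_s_ge (j + 1) n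
  have h2 := pow_s_ge j n
  push_cast at h1
  have e : 2 * (((j : ℝ) + 1) * ((n : ℝ) / (n + 1)) ^ j / (2 * ((n : ℝ) + 1)))
      = (((j : ℝ) + 1) / ((n : ℝ) + 1)) * ((n : ℝ) / (n + 1)) ^ j := by
    field_simp
  rw [e]
  have h3 := mul_le_mul_of_nonneg_left h2 (by positivity : (0:ℝ) ≤ ((j : ℝ) + 1) / ((n : ℝ) + 1))
  have e2 : ((j : ℝ) + 1) * j / ((n : ℝ) + 1) ^ 2
      = ((j : ℝ) + 1) / ((n : ℝ) + 1) - ((j : ℝ) + 1) / ((n : ℝ) + 1) * (1 - (j : ℝ) / ((n : ℝ) + 1)) := by
    field_simp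
    ring
  rw [e2]
  linarith

lemma one_sub_th1_le (j n : ℕ) : 1 - th1 j n ≤ (j : ℝ) / ((n : ℝ) + 1) := by
  rw [th1, thn_succ_eq]
  linarith [pow_s_ge j n]

lemma pi1_le (j n : ℕ) : pi1 j n ≤ ((j : ℝ) + 1) / (2 * ((n : ℝ) + 1)) := by
  unfold pi1
  have h0 : (0 : ℝ) ≤ (n : ℝ) / (n + 1) := by positivity
  have h1 : (n : ℝ) / (n + 1) ≤ 1 := by
    apply div_le_one_of_le₀ <;> [linarith; positivity]
  have h2 : ((n : ℝ) / (n + 1)) ^ j ≤ 1 := pow_le_one₀ h0 h1
  apply div_le_div_of_nonneg_right _ (by positivity)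
  have : (0:ℝ) ≤ (j : ℝ) + 1 := by positivity
  nlinarith

lemma th0_ge (j n : ℕ) : 1 - ((j : ℝ) + 1) / ((n : ℝ) + 1) ≤ th0 j n := by
  rw [th0, thn_succ_eq]
  have := pow_s_ge (j + 1) n
  push_cast at this
  exact this

/-! ### The operators at level `n` -/

/-- The long clauses thinned. -/
noncomputable def PP (j n : ℕ) : Module.End ℝ (Fn (Asg n)) :=
  th0 j n • TT (j + 1) n + (1 - th0 j n) • 1

/-- The long clauses thinned, with short clauses of weight `pi1`. -/
noncomputable def RR (j n : ℕ) : Module.End ℝ (Fn (Asg n)) :=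
  th0 j n • TT (j + 1) n + pi1 j n • TT j n + (1 - th0 j n - pi1 j n) • 1

lemma PP_apply (f : Fn (Asg n)) : PP j n f = th0 j n • TT (j + 1) n f + (1 - th0 j n) • f := rfl

lemma RR_apply (f : Fn (Asg n)) : RR j n f =
    PP j n f + pi1 j n • TT j n f - pi1 j n • f := by
  unfold RR PP
  simp only [LinearMap.add_apply, LinearMap.smul_apply, Module.End.one_apply]
  funext S
  simp only [Pi.add_apply, Pi.sub_apply, Pi.smul_apply, smul_eq_mul]
  ring

lemma th0_nonneg (j n : ℕ) : 0 ≤ th0 j n := thn_nonneg _ _ _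

lemma th0_le_one (j n : ℕ) : th0 j n ≤ 1 := thn_le_one _ (Nat.le_succ n)

lemma th1_nonneg (j n : ℕ) : 0 ≤ th1 j n := thn_nonneg _ _ _

lemma th1_le_one (j n : ℕ) : th1 j n ≤ 1 := thn_le_one _ (Nat.le_succ n)

lemma PP_markov (j n : ℕ) [NeZero n] : Markov (PP j n) :=
  Markov.convex (TT_markov _ _) Markov.one (th0_nonneg j n) (by linarith [th0_le_one j n]) (by ring)

lemma RR_markov (j n : ℕ) [NeZero n] : Markov (RR j n) :=
  Markov.convex3 (TT_markov _ _) (TT_markov _ _) Markov.one (th0_nonneg j n) (pi1_nonneg j n)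
    (by linarith [th0_add_pi1_le j n, pi1_nonneg j n]) (by ring)

lemma PP_comm_TT (j j' n : ℕ) : Commute (PP j n) (TT j' n) := by
  unfold PP
  apply Commute.add_left
  · exact (TT_comm _ _ _).smul_left _
  · exact (Commute.one_left _).smul_left _

/-! ### Level transition -/

/-- Upper intertwining for projection, long clauses. -/
lemma TT_proj_PP (hn : 0 < n) (p : Fin (n + 1)) {ψ : Fn (Asg n)} (hψ : MU ψ)
    (S : Finset (Asg (n + 1))) :
    TT (j + 1) (n + 1) (fun S => ψ (proj p.succAbove S)) S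
      ≤ PP j n ψ (proj p.succAbove S) + 0 := by
  have h := TT_proj_le (j := j + 1) (Fin.succAbove_right_injective (p := p)) hn hψ.1 S
  rw [PP_apply, add_zero]
  simpa using h

/-- Upper intertwining for projection, short clauses. -/
lemma TT_proj_short (hn : 0 < n) (p : Fin (n + 1)) {ψ : Fn (Asg n)} (hψ : MU ψ)
    (S : Finset (Asg (n + 1))) :
    TT j (n + 1) (fun S => ψ (proj p.succAbove S)) S
      ≤ TT j n ψ (proj p.succAbove S) + (1 - th1 j n) := by
  have : NeZero n := ⟨hn.ne'⟩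
  have h := TT_proj_le (j := j) (Fin.succAbove_right_injective (p := p)) hn hψ.1 S
  refine h.trans ?_
  have h1 := (hψ.2 (proj p.succAbove S)).2
  have h2 := ((TT_markov j n).unit hψ.2 (proj p.succAbove S)).1
  have h3 := th1_le_one j n
  have h4 := th1_nonneg j n
  rw [th1] at h3 h4 ⊢
  nlinarith

/-- Lower intertwining for slices, long clauses. -/
lemma TT_slice_RR (hn : 0 < n) (p : Fin (n + 1)) (b : Bool) {ψ : Fn (Asg n)} (hψ : MU ψ)
    (S : Finset (Asg (n + 1))) :
    RR j n ψ (slice p b S) - pr j n ≤ TT (j + 1) (n + 1) (fun S => ψ (slice p b S)) S := by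
  have h := TT_slice_ge (j := j) p b hn (fun S => (hψ.2 S).1) S
  refine le_trans ?_ h
  unfold RR pr
  simp only [LinearMap.add_apply, LinearMap.smul_apply, Module.End.one_apply, Pi.add_apply,
    Pi.smul_apply, smul_eq_mul]
  have h1 := (hψ.2 (slice p b S)).2
  have h2 := pr_nonneg j n
  unfold pr at h2
  nlinarith

/-- Lower intertwining for slices, short clauses. -/
lemma TT_slice_short (hn : 0 < n) (p : Fin (n + 1)) (b : Bool) {ψ : Fn (Asg n)} (hψ : MU ψ)
    (S : Finset (Asg (n + 1))) :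
    TT j n ψ (slice p b S) - (1 - th1 j n) ≤ TT j (n + 1) (fun S => ψ (slice p b S)) S := by
  have : NeZero n := ⟨hn.ne'⟩
  have h := TT_slice_ge' (j := j) p b hn (fun S => (hψ.2 S).1) S
  refine le_trans ?_ h
  have h2 := ((TT_markov j n).unit hψ.2 (slice p b S)).2
  have h3 := th1_le_one j n
  have h4 := th1_nonneg j n
  rw [th1] at h3 h4 ⊢
  nlinarith

/-- The level transition for one literal. -/
lemma level_step (hn : 0 < n) (p : Fin (n + 1)) (b : Bool) (x y : ℕ) :
    QQ j (n + 1) x y - opE j (n + 1) x y (fun S => g0 (slice p b S)) Finset.univ ≤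
      (PP j n ^ x) ((TT j n ^ y) g0) Finset.univ - (RR j n ^ x) ((TT j n ^ y) g0) Finset.univ
        + x * pr j n + 2 * (y * (1 - th1 j n)) := by
  have : NeZero n := ⟨hn.ne'⟩
  have hA := TT_markov (j + 1) (n + 1)
  have hB := TT_markov j (n + 1)
  have hA' := TT_markov (j + 1) n
  have hB' := TT_markov j n
  have hP := PP_markov j n
  have hR := RR_markov j n
  have hw : MU ((TT j n ^ y) g0) := (hB'.pow y).MU MU_g0
  -- upper part
  have up1 : ∀ S : Finset (Asg (n + 1)), (TT j (n + 1) ^ y) (fun S => (g0 : Fn (Asg n)) (proj p.succAbove S)) S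
      ≤ (TT j n ^ y) g0 (proj p.succAbove S) + y * (1 - th1 j n) :=
    fun S => iter_le hB hB' (proj p.succAbove) (fun ψ hψ S => TT_proj_short hn p hψ S) y g0 MU_g0 S
  have up2 : ∀ S : Finset (Asg (n + 1)),
      (TT (j + 1) (n + 1) ^ x) (fun S => ((TT j n ^ y) g0) (proj p.succAbove S)) S
      ≤ (PP j n ^ x) ((TT j n ^ y) g0) (proj p.succAbove S) + x * 0 :=
    fun S => iter_le hA hP (proj p.succAbove) (fun ψ hψ S => TT_proj_PP hn p hψ S) x _ hw S
  have hg0 : (g0 : Fn (Asg (n + 1))) = fun S => (g0 : Fn (Asg n)) (proj p.succAbove S) := by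
    funext S
    rw [g0_proj]
  have up : QQ j (n + 1) x y ≤ (PP j n ^ x) ((TT j n ^ y) g0) Finset.univ + y * (1 - th1 j n) := by
    unfold QQ
    rw [opE_apply, hg0]
    have h1 := (hA.pow x).ord _ _ up1 Finset.univ
    rw [(hA.pow x).add_const] at h1
    have h2 := up2 Finset.univ
    rw [proj_univ Fin.succAbove_right_injective] at h2
    simp only at h1
    linarith
  -- lower part
  have lo1 : ∀ S : Finset (Asg (n + 1)),
      (TT j n ^ y) g0 (slice p b S) - y * (1 - th1 j n)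
        ≤ (TT j (n + 1) ^ y) (fun S => (g0 : Fn (Asg n)) (slice p b S)) S :=
    fun S => iter_ge hB hB' (slice p b) (fun ψ hψ S => TT_slice_short hn p b hψ S) y g0 MU_g0 S
  have lo2 : ∀ S : Finset (Asg (n + 1)),
      (RR j n ^ x) ((TT j n ^ y) g0) (slice p b S) - x * pr j n
        ≤ (TT (j + 1) (n + 1) ^ x) (fun S => ((TT j n ^ y) g0) (slice p b S)) S :=
    fun S => iter_ge hA hR (slice p b) (fun ψ hψ S => TT_slice_RR hn p b hψ S) x _ hw S
  have lo : (RR j n ^ x) ((TT j n ^ y) g0) Finset.univ - x * pr j n - y * (1 - th1 j n)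
      ≤ opE j (n + 1) x y (fun S => g0 (slice p b S)) Finset.univ := by
    rw [opE_apply]
    have h1 := (hA.pow x).ord (fun S => (TT j n ^ y) g0 (slice p b S) + (- (y * (1 - th1 j n)))) _
      (fun S => by have := lo1 S; simp only; linarith) Finset.univ
    rw [(hA.pow x).add_const] at h1
    have h2 := lo2 Finset.univ
    rw [slice_univ] at h2
    simp only at h1
    linarith
  linarith

/-- The level transition for the mean frozen fraction. -/
lemma bb_step (hn : 0 < n) (x y : ℕ) :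
    bb j (n + 1) x y ≤
      (PP j n ^ x) ((TT j n ^ y) g0) Finset.univ - (RR j n ^ x) ((TT j n ^ y) g0) Finset.univ
        + x * pr j n + 2 * (y * (1 - th1 j n)) :=
  bb_le_of_forall x y (fun l => level_step hn l.1 l.2 x y)

/-- The partial sums of the mean frozen fraction. -/
noncomputable def GG (j n X y : ℕ) : ℝ := ∑ x ∈ Finset.range (X + 1), bb j n x y

lemma GG_nonneg [NeZero n] (X y : ℕ) : 0 ≤ GG j n X y :=
  Finset.sum_nonneg (fun _ _ => bb_nonneg _ _)

lemma GG_le [NeZero n] (X y : ℕ) : GG j n X y ≤ X + 1 := by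
  unfold GG
  calc _ ≤ ∑ x ∈ Finset.range (X + 1), (1 : ℝ) := Finset.sum_le_sum (fun _ _ => bb_le_one _ _)
    _ = X + 1 := by simp

/-- The weights. -/
noncomputable def WW (j n X e : ℕ) : ℝ :=
  (pi1 j n) ^ (e + 1) * (X.choose (e + 1) : ℝ) * (1 / th0 j n)

lemma WW_nonneg (X e : ℕ) : 0 ≤ WW j n X e := by
  unfold WW
  have h0 := th0_nonneg j n
  have h1 := pi1_nonneg j n
  positivity

/-- The recursion. -/
theorem GG_step (hn : 0 < n) (hth : 0 < th0 j n) (X y : ℕ) :
    GG j (n + 1) X y ≤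
      ∑ e ∈ Finset.range X, WW j n X e * ∑ i ∈ Finset.range X, DD j n i (y + e)
        + (X + 1) * (X * pr j n + 2 * (y * (1 - th1 j n))) := by
  have : NeZero n := ⟨hn.ne'⟩
  set w : Fn (Asg n) := (TT j n ^ y) g0 with hw
  have hB' := TT_markov j n
  have hA' := TT_markov (j + 1) n
  have hP := PP_markov j n
  have hR := RR_markov j n
  have hwmono : MU w := (hB'.pow y).MU MU_g0
  have hw0 : ∀ S, 0 ≤ (w - TT j n w) S := by
    intro S
    have h1 : TT j n w S ≤ w S := Avg_le_self _ hwmono.1 S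
    simp only [Pi.sub_apply]
    linarith
  have hpas := fun x => pascal (P := PP j n) (B := TT j n) (R := RR j n) (q := pi1 j n) (w := w) hP hB' hR
    (PP_comm_TT j j n) (pi1_nonneg j n) (fun f => RR_apply f) hw0 x Finset.univ
  have hsum := sum_TTx_le (P := PP j n) (B := TT j n) (q := pi1 j n) (w := w) hP hB' (pi1_nonneg j n) hw0 X
    Finset.univ
  -- each bb
  have h1 : GG j (n + 1) X y ≤ ∑ x ∈ Finset.range (X + 1),
      (TTx (PP j n) (TT j n) (pi1 j n) w x Finset.univ + (X * pr j n + 2 * (y * (1 - th1 j n)))) := by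
    unfold GG
    apply Finset.sum_le_sum
    intro x hx
    have hx' : x ≤ X := Nat.lt_succ_iff.mp (Finset.mem_range.mp hx)
    have h2 := bb_step (j := j) hn x y
    have h3 := hpas x
    have h4 : (x : ℝ) * pr j n ≤ X * pr j n :=
      mul_le_mul_of_nonneg_right (by exact_mod_cast hx') (pr_nonneg j n)
    linarith
  rw [Finset.sum_add_distrib, Finset.sum_const, Finset.card_range, nsmul_eq_mul] at h1
  have h5 : ∑ e ∈ Finset.range X, (pi1 j n ^ (e + 1) * (X.choose (e + 1) : ℝ)) *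
        ∑ m ∈ Finset.range X, (PP j n ^ m) (vv (TT j n) w e) Finset.univ
      ≤ ∑ e ∈ Finset.range X, WW j n X e * ∑ i ∈ Finset.range X, DD j n i (y + e) := by
    apply Finset.sum_le_sum
    intro e _
    have hgreen := green (A := TT (j + 1) n) hA' hth (th0_le_one j n) hP (fun f => PP_apply f)
      (vv_nonneg hB' hw0 e) X Finset.univ
    have hDD : ∀ i, (TT (j + 1) n ^ i) (vv (TT j n) w e) Finset.univ = DD j n i (y + e) := by
      intro i
      unfold DD QQ vv
      rw [hw, opE_apply, opE_apply]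
      have e1 : (TT j n ^ e) ((TT j n ^ y) g0 - TT j n ((TT j n ^ y) g0))
          = (TT j n ^ (y + e)) g0 - (TT j n ^ (y + e + 1)) g0 := by
        rw [map_sub]
        congr 1
        · rw [add_comm y e, pow_add]; rfl
        · have : TT j n ^ (y + e + 1) = TT j n ^ e * TT j n * TT j n ^ y := by
            have h0 : y + e + 1 = e + 1 + y := by omega
            rw [h0, pow_add, pow_succ]
          rw [this]
          rfl
      rw [e1, map_sub]
      rfl
    simp only [hDD] at hgreen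
    unfold WW
    have hnn : 0 ≤ pi1 j n ^ (e + 1) * (X.choose (e + 1) : ℝ) := by
      have := pi1_nonneg j n
      positivity
    have := mul_le_mul_of_nonneg_left hgreen hnn
    refine this.trans (le_of_eq ?_)
    ring
  push_cast at h1
  linarith

end Vale.Agent.Lib.P170T
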