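import Vale.Agent.Lib.P170T.ThmA

namespace Vale.Agent.Lib.P170T

open Finset Vale.Agent.Lib.P170

set_option linter.unusedSectionVars false
set_option linter.unusedVariables false

variable {j n : ℕ}

/-! ### Functions of the number of further clauses -/

/-- Survival after `t` further clauses. -/
noncomputable def ut (j n t : ℕ) : Fn (Asg n) := ((TT (j + 1) n) ^ t) g0

lemma ut_succ (t : ℕ) : ut j n (t + 1) = TT (j + 1) n (ut j n t) := by
  unfold ut; rw [pow_succ']; rfl

lemma ut_zero : ut j n 0 = g0 := by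
  unfold ut; rfl

lemma ut_empty (t : ℕ) : ut j n t ∅ = 0 := by
  unfold ut TT
  exact Avg_pow_empty _ t

lemma ut_nonneg [NeZero n] (t : ℕ) (S : Finset (Asg n)) : 0 ≤ ut j n t S :=
  ((TT_markov _ _).pow t).nonneg g0_nonneg S

lemma ut_le_one [NeZero n] (t : ℕ) (S : Finset (Asg n)) : ut j n t S ≤ 1 :=
  ((TT_markov _ _).pow t).le_const (fun S => (g0_unit S).2) S

/-- Expected number of alive steps. -/
noncomputable def Rf (j n d L : ℕ) : Fn (Asg n) := ∑ t ∈ Finset.range L, ut j n (d + t + 1)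

/-- Second moment of the number of alive steps. -/
noncomputable def Wf (j n d L : ℕ) : Fn (Asg n) :=
  ∑ t ∈ Finset.range L, (2 * (t : ℝ) + 1) • ut j n (d + t + 1)

/-- The conditional variance of one step. -/
noncomputable def CV (j n : ℕ) (f : Fn (Asg n)) : Fn (Asg n) :=
  fun S => TT (j + 1) n (fun S => f S ^ 2) S - (TT (j + 1) n f S) ^ 2

/-- The variance. -/
noncomputable def Vf (j n d L : ℕ) : Fn (Asg n) := fun S => Wf j n d L S - (Rf j n d L S) ^ 2

lemma Rf_succ_d (d L : ℕ) : Rf j n (d + 1) L = TT (j + 1) n (Rf j n d L) := by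
  unfold Rf
  rw [map_sum]
  refine Finset.sum_congr rfl (fun t _ => ?_)
  rw [← ut_succ]
  congr 1
  omega

lemma Wf_succ_d (d L : ℕ) : Wf j n (d + 1) L = TT (j + 1) n (Wf j n d L) := by
  unfold Wf
  rw [map_sum]
  refine Finset.sum_congr rfl (fun t _ => ?_)
  rw [map_smul, ← ut_succ]
  congr 2
  omega

lemma TT_sub_eq (f g h : Fn (Asg n)) (H : f = fun S => g S - h S) (S : Finset (Asg n)) :
    TT (j + 1) n f S = TT (j + 1) n g S - TT (j + 1) n h S := by
  have : f = g - h := by rw [H]; rfl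
  rw [this, map_sub]
  rfl

lemma Vf_succ_d (d L : ℕ) (S : Finset (Asg n)) :
    Vf j n (d + 1) L S = TT (j + 1) n (Vf j n d L) S + CV j n (Rf j n d L) S := by
  have h := TT_sub_eq (j := j) (Vf j n d L) (Wf j n d L) (fun S => (Rf j n d L S) ^ 2) rfl S
  unfold Vf CV
  rw [Rf_succ_d, Wf_succ_d]
  unfold Vf at h
  rw [h]
  ring

/-- The sum including the current state. -/
noncomputable def Pf (j n L : ℕ) : Fn (Asg n) := ∑ t ∈ Finset.range (L + 1), ut j n t

lemma Pf_eq (L : ℕ) : Pf j n L = g0 + Rf j n 0 L := by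
  unfold Pf Rf
  rw [Finset.sum_range_succ', ut_zero, add_comm]
  congr 1
  refine Finset.sum_congr rfl (fun t _ => ?_)
  congr 1
  omega

lemma Rf_zero_succ (L : ℕ) : Rf j n 0 (L + 1) = TT (j + 1) n (Pf j n L) := by
  unfold Rf Pf
  rw [map_sum]
  refine Finset.sum_congr rfl (fun t _ => ?_)
  rw [← ut_succ]
  congr 1
  omega

lemma Wf_zero_succ (L : ℕ) :
    Wf j n 0 (L + 1) = TT (j + 1) n (g0 + Wf j n 0 L + (2 : ℝ) • Rf j n 0 L) := by
  have h : g0 + Wf j n 0 L + (2 : ℝ) • Rf j n 0 L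
      = ∑ t ∈ Finset.range (L + 1), (2 * (t : ℝ) + 1) • ut j n t := by
    rw [Finset.sum_range_succ']
    unfold Wf Rf
    rw [Finset.smul_sum]
    simp only [Nat.cast_zero, mul_zero, zero_add, one_smul, ut_zero]
    rw [add_comm (g0 : Fn (Asg n)), add_assoc, add_comm (g0 : Fn (Asg n)), ← add_assoc,
      ← Finset.sum_add_distrib]
    congr 1
    refine Finset.sum_congr rfl (fun t _ => ?_)
    rw [← add_smul]
    congr 1
    push_cast
    ring
  rw [h]
  unfold Wf
  rw [map_sum]
  refine Finset.sum_congr rfl (fun t _ => ?_)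
  rw [map_smul, ← ut_succ]
  congr 2
  omega

lemma Rf_empty (d L : ℕ) : Rf j n d L ∅ = 0 := by
  unfold Rf
  rw [Finset.sum_apply]
  exact Finset.sum_eq_zero (fun t _ => ut_empty _)

lemma Pf_sq (L : ℕ) (S : Finset (Asg n)) :
    (Pf j n L S) ^ 2 = g0 S + 2 * Rf j n 0 L S + (Rf j n 0 L S) ^ 2 := by
  rw [Pf_eq]
  simp only [Pi.add_apply]
  by_cases hS : S.Nonempty
  · have : (g0 : Fn (Asg n)) S = 1 := by simp [g0, hS]
    rw [this]
    ring
  · have hS' : S = ∅ := Finset.not_nonempty_iff_eq_empty.mp hS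
    subst hS'
    rw [Rf_empty, g0_empty]
    ring

lemma Vf_zero_succ (L : ℕ) (S : Finset (Asg n)) :
    Vf j n 0 (L + 1) S = TT (j + 1) n (Vf j n 0 L) S + CV j n (Pf j n L) S := by
  have h1 := TT_sub_eq (j := j) (Vf j n 0 L) (Wf j n 0 L) (fun S => (Rf j n 0 L S) ^ 2) rfl S
  have h2 : (fun S => (Pf j n L S) ^ 2) = g0 + Wf j n 0 L + (2 : ℝ) • Rf j n 0 L
      - (Vf j n 0 L) := by
    funext S
    rw [Pf_sq]
    simp only [Pi.add_apply, Pi.sub_apply, Pi.smul_apply, smul_eq_mul]
    unfold Vf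
    ring
  unfold CV
  rw [h2, map_sub]
  unfold Vf
  rw [Rf_zero_succ, Wf_zero_succ]
  simp only [Pi.sub_apply]
  ring

lemma Vf_zero_zero (S : Finset (Asg n)) : Vf j n 0 0 S = 0 := by
  simp [Vf, Wf, Rf]

/-! ### Jensen -/

lemma TT_sq_le (f : Fn (Asg n)) (hn : 0 < n) (S : Finset (Asg n)) :
    (TT (j + 1) n f S) ^ 2 ≤ TT (j + 1) n (fun S => f S ^ 2) S := by
  have : NeZero n := ⟨hn.ne'⟩
  unfold TT
  rw [Avg_apply, Avg_apply]
  have hN : (0 : ℝ) < (Fintype.card (WCl (j + 1) n) : ℝ) := by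
    rw [card_WCl]
    positivity
  have h := sq_sum_le_card_mul_sum_sq (s := (Finset.univ : Finset (WCl (j + 1) n)))
    (f := fun C => f (S ∩ solW C))
  rw [Finset.card_univ] at h
  rw [div_pow, div_le_div_iff₀ (by positivity) hN]
  nlinarith

lemma pow_sq_le (f : Fn (Asg n)) (hn : 0 < n) (a : ℕ) (S : Finset (Asg n)) :
    (((TT (j + 1) n) ^ a) f S) ^ 2 ≤ ((TT (j + 1) n) ^ a) (fun S => f S ^ 2) S := by
  have : NeZero n := ⟨hn.ne'⟩
  induction a generalizing S with
  | zero => simp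
  | succ a ih =>
    have e1 : ∀ g : Fn (Asg n), ((TT (j + 1) n) ^ (a + 1)) g = TT (j + 1) n (((TT (j + 1) n) ^ a) g) := by
      intro g
      rw [pow_succ']
      rfl
    rw [e1, e1]
    have h1 := TT_sq_le (j := j) (((TT (j + 1) n) ^ a) f) hn S
    have h2 := (TT_markov (j + 1) n).ord _ _ (fun S => ih S) S
    exact h1.trans h2

/-! ### The conditional variance -/

/-- Killing indicator of a clause. -/
noncomputable def rho (C : WCl (j + 1) n) : Fn (Asg n) := fun S => g0 S - g0 (S ∩ solW C)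

lemma rho_nonneg (C : WCl (j + 1) n) (S : Finset (Asg n)) : 0 ≤ rho C S := by
  unfold rho
  linarith [g0_mono (S ∩ solW C) S Finset.inter_subset_left]

lemma rho_le_g0 (C : WCl (j + 1) n) (S : Finset (Asg n)) : rho C S ≤ g0 S := by
  unfold rho
  linarith [g0_nonneg (S ∩ solW C)]

lemma rho_sq (C : WCl (j + 1) n) (S : Finset (Asg n)) : rho C S ^ 2 = rho C S := by
  unfold rho g0
  by_cases h1 : S.Nonempty
  · by_cases h2 : (S ∩ solW C).Nonempty <;> simp [h1, h2]
  · have hS' : S = ∅ := Finset.not_nonempty_iff_eq_empty.mp h1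
    subst hS'
    simp

/-- The clause operator for one clause, as an operator. -/
noncomputable def Ic (B : Finset (Asg n)) : Module.End ℝ (Fn (Asg n)) := Avg (fun _ : Unit => B)

lemma Ic_apply (B : Finset (Asg n)) (f : Fn (Asg n)) (S : Finset (Asg n)) :
    Ic B f S = f (S ∩ B) := by
  unfold Ic
  rw [Avg_apply]
  simp

/-- The differences of survival. -/
lemma pow_rho (C : WCl (j + 1) n) (t : ℕ) (S : Finset (Asg n)) :
    ((TT (j + 1) n) ^ t) (rho C) S = ut j n t S - ut j n t (S ∩ solW C) := by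
  have hc : Commute (Ic (solW C)) ((TT (j + 1) n) ^ t) := (Avg_comm _ _).pow_right t
  have h1 : rho C = g0 - Ic (solW C) g0 := by
    funext S
    simp only [Pi.sub_apply, Ic_apply, rho]
  have h2 : ((TT (j + 1) n) ^ t) (Ic (solW C) g0) = Ic (solW C) (((TT (j + 1) n) ^ t) g0) :=
    (congrArg (fun f : Module.End ℝ (Fn (Asg n)) => f g0) hc.eq).symm
  rw [h1, map_sub, h2]
  simp only [Pi.sub_apply, Ic_apply]
  rfl

/-- The partial sum operator. -/
noncomputable def Rp (j n : ℕ) (ρ : Fn (Asg n)) (L : ℕ) : Fn (Asg n) :=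
  ∑ r ∈ Finset.range L, ((TT (j + 1) n) ^ r) ρ

lemma Rp_succ (ρ : Fn (Asg n)) (L : ℕ) : Rp j n ρ (L + 1) = ρ + TT (j + 1) n (Rp j n ρ L) := by
  unfold Rp
  rw [Finset.sum_range_succ', map_sum, add_comm]
  congr 1
  refine Finset.sum_congr rfl (fun r _ => ?_)
  rw [pow_succ']
  rfl

/-- The upper bound for the square of the partial sum. -/
noncomputable def Theta (j n : ℕ) (ρ : Fn (Asg n)) : ℕ → Fn (Asg n)
  | 0 => 0
  | L + 1 => fun S => ρ S ^ 2 + 2 * ρ S * TT (j + 1) n (Rp j n ρ L) S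
      + TT (j + 1) n (Theta j n ρ L) S

lemma sq_Rp_le (hn : 0 < n) (ρ : Fn (Asg n)) (L : ℕ) (S : Finset (Asg n)) :
    (Rp j n ρ L S) ^ 2 ≤ Theta j n ρ L S := by
  have : NeZero n := ⟨hn.ne'⟩
  induction L generalizing S with
  | zero => simp [Rp, Theta]
  | succ L ih =>
    rw [Rp_succ]
    simp only [Pi.add_apply, Theta]
    have h1 := TT_sq_le (j := j) (Rp j n ρ L) hn S
    have h2 := (TT_markov (j + 1) n).ord _ _ (fun S => ih S) S
    nlinarith

/-- The survival sum. -/
noncomputable def Yf (j n M : ℕ) : Fn (Asg n) := ∑ r ∈ Finset.range M, ut j n (r + 1)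

/-- The kill rate. -/
noncomputable def kap (j n : ℕ) : Fn (Asg n) := fun S => g0 S - TT (j + 1) n g0 S

/-- The integrand. -/
noncomputable def zz (j n M : ℕ) : Fn (Asg n) := fun S => kap j n S * (1 + 2 * Yf j n M S)

lemma kap_eq (hn : 0 < n) (S : Finset (Asg n)) : kap j n S = gg S ^ (j + 1) * g0 S := by
  unfold kap
  rw [TT_g0 _ _ hn]
  ring

lemma kap_nonneg (hn : 0 < n) (S : Finset (Asg n)) : 0 ≤ kap j n S := by
  rw [kap_eq hn]
  exact mul_nonneg (pow_nonneg (gg_nonneg S) _) (g0_nonneg S)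

lemma Yf_nonneg [NeZero n] (M : ℕ) (S : Finset (Asg n)) : 0 ≤ Yf j n M S := by
  unfold Yf
  rw [Finset.sum_apply]
  exact Finset.sum_nonneg (fun r _ => ut_nonneg _ S)

lemma zz_nonneg (hn : 0 < n) (M : ℕ) (S : Finset (Asg n)) : 0 ≤ zz j n M S := by
  have : NeZero n := ⟨hn.ne'⟩
  unfold zz
  exact mul_nonneg (kap_nonneg hn S) (by linarith [Yf_nonneg (j := j) M S])

lemma sum_rho (hn : 0 < n) (S : Finset (Asg n)) :
    (∑ C : WCl (j + 1) n, rho C S) / (Fintype.card (WCl (j + 1) n) : ℝ) = kap j n S := by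
  have hN : (Fintype.card (WCl (j + 1) n) : ℝ) ≠ 0 := by
    rw [card_WCl]; positivity
  unfold kap rho TT
  rw [Avg_apply, Finset.sum_sub_distrib, Finset.sum_const, Finset.card_univ, nsmul_eq_mul, sub_div]
  congr 1
  field_simp

/-- Average of `Theta`. -/
noncomputable def aTheta (j n L : ℕ) : Fn (Asg n) :=
  (1 / (Fintype.card (WCl (j + 1) n) : ℝ)) • ∑ C : WCl (j + 1) n, Theta j n (rho C) L

lemma aTheta_le (hn : 0 < n) {L M : ℕ} (hLM : L ≤ M) (S : Finset (Asg n)) :
    aTheta j n L S ≤ ∑ s ∈ Finset.range L, ((TT (j + 1) n) ^ s) (zz j n M) S := by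
  have : NeZero n := ⟨hn.ne'⟩
  have hN : (0 : ℝ) < (Fintype.card (WCl (j + 1) n) : ℝ) := by
    rw [card_WCl]; positivity
  induction L generalizing S with
  | zero =>
    simp [aTheta, Theta]
  | succ L ih =>
    have ih' := fun S => ih (by omega) S
    -- split
    have e1 : aTheta j n (L + 1) S = (1 / (Fintype.card (WCl (j + 1) n) : ℝ)) *
        (∑ C : WCl (j + 1) n, (rho C S ^ 2 + 2 * rho C S * TT (j + 1) n (Rp j n (rho C) L) S))
        + TT (j + 1) n (aTheta j n L) S := by
      unfold aTheta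
      rw [map_smul, map_sum]
      simp only [Pi.smul_apply, smul_eq_mul, Finset.sum_apply, Theta]
      rw [← mul_add, ← Finset.sum_add_distrib]
    have e2 : ∑ s ∈ Finset.range (L + 1), ((TT (j + 1) n) ^ s) (zz j n M) S
        = zz j n M S + TT (j + 1) n (∑ s ∈ Finset.range L, ((TT (j + 1) n) ^ s) (zz j n M)) S := by
      rw [Finset.sum_range_succ', map_sum, Finset.sum_apply, add_comm]
      congr 1
      refine Finset.sum_congr rfl (fun s _ => ?_)
      rw [pow_succ']
      rfl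
    rw [e1, e2]
    have h2 := (TT_markov (j + 1) n).ord (aTheta j n L)
      (∑ s ∈ Finset.range L, ((TT (j + 1) n) ^ s) (zz j n M)) (fun S => by
        rw [Finset.sum_apply]
        exact ih' S) S
    have h3 : (1 / (Fintype.card (WCl (j + 1) n) : ℝ)) *
        (∑ C : WCl (j + 1) n, (rho C S ^ 2 + 2 * rho C S * TT (j + 1) n (Rp j n (rho C) L) S))
        ≤ zz j n M S := by
      have h4 : ∀ C : WCl (j + 1) n,
          rho C S ^ 2 + 2 * rho C S * TT (j + 1) n (Rp j n (rho C) L) S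
            ≤ rho C S * (1 + 2 * Yf j n M S) := by
        intro C
        rw [rho_sq]
        have h5 : TT (j + 1) n (Rp j n (rho C) L) S ≤ Yf j n M S := by
          have h6 : Rp j n (rho C) L ≤ Rp j n g0 L := by
            intro S
            unfold Rp
            simp only [Finset.sum_apply]
            apply Finset.sum_le_sum
            intro r _
            exact ((TT_markov (j + 1) n).pow r).ord _ _ (fun S => rho_le_g0 C S) S
          have h7 := (TT_markov (j + 1) n).ord _ _ h6 S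
          refine h7.trans ?_
          unfold Rp Yf
          rw [map_sum, Finset.sum_apply, Finset.sum_apply]
          have h8 : ∑ r ∈ Finset.range L, (TT (j + 1) n (((TT (j + 1) n) ^ r) g0)) S
              = ∑ r ∈ Finset.range L, ut j n (r + 1) S := by
            refine Finset.sum_congr rfl (fun r _ => ?_)
            rw [ut_succ]
            rfl
          rw [h8]
          apply Finset.sum_le_sum_of_subset_of_nonneg
          · exact Finset.range_subset_range.mpr (by omega)
          · intro r _ _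
            exact ut_nonneg _ S
        have h9 := rho_nonneg C S
        nlinarith
      have h10 := Finset.sum_le_sum (fun C (_ : C ∈ Finset.univ) => h4 C)
      rw [← Finset.sum_mul] at h10
      have h11 := mul_le_mul_of_nonneg_left h10 (by positivity :
        (0 : ℝ) ≤ 1 / (Fintype.card (WCl (j + 1) n) : ℝ))
      refine h11.trans (le_of_eq ?_)
      rw [← mul_assoc, one_div_mul_eq_div, sum_rho hn]
      rfl
    linarith

/-- Main bound for the conditional variance. -/
theorem CV_le (hn : 0 < n) (a : ℕ) {L M : ℕ} (hLM : L ≤ M) (S : Finset (Asg n)) :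
    CV j n (∑ t ∈ Finset.range L, ut j n (a + t)) S ≤
      ∑ s ∈ Finset.range L, ((TT (j + 1) n) ^ (a + s)) (zz j n M) S := by
  have : NeZero n := ⟨hn.ne'⟩
  have hN : (0 : ℝ) < (Fintype.card (WCl (j + 1) n) : ℝ) := by
    rw [card_WCl]; positivity
  set f : Fn (Asg n) := ∑ t ∈ Finset.range L, ut j n (a + t) with hf
  set N : ℝ := (Fintype.card (WCl (j + 1) n) : ℝ) with hNdef
  -- the elementary variance bound
  have h1 : CV j n f S ≤ (∑ C : WCl (j + 1) n, (f (S ∩ solW C) - f S) ^ 2) / N := by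
    unfold CV TT
    rw [Avg_apply, Avg_apply]
    have e : (∑ C : WCl (j + 1) n, (f (S ∩ solW C) - f S) ^ 2) / N
        = (∑ C : WCl (j + 1) n, f (S ∩ solW C) ^ 2) / N
          - 2 * f S * ((∑ C : WCl (j + 1) n, f (S ∩ solW C)) / N) + f S ^ 2 := by
      have e1 : ∀ C : WCl (j + 1) n, (f (S ∩ solW C) - f S) ^ 2
          = f (S ∩ solW C) ^ 2 - 2 * f S * f (S ∩ solW C) + f S ^ 2 := fun C => by ring
      simp only [e1]
      rw [Finset.sum_add_distrib, Finset.sum_sub_distrib, ← Finset.mul_sum, Finset.sum_const,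
        Finset.card_univ, nsmul_eq_mul]
      rw [← hNdef]
      field_simp
    rw [e]
    nlinarith [sq_nonneg ((∑ C : WCl (j + 1) n, f (S ∩ solW C)) / N - f S)]
  -- each difference
  have h2 : ∀ C : WCl (j + 1) n, (f (S ∩ solW C) - f S) ^ 2
      ≤ ((TT (j + 1) n) ^ a) (Theta j n (rho C) L) S := by
    intro C
    have e : f S - f (S ∩ solW C) = ((TT (j + 1) n) ^ a) (Rp j n (rho C) L) S := by
      rw [hf]
      unfold Rp
      rw [map_sum]
      simp only [Finset.sum_apply]
      rw [← Finset.sum_sub_distrib]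
      refine Finset.sum_congr rfl (fun t _ => ?_)
      have : ((TT (j + 1) n) ^ a) (((TT (j + 1) n) ^ t) (rho C)) = ((TT (j + 1) n) ^ (a + t)) (rho C) := by
        rw [pow_add]
        rfl
      rw [this, pow_rho]
    have h3 : (f (S ∩ solW C) - f S) ^ 2 = (((TT (j + 1) n) ^ a) (Rp j n (rho C) L) S) ^ 2 := by
      rw [← e]
      ring
    rw [h3]
    refine (pow_sq_le _ hn a S).trans ?_
    exact ((TT_markov (j + 1) n).pow a).ord _ _ (fun S => sq_Rp_le hn _ L S) S
  have h4 : (∑ C : WCl (j + 1) n, (f (S ∩ solW C) - f S) ^ 2) / N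
      ≤ ((TT (j + 1) n) ^ a) (aTheta j n L) S := by
    have h5 : ((TT (j + 1) n) ^ a) (aTheta j n L) S =
        (∑ C : WCl (j + 1) n, ((TT (j + 1) n) ^ a) (Theta j n (rho C) L) S) / N := by
      unfold aTheta
      rw [map_smul, map_sum]
      simp only [Pi.smul_apply, smul_eq_mul, Finset.sum_apply]
      rw [← hNdef]
      ring
    rw [h5]
    exact div_le_div_of_nonneg_right (Finset.sum_le_sum (fun C _ => h2 C)) hN.le
  have h6 : ((TT (j + 1) n) ^ a) (aTheta j n L) S
      ≤ ((TT (j + 1) n) ^ a) (∑ s ∈ Finset.range L, ((TT (j + 1) n) ^ s) (zz j n M)) S :=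
    ((TT_markov (j + 1) n).pow a).ord _ _ (fun S => by
      rw [Finset.sum_apply]
      exact aTheta_le hn hLM S) S
  have h7 : ((TT (j + 1) n) ^ a) (∑ s ∈ Finset.range L, ((TT (j + 1) n) ^ s) (zz j n M)) S
      = ∑ s ∈ Finset.range L, ((TT (j + 1) n) ^ (a + s)) (zz j n M) S := by
    rw [map_sum, Finset.sum_apply]
    refine Finset.sum_congr rfl (fun s _ => ?_)
    rw [pow_add]
    rfl
  linarith

end Vale.Agent.Lib.P170T
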